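import Vale.Agent.P240.R2.H923.U3

/-!
P240 (helper923), NL3: automorphisms of `SU_2(K)` that preserve the diagonal torus.
-/

set_option autoImplicit false
set_option linter.all false

namespace Vale.Agent.P240.R2.H923

open Matrix Subgroup
open Vale.Agent.P240.H195 (SLm GLm actf actf_val ff_aut)
open Vale.Agent.P240.R2.AS (GU SU PGU PSU SA mapGU SA_star)
open Vale.Agent.P240.R2.H986.St (F0 toK toK_star exists_toK card_F0 star_F0)

universe u

noncomputable section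

section aut
variable {K : Type u} [Field K] [Fintype K] [StarRing K] {q : ℕ}

/-- first step: a matrix `N` -/
theorem aut_su2_N (hq : 4 ≤ q) (hK : Nat.card K = q ^ 2) (hs : ∀ x : K, star x = x ^ q)
    (β : MulAut ↥(SU K 2)) : ∃ (N : Matrix (Fin 2) (Fin 2) K) (σ : SA K), N.det ≠ 0 ∧
      ∀ x : SU K 2, N * x.1.1.map σ.1 = (β x).1.1 * N := by
  have hK' : Fintype.card K = q ^ 2 := by rwa [Nat.card_eq_fintype_card] at hK
  obtain ⟨l, hl⟩ := H472.exists_norm hK' hs (c := (-1 : K)) (neg_ne_zero.2 one_ne_zero)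
    (by rw [star_neg, star_one])
  obtain ⟨d, hd⟩ := exists_delta (by omega) hK hs
  have hl0 : l ≠ 0 := by
    rintro rfl
    rw [mul_zero] at hl
    exact one_ne_zero (neg_eq_zero.1 hl.symm)
  obtain ⟨P, hPdef⟩ : ∃ P, P = Pm l d := ⟨_, rfl⟩
  have hdet : P.det ≠ 0 := by
    rw [hPdef, det_Pm]
    exact mul_ne_zero hl0 hd
  have hP : Pᴴ * P = (d - star d) • Jm K := by rw [hPdef, Pm_form hl]
  have hε : d - star d ≠ 0 := by
    intro h
    apply hd
    rw [← neg_sub, h, neg_zero]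
  obtain ⟨Q, hPQ⟩ : ∃ Q, P * Q = 1 := ⟨P⁻¹, Matrix.mul_nonsing_inv P (isUnit_iff_ne_zero.2 hdet)⟩
  have hQP : Q * P = 1 := mul_eq_one_comm.1 hPQ
  obtain ⟨ψ, hψ⟩ : ∃ ψ : SLm 1 (F0 K) ≃* SU K 2, ∀ X, ψ X = psi hPQ hP X :=
    ⟨MulEquiv.ofBijective (psi hPQ hP) (psi_bij hPQ hP hε), fun X => rfl⟩
  have hF : 4 ≤ Nat.card (F0 K) := by rw [card_F0 hK hs]; exact hq
  obtain ⟨M, τ, hγ⟩ := aut_sl2 hF ((ψ.trans β).trans ψ.symm)
  obtain ⟨σ, hσ⟩ := exists_ext hs τ
  have hval : ∀ X, (ψ X).1.1 = P * (X.1.map (toK K)) * Q := fun X => by rw [hψ]; rfl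
  have hβ : ∀ X, β (ψ X) = ψ (actf M τ X) := by
    intro X
    have h1 := hγ X
    change ψ.symm (β (ψ X)) = actf M τ X at h1
    rw [← h1, MulEquiv.apply_symm_apply]
  obtain ⟨A, hA⟩ : ∃ A, A = M.1.map (toK K) := ⟨_, rfl⟩
  obtain ⟨B, hB⟩ : ∃ B, B = (M⁻¹).1.map (toK K) := ⟨_, rfl⟩
  have hBA : B * A = 1 := by
    rw [hA, hB, ← Matrix.map_mul, ← Units.val_mul, inv_mul_cancel, Units.val_one]
    exact Matrix.map_one _ (map_zero _) (map_one _)
  have hAB : A * B = 1 := mul_eq_one_comm.1 hBA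
  have hmapmul : ∀ C D : Matrix (Fin 2) (Fin 2) K, (C * D).map σ.1 = C.map σ.1 * D.map σ.1 :=
    fun C D => by
      have : (C * D).map (σ.1 : K →+* K) = C.map (σ.1 : K →+* K) * D.map (σ.1 : K →+* K) :=
        Matrix.map_mul
      exact this
  have hmapone : (1 : Matrix (Fin 2) (Fin 2) K).map σ.1 = 1 :=
    Matrix.map_one _ (map_zero _) (map_one _)
  have hσQP : Q.map σ.1 * P.map σ.1 = 1 := by rw [← hmapmul, hQP, hmapone]
  have hσPQ : P.map σ.1 * Q.map σ.1 = 1 := mul_eq_one_comm.1 hσQP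
  refine ⟨P * A * Q.map σ.1, σ, ?_, ?_⟩
  · intro h0
    have h1 : (P * A * Q.map σ.1) * (P.map σ.1 * B * Q) = 1 := by
      calc _ = P * (A * ((Q.map σ.1 * P.map σ.1) * B)) * Q := by simp only [Matrix.mul_assoc]
        _ = 1 := by rw [hσQP, Matrix.one_mul, hAB, Matrix.mul_one, hPQ]
    have h2 := congrArg Matrix.det h1
    rw [det_mul, h0, zero_mul, det_one] at h2
    exact zero_ne_one h2
  · intro x
    obtain ⟨X, rfl⟩ := ψ.surjective x
    rw [hβ, hval, hval, hmapmul, hmapmul]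
    have h1 : (actf M τ X).1.map (toK K) = A * (X.1.map (toK K)).map σ.1 * B := by
      rw [actf_val, Matrix.map_mul, Matrix.map_mul, ← hA, ← hB]
      congr 2
      ext i j
      exact hσ _
    rw [h1]
    calc P * A * Q.map σ.1 * (P.map σ.1 * (X.1.map (toK K)).map σ.1 * Q.map σ.1)
        = P * A * ((Q.map σ.1 * P.map σ.1) * (X.1.map (toK K)).map σ.1) * Q.map σ.1 := by
          simp only [Matrix.mul_assoc]
      _ = P * A * (X.1.map (toK K)).map σ.1 * Q.map σ.1 := by rw [hσQP, Matrix.one_mul]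
      _ = P * A * (X.1.map (toK K)).map σ.1 * (B * (Q * P) * A) * Q.map σ.1 := by
          rw [hQP, Matrix.mul_one, hBA, Matrix.mul_one]
      _ = _ := by simp only [Matrix.mul_assoc]

/-- the automorphism `star` -/
def starSA (K : Type u) [Field K] [StarRing K] : SA K := ⟨starRingAut, fun x => rfl⟩

lemma starSA_apply (x : K) : (starSA K).1 x = star x := rfl

/-- automorphisms of `SU_2(K)` that preserve the diagonal torus -/
theorem aut_su2 (hq : 4 ≤ q) (hK : Nat.card K = q ^ 2) (hs : ∀ x : K, star x = x ^ q)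
    (β : MulAut ↥(SU K 2)) (hβ : ∀ x : SU K 2, x.1.1 1 0 = 0 → (β x).1.1 1 0 = 0) :
    ∃ (σ : SA K) (a : K), star a * a = 1 ∧
      ∀ x : SU K 2, (β x).1.1 0 0 = σ.1 (x.1.1 0 0) ∧ (β x).1.1 1 0 = a * σ.1 (x.1.1 1 0) := by
  obtain ⟨N, τ, hN, hx⟩ := aut_su2_N hq hK hs β
  obtain ⟨u, hu1, hu2⟩ := exists_unit (by omega) hK hs
  -- the entries
  have key : ∀ x : SU K 2, ∀ i j, N i 0 * τ.1 (x.1.1 0 j) + N i 1 * τ.1 (x.1.1 1 j) =
      (β x).1.1 i 0 * N 0 j + (β x).1.1 i 1 * N 1 j := by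
    intro x i j
    have h := congrFun (congrFun (hx x) i) j
    rw [Matrix.mul_apply, Matrix.mul_apply, Fin.sum_univ_two, Fin.sum_univ_two, Matrix.map_apply,
      Matrix.map_apply] at h
    exact h
  have hstar : ∀ a : K, star a * a = 1 → ∀ b, b = 0 → star a * a + star b * b = 1 := by
    intro a ha b hb
    rw [hb, star_zero, zero_mul, add_zero, ha]
  -- reduction: a pair `σ, a` without the norm condition
  suffices hsuf : ∃ (σ : SA K) (a : K), ∀ x : SU K 2, (β x).1.1 0 0 = σ.1 (x.1.1 0 0) ∧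
      (β x).1.1 1 0 = a * σ.1 (x.1.1 1 0) by
    obtain ⟨σ, a, h⟩ := hsuf
    refine ⟨σ, a, ?_, h⟩
    obtain ⟨h1, h2⟩ := h (su2 0 1 (by simp))
    obtain ⟨-, -, h3⟩ := su2_form (β (su2 0 1 (by simp)))
    rw [h1, h2, su2_val] at h3
    simpa using h3
  set x0 : SU K 2 := su2 u 0 (by rw [hu1]; simp) with hx0
  have hx00 : x0.1.1 0 0 = u := rfl
  have hx10 : x0.1.1 1 0 = 0 := rfl
  have hx11 : x0.1.1 1 1 = star u := rfl
  have hx01 : x0.1.1 0 1 = 0 := by
    change - star (0 : K) = 0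
    rw [star_zero, neg_zero]
  have hb10 : (β x0).1.1 1 0 = 0 := hβ x0 hx10
  have hb01 : (β x0).1.1 0 1 = 0 := by rw [(su2_form _).2.1, hb10, star_zero, neg_zero]
  have hτu : τ.1 u ≠ τ.1 (star u) := fun h => hu2 (τ.1.injective h)
  have k00 := key x0 0 0
  have k01 := key x0 0 1
  have k10 := key x0 1 0
  have k11 := key x0 1 1
  rw [hx00, hx10, hb01, map_zero, mul_zero, add_zero, zero_mul, add_zero] at k00
  rw [hx01, hx11, hb01, map_zero, mul_zero, zero_add, zero_mul, add_zero] at k01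
  rw [hx00, hx10, hb10, map_zero, mul_zero, add_zero, zero_mul, zero_add] at k10
  rw [hx01, hx11, hb10, map_zero, mul_zero, zero_add, zero_mul, zero_add] at k11
  have c1 : N 0 0 = 0 ∨ N 0 1 = 0 := by
    by_contra hcon
    push Not at hcon
    apply hτu
    have h1 : τ.1 u = (β x0).1.1 0 0 := by
      apply mul_left_cancel₀ hcon.1
      rw [k00, mul_comm]
    have h2 : τ.1 (star u) = (β x0).1.1 0 0 := by
      apply mul_left_cancel₀ hcon.2
      rw [k01, mul_comm]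
    rw [h1, h2]
  have c2 : N 1 0 = 0 ∨ N 1 1 = 0 := by
    by_contra hcon
    push Not at hcon
    apply hτu
    have h1 : τ.1 u = (β x0).1.1 1 1 := by
      apply mul_left_cancel₀ hcon.1
      rw [k10, mul_comm]
    have h2 : τ.1 (star u) = (β x0).1.1 1 1 := by
      apply mul_left_cancel₀ hcon.2
      rw [k11, mul_comm]
    rw [h1, h2]
  rw [Matrix.det_fin_two] at hN
  have c3 : (N 0 1 = 0 ∧ N 1 0 = 0 ∧ N 0 0 ≠ 0 ∧ N 1 1 ≠ 0) ∨
      (N 0 0 = 0 ∧ N 1 1 = 0 ∧ N 0 1 ≠ 0 ∧ N 1 0 ≠ 0) := by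
    rcases c1 with h1 | h1 <;> rcases c2 with h2 | h2
    · exfalso; apply hN; rw [h1, h2]; ring
    · right
      refine ⟨h1, h2, fun h => hN ?_, fun h => hN ?_⟩
      · rw [h1, h]; ring
      · rw [h1, h]; ring
    · left
      refine ⟨h1, h2, fun h => hN ?_, fun h => hN ?_⟩
      · rw [h1, h]; ring
      · rw [h1, h]; ring
    · exfalso; apply hN; rw [h1, h2]; ring
  rcases c3 with ⟨n01, n10, n00, n11⟩ | ⟨n00, n11, n01, n10⟩
  · refine ⟨τ, N 1 1 * (N 0 0)⁻¹, fun x => ⟨?_, ?_⟩⟩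
    · have h := key x 0 0
      rw [n01, n10, zero_mul, mul_zero, add_zero, add_zero] at h
      apply mul_right_cancel₀ n00
      rw [← h, mul_comm]
    · have h := key x 1 0
      rw [n10, mul_zero, add_zero, zero_mul, zero_add] at h
      apply mul_right_cancel₀ n00
      rw [← h]
      field_simp
  · refine ⟨τ * starSA K, - (N 1 0 * (N 0 1)⁻¹), fun x => ⟨?_, ?_⟩⟩
    · have h := key x 0 1
      rw [n00, n11, zero_mul, mul_zero, add_zero, zero_add] at h
      apply mul_right_cancel₀ n01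
      rw [← h, (su2_form x).1]
      change N 0 1 * τ.1 (star (x.1.1 0 0)) = τ.1 (star (x.1.1 0 0)) * N 0 1
      rw [mul_comm]
    · have h := key x 1 1
      rw [n11, mul_zero, add_zero, zero_mul, add_zero] at h
      apply mul_right_cancel₀ n01
      rw [← h, (su2_form x).2.1]
      change N 1 0 * τ.1 (- star (x.1.1 1 0)) = - (N 1 0 * (N 0 1)⁻¹) * τ.1 (star (x.1.1 1 0)) * N 0 1
      rw [map_neg]
      field_simp

end aut

end

end Vale.Agent.P240.R2.H923
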