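import Vale.Agent.P240.R2.H923.Core1
import Vale.Agent.P240.R2.H923.U4

/-!
P240 (helper923), NL3: the coordinate subgroups `SU_2(q)` of `PSU_n(q)` are preserved.
-/

set_option autoImplicit false
set_option linter.all false

namespace Vale.Agent.P240.R2.H923

open Matrix Subgroup
open Vale.Agent.P240.H195 (SLm GLm actf actf_val ff_aut)
open Vale.Agent.P240.R2.AS (GU SU PGU PSU SA mapGU SA_star)
open Vale.Agent.P240.R2.H986.St (F0 toK toK_star exists_toK card_F0 star_F0)

universe u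

noncomputable section

section perf
variable {K : Type u} [Field K] [Fintype K] [StarRing K] {q : ℕ}

theorem exists_psi (hq : 4 ≤ q) (hK : Nat.card K = q ^ 2) (hs : ∀ x : K, star x = x ^ q) :
    Nonempty (SLm 1 (F0 K) ≃* SU K 2) := by
  have hK' : Fintype.card K = q ^ 2 := by rwa [Nat.card_eq_fintype_card] at hK
  obtain ⟨l, hl⟩ := H472.exists_norm hK' hs (c := (-1 : K)) (neg_ne_zero.2 one_ne_zero)
    (by rw [star_neg, star_one])
  obtain ⟨d, hd⟩ := exists_delta (by omega) hK hs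
  have hl0 : l ≠ 0 := by
    rintro rfl
    rw [mul_zero] at hl
    exact one_ne_zero (neg_eq_zero.1 hl.symm)
  obtain ⟨P, hPdef⟩ : ∃ P, P = Pm l d := ⟨_, rfl⟩
  have hdet : P.det ≠ 0 := by
    rw [hPdef, det_Pm]
    exact mul_ne_zero hl0 hd
  have hP : Pᴴ * P = (d - star d) • Jm K := by rw [hPdef, Pm_form hl]
  have hε : d - star d ≠ 0 := by
    intro h
    apply hd
    rw [← neg_sub, h, neg_zero]
  obtain ⟨Q, hPQ⟩ : ∃ Q, P * Q = 1 := ⟨P⁻¹, Matrix.mul_nonsing_inv P (isUnit_iff_ne_zero.2 hdet)⟩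
  exact ⟨MulEquiv.ofBijective (psi hPQ hP) (psi_bij hPQ hP hε)⟩

theorem perfect_of_surj {G H : Type*} [Group G] [Group H] (f : G →* H)
    (hf : Function.Surjective f) (hG : commutator G = ⊤) : commutator H = ⊤ := by
  have h1 : (commutator G).map f = commutator H := by
    rw [commutator_def, commutator_def, Subgroup.map_commutator, ← MonoidHom.range_eq_map,
      MonoidHom.range_eq_top.2 hf]
  rw [← h1, hG, ← MonoidHom.range_eq_map, MonoidHom.range_eq_top.2 hf]

theorem su2_perfect (hq : 4 ≤ q) (hK : Nat.card K = q ^ 2) (hs : ∀ x : K, star x = x ^ q) :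
    commutator (SU K 2) = ⊤ := by
  obtain ⟨ψ⟩ := exists_psi hq hK hs
  exact perfect_of_surj ψ.toMonoidHom ψ.surjective (sl2_perfect (by rw [card_F0 hK hs]; exact hq))

end perf

section proj
variable {K : Type u} [Field K] [StarRing K] {n : ℕ}

/-- the projection `SU_n → PSU_n` -/
def pS (K : Type u) [Field K] [StarRing K] (n : ℕ) : SU K n →* PSU K n :=
  (QuotientGroup.mk' (Subgroup.center (GU K n))).subgroupMap (SU K n)

lemma pS_val (g : SU K n) : (pS K n g).1 = QuotientGroup.mk g.1 := rfl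

lemma pS_surj : Function.Surjective (pS K n) :=
  MonoidHom.subgroupMap_surjective _ _

lemma mem_SU {g : GU K n} : g ∈ SU K n ↔ g.1.det = 1 := Iff.rfl

/-- the embedding of `SU_2` -/
def ibS {i j : Fin n} (hij : i ≠ j) : SU K 2 →* SU K n where
  toFun B := ⟨ib K hij B.1, by rw [mem_SU, det_ib]; exact B.2⟩
  map_one' := Subtype.ext (map_one _)
  map_mul' B C := Subtype.ext (map_mul (ib K hij) B.1 C.1)

/-- the embedding of `SU_2` into `PSU_n` -/
def bb {i j : Fin n} (hij : i ≠ j) : SU K 2 →* PSU K n := (pS K n).comp (ibS hij)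

lemma bb_val {i j : Fin n} (hij : i ≠ j) (B : SU K 2) :
    (bb hij B).1 = QuotientGroup.mk (ib K hij B.1) := rfl

/-- two unitary matrices with the same class differ by a scalar -/
lemma scal_of_mk {ζ : K} (h1 : ζ ≠ 1) (h2 : ζ * star ζ = 1) {g g' : GU K n}
    (h : (QuotientGroup.mk g : PGU K n) = QuotientGroup.mk g') :
    ∃ c : K, c ≠ 0 ∧ g'.1 = c • g.1 := by
  rw [QuotientGroup.eq, H296.mem_center_iff h1 h2] at h
  obtain ⟨c, hc⟩ := h
  have h3 : g'.1 = c • g.1 := by
    have h4 : g' = g * (g⁻¹ * g') := by group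
    have h5 : g'.1 = g.1 * (g⁻¹ * g').1 := congrArg Subtype.val h4
    rw [h5, hc, Matrix.mul_smul, Matrix.mul_one]
  rcases Nat.eq_zero_or_pos n with h0 | h0
  · subst h0
    refine ⟨1, one_ne_zero, ?_⟩
    ext i j
    exact i.elim0
  · refine ⟨c, ?_, h3⟩
    rintro rfl
    rw [zero_smul] at h3
    have h6 := mul_conj g'
    rw [h3, Matrix.zero_mul] at h6
    have h7 := congrFun (congrFun h6 ⟨0, h0⟩) ⟨0, h0⟩
    rw [Matrix.one_apply_eq, Matrix.zero_apply] at h7
    exact zero_ne_one h7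

lemma isB_smul {i j : Fin n} {g g' : GU K n} {c : K} (h : g'.1 = c • g.1) (hg : IsB i j g) :
    IsB i j g' := by
  intro k hi hj l hl
  rw [h, Matrix.smul_apply, hg k hi hj l hl, smul_zero]

lemma bb_inj {ζ : K} (h1 : ζ ≠ 1) (h2 : ζ * star ζ = 1) {i j k : Fin n} (hij : i ≠ j)
    (hi : k ≠ i) (hj : k ≠ j) : Function.Injective (bb (K := K) hij) := by
  intro B C h
  have h3 : (QuotientGroup.mk (ib K hij B.1) : PGU K n) = QuotientGroup.mk (ib K hij C.1) :=
    congrArg Subtype.val h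
  obtain ⟨c, -, hc⟩ := scal_of_mk h1 h2 h3
  have h4 := congrFun (congrFun hc k) k
  rw [Matrix.smul_apply, (ib_isB hij C.1).2 k hi hj, (ib_isB hij B.1).2 k hi hj, smul_eq_mul,
    mul_one] at h4
  rw [← h4, one_smul] at hc
  apply Subtype.ext
  exact bkU_inj (Ef_iso hij) (Subtype.ext hc.symm)

/-- the block subgroups of `PSU_n` -/
def Cb {i j : Fin n} (hij : i ≠ j) : Subgroup (PSU K n) where
  carrier := {y | IsC i j y.1}
  one_mem' := ⟨1, IsB.one i j, rfl⟩
  mul_mem' := by
    rintro y y' ⟨g, hg, h⟩ ⟨g', hg', h'⟩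
    refine ⟨g * g', hg.mul hg', ?_⟩
    change y.1 * y'.1 = _
    rw [h, h']
    rfl
  inv_mem' := by
    rintro y ⟨g, hg, h⟩
    refine ⟨g⁻¹, hg.inv, ?_⟩
    change y.1⁻¹ = _
    rw [h]
    rfl

lemma mem_Cb {i j : Fin n} {hij : i ≠ j} {y : PSU K n} : y ∈ Cb hij ↔ IsC i j y.1 := Iff.rfl

lemma inv_kk' (g : GU K n) (k : Fin n) : (g⁻¹).1 k k = star (g.1 k k) := rfl

open scoped commutatorElement in
lemma comm_fix {i j : Fin n} {g g' : GU K n} (h : IsB i j g) (h' : IsB i j g') :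
    IsB i j ⁅g, g'⁆ ∧ ∀ k, k ≠ i → k ≠ j → (⁅g, g'⁆).1 k k = 1 := by
  rw [commutatorElement_def]
  refine ⟨((h.mul h').mul h.inv).mul h'.inv, fun k hi hj => ?_⟩
  rw [((h.mul h').mul h.inv).mul_kk h'.inv hi hj, (h.mul h').mul_kk h.inv hi hj,
    h.mul_kk h' hi hj, inv_kk', inv_kk']
  have e1 := h.col hi hj
  have e2 := h'.col hi hj
  linear_combination (g'.1 k k * star (g'.1 k k)) * e1 + e2

open scoped commutatorElement in
lemma det_comm (g g' : GU K n) : (⁅g, g'⁆).1.det = 1 := by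
  rw [commutatorElement_def]
  change (g.1 * g'.1 * g.1ᴴ * g'.1ᴴ).det = 1
  have e1 := congrArg Matrix.det (mul_conj g)
  have e2 := congrArg Matrix.det (mul_conj g')
  rw [det_mul, det_one] at e1 e2
  rw [det_mul, det_mul, det_mul]
  linear_combination (g'.1.det * g'.1ᴴ.det) * e1 + e2

open scoped commutatorElement in
theorem comm_Cb (hperf : commutator (SU K 2) = ⊤) {i j : Fin n} (hij : i ≠ j) :
    ⁅Cb (K := K) hij, Cb hij⁆ = (bb (K := K) hij).range := by
  apply le_antisymm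
  · rw [Subgroup.commutator_le]
    rintro y ⟨g, hg, h⟩ y' ⟨g', hg', h'⟩
    obtain ⟨a1, a2⟩ := comm_fix hg hg'
    obtain ⟨B, hB⟩ := fix_form hij a1 a2
    have hd : B.1.det = 1 := by rw [← det_ib hij, hB, det_comm]
    refine ⟨⟨B, hd⟩, ?_⟩
    apply Subtype.ext
    rw [bb_val, hB]
    have e1 : (⁅y, y'⁆).1 = ⁅y.1, y'.1⁆ := rfl
    rw [e1, h, h']
    rfl
  · have h1 : (bb (K := K) hij).range ≤ Cb hij := by
      rintro _ ⟨B, rfl⟩
      exact ⟨ib K hij B.1, (ib_isB hij B.1).1, rfl⟩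
    have h2 : (bb (K := K) hij).range = ⁅(bb (K := K) hij).range, (bb (K := K) hij).range⁆ := by
      rw [MonoidHom.range_eq_map, ← Subgroup.map_commutator, ← commutator_def, hperf]
    rw [h2]
    exact Subgroup.commutator_mono h1 h1

open scoped commutatorElement in
theorem map_bb (hperf : commutator (SU K 2) = ⊤) {α : MulAut ↥(PSU K n)} (hα : CoreHyp α)
    {i j : Fin n} (hij : i ≠ j) :
    ((bb (K := K) hij).range).map α.toMonoidHom = (bb (K := K) hij).range := by
  have h1 : (Cb (K := K) hij).map α.toMonoidHom = Cb hij := by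
    ext y
    constructor
    · rintro ⟨x, hx, rfl⟩
      exact (hα i j hij x).1 hx
    · intro hy
      refine ⟨α.symm y, ?_, α.apply_symm_apply y⟩
      have h2 := hα i j hij (α.symm y)
      rw [MulEquiv.apply_symm_apply] at h2
      exact h2.2 hy
  rw [← comm_Cb hperf hij, Subgroup.map_commutator, h1]

end proj

end

end Vale.Agent.P240.R2.H923
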