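import Vale.Agent.P240.R2.H487.DP6
import Vale.Agent.P240.R2.H923.Core2

/-!
P240 (helper923): `PSU_n(q)`, `n` a power of `2`, as a subgroup of `lin1` (487's group generated by
`PGL_n(K)` and the graph automorphism, `|K| = q ^ 2`): definitions and literal rows.
-/

set_option autoImplicit false
set_option linter.all false

namespace Vale.Agent.P240.R2.H923.PU

open Matrix Subgroup Vale.Agent.P240.K Vale.Agent.P240.H195
open Vale.Agent.P240.R2.AS (GU SU PGU PSU SA mapGU SA_star act)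
open Vale.Agent.P240.R2.H487 (Ww Vv HM PP lin1 jL gL)
open scoped Classical

universe u

noncomputable section

variable {K : Type u} [Field K] [StarRing K] {a m : ℕ}

/-- the unitary group in the general linear group -/
def gU : GU K (m + 1) →* GLm m K := Unitary.toUnits

/-- the homomorphism from the special unitary group -/
def tU (K : Type u) [Field K] [StarRing K] (m : ℕ) : SU K (m + 1) →* lin1 m K :=
  (jL m K).comp (gU.comp (SU K (m + 1)).subtype)

/-- the subgroup `PSU_n(q)` of `lin1` -/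
def LU (K : Type u) [Field K] [StarRing K] (m : ℕ) : Subgroup (lin1 m K) := (tU K m).range

/-- the elements of a half torus whose conjugates by `Z` are in `PSU_n(q)` -/
def mU (i0 : K) (σ : Fin (m + 1) ≃ Vv a) (b : Ww a) (Z : GLm m K) : Set Kˣ :=
  {la | ∃ V : SU K (m + 1), ∃ d : K, V.1.1 * Z.1 = d • (Z.1 * HM i0 σ b la)}

/-- ROW C (helper112): THE COUNT, `n = 4` (`m = 3`, `a = 2`); from it `MXU` follows by
(squaring is two to one) -/
def StmtC : Prop := ∀ (K : Type u) [Field K] [Fintype K] [StarRing K] (q : ℕ), 9 ≤ q → Odd q →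
  Nat.card K = q ^ 2 → (∀ x : K, star x = x ^ q) → ∀ (i : Kˣ), (i : K) * i = -1 →
  ∀ (σ : Fin (3 + 1) ≃ Vv 2) (b : Ww 2) (Z : GLm 3 K) (X : SU K (3 + 1)) (c : K), b ≠ 0 →
    X.1.1 * Z.1 = c • (Z.1 * PP (i : K) σ b) →
      12 ≤ Nat.card {la : Kˣ // la ^ 2 ∈ mU (i : K) σ b Z}

/-- ROW C' : the three numbers from the first -/
def StmtC' : Prop := ∀ (K : Type u) [Field K] [Fintype K] [StarRing K], (2 : K) ≠ 0 →
  ∀ (m a : ℕ) (i0 : K) (σ : Fin (m + 1) ≃ Vv a) (b : Ww a) (Z : GLm m K),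
    12 ≤ Nat.card {la : Kˣ // la ^ 2 ∈ mU i0 σ b Z} →
      3 * Nat.card {la : Kˣ // la ∈ mU i0 σ b Z ∧ la ^ 4 = 1} ≤
        2 * Nat.card {la : Kˣ // la ∈ mU i0 σ b Z} ∧
      ∃ la ∈ mU i0 σ b Z, la ^ 4 ≠ 1

/-- ROW I (helper613): involutions of `Aut(PSU_n(q))`; `gU` conjugation and the graph -/
def StmtI : Prop := ∀ (K : Type u) [Field K] [Fintype K] [StarRing K] (q : ℕ), 9 ≤ q → Odd q →
  Nat.card K = q ^ 2 → (∀ x : K, star x = x ^ q) → ∀ n : ℕ, 3 ≤ n →
  ∀ f : MulAut ↥(PSU K n), f ^ 2 = 1 → ∃ g : GU K n,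
    (∀ y : ↥(PSU K n), (f y).1 = QuotientGroup.mk g * y.1 * (QuotientGroup.mk g)⁻¹) ∨
    (∀ X X' : GU K n, X'.1 = X.1.map star → ∀ y : ↥(PSU K n), y.1 = QuotientGroup.mk X →
      (f y).1 = QuotientGroup.mk g * QuotientGroup.mk X' * (QuotientGroup.mk g)⁻¹)

end

end Vale.Agent.P240.R2.H923.PU
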