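import Vale.Agent.P240.R2.H923.PUDefs
import Vale.Agent.P240.R2.H472.PH
import Vale.Agent.P240.R2.H651.Inj
import Vale.Agent.P240.H195.FF
import Vale.Agent.P240.R2.H487.LP3

/-!
P240 (helper923): involutions of `Aut(PSU_n(q))`, `q > 3` odd.
-/

set_option autoImplicit false
set_option linter.all false

namespace Vale.Agent.P240.R2.H923.PU

open Matrix Subgroup Vale.Agent.P240.K Vale.Agent.P240.H195
open Vale.Agent.P240.R2.AS
open scoped Classical

universe u

theorem invU {K : Type} [Field K] [Fintype K] [StarRing K] {q : ℕ} (hq : 3 < q)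
    (h2 : (2 : K) ≠ 0) (hK : Nat.card K = q ^ 2) (hs : ∀ x : K, star x = x ^ q) {n : ℕ}
    (hn : 3 ≤ n) (f : MulAut ↥(PSU K n)) (hf : f ^ 2 = 1) : ∃ g : GU K n,
    (∀ y : ↥(PSU K n), (f y).1 = QuotientGroup.mk g * y.1 * (QuotientGroup.mk g)⁻¹) ∨
    (∀ X X' : GU K n, X'.1 = X.1.map star → ∀ y : ↥(PSU K n), y.1 = QuotientGroup.mk X →
      (f y).1 = QuotientGroup.mk g * QuotientGroup.mk X' * (QuotientGroup.mk g)⁻¹) := by
  obtain ⟨s, g, hfg⟩ := H472.tr_PSU hq hK hs h2 hn f
  -- the element of `PΓU`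
  have hx : (⟨QuotientGroup.mk g, s⟩ * ⟨QuotientGroup.mk g, s⟩ : PGamU K n) = 1 := by
    refine H651.inj_all (by omega) hK hs hn _ ?_
    rintro _ ⟨y, hy, rfl⟩
    have key : ∀ z : ↥(PSU K n), (⟨QuotientGroup.mk g, s⟩ : PGamU K n) *
        SemidirectProduct.inl z.1 = SemidirectProduct.inl (f z).1 * ⟨QuotientGroup.mk g, s⟩ := by
      intro z
      have h1 := hfg z
      apply SemidirectProduct.ext
      · rw [SemidirectProduct.mul_left, SemidirectProduct.mul_left, SemidirectProduct.left_inl,
          SemidirectProduct.left_inl, SemidirectProduct.right_inl, map_one, MulAut.one_apply, h1,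
          inv_mul_cancel_right]
      · rw [SemidirectProduct.mul_right, SemidirectProduct.mul_right, SemidirectProduct.right_inl,
          SemidirectProduct.right_inl, mul_one, one_mul]
    have h3 : f (f ⟨y, hy⟩) = ⟨y, hy⟩ := by
      have := congrArg (fun g : MulAut (PSU K n) => g ⟨y, hy⟩) hf
      exact this
    have h4 := key ⟨y, hy⟩
    have h5 := key (f ⟨y, hy⟩)
    rw [h3] at h5
    change _ * SemidirectProduct.inl y = SemidirectProduct.inl y * _
    rw [mul_assoc]
    change _ * (_ * SemidirectProduct.inl (⟨y, hy⟩ : ↥(PSU K n)).1) = _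
    rw [h4, ← mul_assoc, h5, mul_assoc]
  have hs2 : s * s = 1 := by
    have h1 := congrArg SemidirectProduct.right hx
    rw [SemidirectProduct.mul_right, SemidirectProduct.one_right] at h1
    exact h1
  refine ⟨g, ?_⟩
  by_cases h1 : s.1 = 1
  · left
    intro y
    have h3 : s = 1 := Subtype.ext h1
    rw [hfg y, h3, map_one, MulAut.one_apply]
  · right
    obtain ⟨r, hr, hchar⟩ := H487.exists_char K
    obtain ⟨k, -, h3, h4⟩ := ff_quad (r := r) h1 (by
      rw [pow_two]
      exact congrArg Subtype.val hs2)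
    have h5 : q = r ^ k := by
      rw [hK] at h3
      exact Nat.pow_left_injective (by norm_num : 2 ≠ 0) h3
    have h6 : ∀ x : K, s.1 x = star x := fun x => by rw [h4, hs, h5]
    intro X X' hX' y hy
    rw [hfg y, hy]
    have h7 : X' = mapGU s X := by
      apply Subtype.ext
      rw [hX']
      ext i j
      exact (h6 _).symm
    rw [h7]
    rfl

end Vale.Agent.P240.R2.H923.PU
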