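import Vale.Agent.P240.R2.H923.PU1
import Vale.Agent.P240.R2.H923.PU3
import Vale.Agent.P240.R2.H112.PC2
import Vale.Agent.P240.R2.H979.AutT
import Vale.Agent.P240.R2.H487.DP8
import Vale.Agent.P240.R2.H487.TF

/-!
P240 (helper923): `LocTopF` for `PSU_n(q)`, `n ≥ 4` a power of `2`, `q ≥ 9` odd, at the prime `2`.
-/

set_option autoImplicit false
set_option linter.all false

namespace Vale.Agent.P240.R2.H923.PU

open Matrix Subgroup Vale.Agent.P240.K Vale.Agent.P240.H195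
open Vale.Agent.P240.R2.AS (GU SU PGU PSU SA mapGU SA_star act)
open Vale.Agent.P240.R2.H487

universe u v w

/-- **`LocTopF` for `PSU_n(q)`** at the prime `2`, `n ≥ 4` a power of `2`, `q ≥ 9` odd -/
theorem locTopF_PSU2pow {K : Type} [Field K] [Fintype K] [StarRing K] {n q a : ℕ} (ha : 2 ≤ a)
    (hn : n = 2 ^ a) (hq : 9 ≤ q) (ho : Odd q)
    (hK : Nat.card K = q ^ 2) (hs : ∀ x : K, star x = x ^ q) {G : Type v} [Group G] [Finite G]
    (kk : Type w) [Field kk] {L : Subgroup G} (e : PSU K n ≃* L) : LocTopF kk 2 L := by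
  obtain ⟨m, rfl⟩ : ∃ m, n = m + 1 := ⟨n - 1, by
    have : 0 < n := by rw [hn]; positivity
    omega⟩
  have h4m : 4 ∣ m + 1 := by
    rw [hn]
    exact pow_dvd_pow 2 ha
  have hm3 : 3 ≤ m := by
    have := Nat.le_of_dvd (by omega) h4m
    omega
  obtain ⟨r, hr, hchar⟩ := exists_char K
  have hKo : Nat.card K % 2 = 1 := by
    rw [hK]
    exact Nat.odd_iff.1 ho.pow
  obtain ⟨k, hk⟩ := ho
  have hK4 : Nat.card K % 4 = 1 := by
    rw [hK, hk]
    have : (2 * k + 1) ^ 2 = 4 * (k ^ 2 + k) + 1 := by ring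
    omega
  have hK81 : 81 ≤ Nat.card K := by
    rw [hK]
    nlinarith
  have h2 : (2 : K) ≠ 0 := two_ne hKo
  have ho : Odd q := ⟨k, hk⟩
  obtain ⟨i0, hi0⟩ : ∃ i0 : K, i0 * i0 = -1 := by
    have h1 : IsSquare (-1 : K) := by
      rw [FiniteField.isSquare_neg_one_iff, ← Nat.card_eq_fintype_card]
      omega
    obtain ⟨x, hx⟩ := h1
    exact ⟨x, hx.symm⟩
  have hi00 : i0 ≠ 0 := by
    rintro rfl
    rw [mul_zero, zero_eq_neg] at hi0
    exact one_ne_zero hi0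
  obtain ⟨i, hi'⟩ : ∃ i : Kˣ, (i : K) = i0 := ⟨Units.mk0 i0 hi00, rfl⟩
  have hi : (i : K) * i = -1 := by rw [hi', hi0]
  have σ : Fin (m + 1) ≃ Vv a := (Fintype.equivFinOfCardEq (by
    rw [Fintype.card_fun, ZMod.card, Fintype.card_fin, hn])).symm
  have num : NumA K := H979.numA hK4 ⟨by omega, by omega, by omega⟩
  obtain ⟨ζ, -, hζ1, hζ2⟩ := H296.exists_zeta hK hs Nat.prime_two (by
    rw [hk]; exact ⟨k + 1, by ring⟩ : 2 ∣ q + 1)
  have hx : MXU (i : K) σ := by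
    intro b Z X c hb hX
    exact H112.PC.mxU hK hs ho hq hi h4m hb hX
  have hinv : InvU K (m + 1) := fun f hf => invU (by omega) h2 hK hs (by omega) f hf
  refine H979.locTopF_of_autTop (𝕜 := kk) e ?_ ?_
  · exact centreU h2 hi σ (r := r) hζ1 hζ2 ha hn hx
  · exact autTopU_of_mx h2 hi σ (r := r) hζ1 hζ2 ha hn num hx hinv

/-- `L` is isomorphic to `PSU_n(q)`, `n ≥ 4` a power of `2`, `q ≥ 9` odd -/
def PSU2PowFac (L : Type u) [Group L] : Prop :=
  ∃ (n a q : ℕ) (K : Type) (_ : Field K) (_ : Fintype K) (_ : StarRing K), Nat.card K = q ^ 2 ∧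
    (∀ x : K, star x = x ^ q) ∧ 2 ≤ a ∧ n = 2 ^ a ∧ 9 ≤ q ∧ Odd q ∧ Nonempty (L ≃* ↥(PSU K n))

theorem PSU2PowFac.topFac (𝕜 : Type v) [Field 𝕜] {L : Type u} [Group L] (h : PSU2PowFac L) :
    TopFac 𝕜 2 L := by
  obtain ⟨n, a, q, K, hF1, hF2, hF3, hK, hs, ha, hn, hq, ho, ⟨e⟩⟩ := h
  intro G _ _ M ⟨f⟩
  exact locTopF_PSU2pow ha hn hq ho hK hs 𝕜 (e.symm.trans f)

end Vale.Agent.P240.R2.H923.PU
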