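import Vale.Agent.P240.R2.H923.CDefs

/-!
P240 (helper923): TR for `q` even (all automorphisms of `PSU_n(q)` are semilinear): exact statements
of the rows.
-/

set_option autoImplicit false
set_option linter.all false

namespace Vale.Agent.P240.R2.H923.TR

open Matrix Subgroup
open Vale.Agent.P240.R2.AS (GU SU PGU PSU SA mapGU SA_star act)
open scoped Classical

universe u

/-- `K` has `q ^ 2` elements, `star x = x ^ q` -/
structure Fq (K : Type u) [Field K] [StarRing K] (q : ℕ) : Prop where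
  card : Nat.card K = q ^ 2
  star : ∀ x : K, star x = x ^ q

/-- monomial with permutation `π`: the column `i` has its only entry in the row `π i` -/
def Mon {K : Type u} [Field K] [StarRing K] {n : ℕ} (h : GU K n) (π : Equiv.Perm (Fin n)) : Prop :=
  ∀ i l, l ≠ π i → h.1 l i = 0

/-- diagonal -/
def Dia {K : Type u} [Field K] [StarRing K] {n : ℕ} (h : GU K n) : Prop :=
  ∀ i l, l ≠ i → h.1 l i = 0

/-- ROW P0 -/
def StmtP0 : Prop := ∀ (K : Type u) [Field K] [Fintype K] (q : ℕ), Nat.card K = q ^ 2 → Even q →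
  4 ≤ q → q ≠ 8 → ∃ p : ℕ, p.Prime ∧ 5 ≤ p ∧ p ∣ q + 1

/-- ROW V (vertex lemma): a map on pairs that preserves triangles comes from a permutation -/
def StmtV : Prop := ∀ (n : ℕ), 3 ≤ n → ∀ φ : Finset (Fin n) → Finset (Fin n),
  (∀ s, s.card = 2 → (φ s).card = 2) →
  (∀ s t, s.card = 2 → t.card = 2 → φ s = φ t → s = t) →
  (∀ i j k, i ≠ j → i ≠ k → j ≠ k → (φ {i, j} ∪ φ {j, k} ∪ φ {i, k}).card = 3) →
  ∃ π : Equiv.Perm (Fin n), ∀ i j, i ≠ j → φ {i, j} = {π i, π j}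

/-- ROW F: every `p`-subgroup of `PGU_n(q)`, `p` odd, `p ∣ q + 1`, stabilises an unordered frame -/
def StmtF : Prop := ∀ (K : Type u) [Field K] [Fintype K] [StarRing K] (q : ℕ), 3 ≤ q → Fq K q →
  ∀ (p : ℕ) [Fact p.Prime], p ≠ 2 → p ∣ q + 1 → ∀ (n : ℕ), 1 ≤ n → ∀ E : Subgroup (PGU K n),
  IsPGroup p E → ∃ g0 : GU K n, ∀ y ∈ E, ∃ (h : GU K n) (π : Equiv.Perm (Fin n)), Mon h π ∧
    y = QuotientGroup.mk (g0 * h * g0⁻¹)

/-- ROW M: the numbers -/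
def StmtM : Prop := ∀ (K : Type u) [Field K] [Finite K] (p n : ℕ) [Fact p.Prime], 5 ≤ p →
  ∀ (A : Subgroup (Equiv.Perm (Fin n))), (∀ a ∈ A, ∀ b ∈ A, a * b = b * a) →
  (∀ a ∈ A, a ^ p = 1) → A ≠ ⊥ → ∀ D : Set (Fin n → K),
  (∀ c ∈ D, (∀ i, c i ^ p = 1) ∧ ∀ a ∈ A, ∃ z : K, ∀ i, c (a i) = z * c i) →
  (∀ c ∈ D, ∀ d ∈ D, (fun i => c i * (d i)⁻¹) ∈ D) →
  Nat.card A * Nat.card D ≤ p ^ (n - 2)

/-- ROW T: elementary abelian `p`-subgroups of order at least `p ^ (n - 2)`, `p ≥ 5`, are diagonal -/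
def StmtT : Prop := ∀ (K : Type u) [Field K] [Fintype K] [StarRing K] (q : ℕ), 3 ≤ q → Fq K q →
  ∀ (p : ℕ) [Fact p.Prime], 5 ≤ p → p ∣ q + 1 → ∀ (n : ℕ), 3 ≤ n → ∀ E : Subgroup (PGU K n),
  (∀ x ∈ E, ∀ y ∈ E, x * y = y * x) → (∀ x ∈ E, x ^ p = 1) → p ^ (n - 2) ≤ Nat.card E →
  ∃ g0 : GU K n, ∀ y ∈ E, ∃ h : GU K n, Dia h ∧ y = QuotientGroup.mk (g0 * h * g0⁻¹)

/-- TR for `q` even -/
def StmtTReven : Prop := ∀ (K : Type u) [Field K] [Fintype K] [StarRing K] (q : ℕ), 4 ≤ q → q ≠ 8 →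
  Even q → Fq K q → ∀ n : ℕ, 3 ≤ n → ∀ α : MulAut ↥(PSU K n),
    ∃ (s : SA K) (g : GU K n), ∀ y : ↥(PSU K n),
      ((α y : ↥(PSU K n)) : PGU K n) =
        (QuotientGroup.mk g : PGU K n) * act n s (y : PGU K n) * (QuotientGroup.mk g : PGU K n)⁻¹

end Vale.Agent.P240.R2.H923.TR
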