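import Vale.Agent.P240.R2.H923.Core3
import Vale.Agent.P240.R2.H257.SUFin

/-!
P240 (helper923), NL3: the core theorem. An automorphism of `PSU_n(q)`, `n ≥ 3`, `q ≥ 4`, that
preserves the block subgroups is a field automorphism followed by a diagonal one.
-/

set_option autoImplicit false
set_option linter.all false

namespace Vale.Agent.P240.R2.H923

open Matrix Subgroup
open Vale.Agent.P240.R2.AS (GU SU PGU PSU SA mapGU SA_star)

universe u

noncomputable section

section core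
variable {K : Type u} [Field K] [Fintype K] [StarRing K] {q n : ℕ}

lemma bb_conj {i j k : Fin n} (hij : i ≠ j) (hik : i ≠ k) (hjk : j ≠ k) (a : K)
    (ha : star a * a = 1) (h : star (0 : K) * 0 + star a * a = 1) (x : SU K 2) (y : SU K 2)
    (hy : y.1 = dg2 a ha * x.1 * (dg2 a ha)⁻¹) :
    bb hjk (su2 0 a h) * bb hij x * (bb hjk (su2 0 a h))⁻¹ = bb hik y := by
  apply Subtype.ext
  change (QuotientGroup.mk (ib K hjk (su2 0 a h).1) : PGU K n) * QuotientGroup.mk (ib K hij x.1) *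
    (QuotientGroup.mk (ib K hjk (su2 0 a h).1))⁻¹ = QuotientGroup.mk (ib K hik y.1)
  have h1 : ib K hjk (su2 0 a h).1 * ib K hij x.1 * (ib K hjk (su2 0 a h).1)⁻¹ = ib K hik y.1 := by
    have h2 := weyl_Ef hij hik hjk a ha h
    have h3 : (Ef K i k * (dg2 a ha).1)ᴴ * (Ef K i k * (dg2 a ha).1) = 1 :=
      isom_mulR (Ef_iso hik) (dg2 a ha)
    rw [hy]
    change _ * bkU (Ef K i j) (Ef_iso hij) x.1 * _ = bkU (Ef K i k) (Ef_iso hik) _
    rw [conj_bkU (Ef_iso hij) h3 _ h2, bkU_mulR (Ef_iso hik) h3 (dg2 a ha) rfl]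
  rw [← h1]
  rfl

/-- all field automorphisms agree -/
theorem sigma_eq (hq : 4 ≤ q) (hK : Nat.card K = q ^ 2) (hs : ∀ x : K, star x = x ^ q)
    {α : MulAut ↥(PSU K n)} {i j k : Fin n} (hij : i ≠ j) (hik : i ≠ k) (hjk : j ≠ k)
    {σ σ' τ : SA K} {a a' b : K} (ha : star a * a = 1) (ha' : star a' * a' = 1)
    (hb : star b * b = 1) (h1 : ∀ x : SU K 2, α (bb hij x) = bb hij (tw σ a ha x))
    (h2 : ∀ x : SU K 2, α (bb hik x) = bb hik (tw σ' a' ha' x))
    (h3 : ∀ x : SU K 2, α (bb hjk x) = bb hjk (tw τ b hb x)) : ∀ y : K, σ.1 y = σ'.1 y := by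
  have hK' : Fintype.card K = q ^ 2 := by rwa [Nat.card_eq_fintype_card] at hK
  obtain ⟨ζ, hζ1, hζ2⟩ := exists_zeta1 hq hK hs
  have hinj := bb_inj hζ1 hζ2 hik (Ne.symm hij) hjk
  intro y
  -- an element with upper left entry `y`
  obtain ⟨c, hc⟩ : ∃ c : K, star c * c = 1 - star y * y := by
    by_cases h0 : 1 - star y * y = 0
    · exact ⟨0, by rw [h0, mul_zero]⟩
    · refine H472.exists_norm hK' hs h0 ?_
      rw [star_sub, star_one, star_mul, star_star]
  obtain ⟨x, hx⟩ : ∃ x : SU K 2, x.1.1 0 0 = y := ⟨su2 y c (by rw [hc]; ring), rfl⟩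
  have e1 : star (1 : K) * 1 = 1 := by rw [star_one, one_mul]
  have e2 : star (0 : K) * 0 + star (1 : K) * 1 = 1 := by rw [mul_zero, zero_add, e1]
  have e3 : star (0 : K) * 0 + star b * b = 1 := by rw [mul_zero, zero_add, hb]
  have hone : dg2 (1 : K) e1 = 1 := by
    apply Subtype.ext
    change !![(1 : K), 0; 0, 1] = 1
    exact Matrix.one_fin_two.symm
  have k1 := bb_conj hij hik hjk 1 e1 e2 x x (by rw [hone, one_mul, inv_one, mul_one])
  have hdet : ∀ D : GU K 2, ∀ z : SU K 2, (D * z.1 * D⁻¹) ∈ SU K 2 := by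
    intro D z
    change (D.1 * z.1.1 * D.1ᴴ).det = 1
    have h5 := congrArg Matrix.det (mul_conj D)
    have h6 : z.1.1.det = 1 := z.2
    rw [det_mul, det_one] at h5
    rw [det_mul, det_mul, h6, mul_one, h5]
  have k2 := bb_conj hij hik hjk b hb e3 (tw σ a ha x)
    ⟨dg2 b hb * (tw σ a ha x).1 * (dg2 b hb)⁻¹, hdet _ _⟩ rfl
  have htw : tw τ b hb (su2 0 1 e2) = su2 0 b e3 := by
    apply su2_ext
    · change τ.1 0 = 0
      rw [map_zero]
    · change b * τ.1 1 = b
      rw [map_one, mul_one]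
  have k3 := congrArg α k1
  rw [map_mul, map_mul, map_inv, h1, h2, h3, htw, k2] at k3
  have k4 := hinj k3
  have k5 : (dg2 b hb * (tw σ a ha x).1 * (dg2 b hb)⁻¹).1 0 0 = (tw σ' a' ha' x).1.1 0 0 :=
    congrArg (fun z : SU K 2 => z.1.1 0 0) k4
  rw [conj_tw _ b hb rfl] at k5
  change σ.1 (x.1.1 0 0) = σ'.1 (x.1.1 0 0) at k5
  rwa [hx] at k5

/-- diagonal unitary matrices -/
def dgN (A : Fin n → K) (hA : ∀ i, star (A i) * A i = 1) : GU K n :=
  ⟨Matrix.diagonal A, by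
    rw [Matrix.mem_unitaryGroup_iff', Matrix.star_eq_conjTranspose, diagonal_conjTranspose,
      diagonal_mul_diagonal, ← diagonal_one]
    congr 1
    ext i
    exact hA i⟩

omit [Fintype K] in
lemma dgN_Ef {A : Fin n → K} (hA : ∀ i, star (A i) * A i = 1) {i j : Fin n} (hij : i ≠ j)
    (h0 : A i = 1) : (dgN A hA).1 * Ef K i j = Ef K i j * (dg2 (A j) (hA j)).1 := by
  ext m l
  rw [mul_Ef, Ef_mul]
  change (Matrix.diagonal A) m (![i, j] l) = _
  rw [Matrix.diagonal_apply]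
  fin_cases l
  · change (if m = i then A m else 0) = (if m = i then (1 : K) else 0) + (if m = j then 0 else 0)
    rw [ite_self, add_zero]
    by_cases hm : m = i
    · subst hm; rw [if_pos rfl, if_pos rfl, h0]
    · rw [if_neg hm, if_neg hm]
  · change (if m = j then A m else 0) = (if m = i then (0 : K) else 0) + (if m = j then A j else 0)
    rw [ite_self, zero_add]
    by_cases hm : m = j
    · subst hm; rw [if_pos rfl]
    · rw [if_neg hm, if_neg hm]

omit [Fintype K] in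
lemma mapGU_ib (σ : SA K) {i j : Fin n} (hij : i ≠ j) (B : GU K 2) :
    mapGU σ (ib K hij B) = ib K hij (mapGU σ B) := by
  apply Subtype.ext
  change (bkM (Ef K i j) B.1).map σ.1 = bkM (Ef K i j) (B.1.map σ.1)
  have hmap : ∀ {a b c : ℕ} (C : Matrix (Fin a) (Fin b) K) (D : Matrix (Fin b) (Fin c) K),
      (C * D).map σ.1 = C.map σ.1 * D.map σ.1 := by
    intro a b c C D
    have : (C * D).map (σ.1 : K →+* K) = C.map (σ.1 : K →+* K) * D.map (σ.1 : K →+* K) :=
      Matrix.map_mul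
    exact this
  have hE : (Ef K i j).map σ.1 = Ef K i j := by
    ext m l
    rw [Matrix.map_apply, Ef_apply]
    split_ifs
    · exact map_one _
    · exact map_zero _
  have hEH : ((Ef K i j)ᴴ).map σ.1 = (Ef K i j)ᴴ := by
    ext m l
    rw [Matrix.map_apply, conjTranspose_apply, SA_star]
    have := congrFun (congrFun hE l) m
    rw [Matrix.map_apply] at this
    rw [this]
  have hadd : ∀ (C D : Matrix (Fin n) (Fin n) K), (C + D).map σ.1 = C.map σ.1 + D.map σ.1 := by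
    intro C D
    ext m l
    exact map_add σ.1 _ _
  have hsub : ∀ (C D : Matrix (Fin 2) (Fin 2) K), (C - D).map σ.1 = C.map σ.1 - D.map σ.1 := by
    intro C D
    ext m l
    exact map_sub σ.1 _ _
  rw [bkM, bkM, hadd, hmap, hmap, hsub, hE, hEH, Matrix.map_one _ (map_zero _) (map_one _),
    Matrix.map_one _ (map_zero _) (map_one _)]

/-- **The core theorem.** -/
theorem core (hq : 4 ≤ q) (hK : Nat.card K = q ^ 2) (hs : ∀ x : K, star x = x ^ q) (hn : 3 ≤ n)
    (α : MulAut ↥(PSU K n)) (hα : CoreHyp α) :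
    ∃ (σ : SA K) (A : Fin n → K) (hA : ∀ i, star (A i) * A i = 1), ∀ g : SU K n,
      (α (pS K n g)).1 =
        QuotientGroup.mk (dgN A hA * mapGU σ g.1 * (dgN A hA)⁻¹) := by
  classical
  obtain ⟨i0, i1, i2, h01, h02, h12⟩ : ∃ i0 i1 i2 : Fin n, i0 ≠ i1 ∧ i0 ≠ i2 ∧ i1 ≠ i2 :=
    ⟨⟨0, by omega⟩, ⟨1, by omega⟩, ⟨2, by omega⟩, by simp, by simp, by simp⟩
  have hthird : ∀ i j : Fin n, ∃ k : Fin n, k ≠ i ∧ k ≠ j := by
    intro i j
    by_contra hcon
    push Not at hcon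
    by_cases a0 : i0 = i
    · have b1 := hcon i1 (by rw [← a0]; exact h01.symm)
      have b2 := hcon i2 (by rw [← a0]; exact h02.symm)
      exact h12 (b1.trans b2.symm)
    · have b0 := hcon i0 a0
      by_cases a1 : i1 = i
      · have b2 := hcon i2 (by rw [← a1]; exact h12.symm)
        exact h02 (b0.trans b2.symm)
      · exact h01 (b0.trans (hcon i1 a1).symm)
  have hp : ∀ i j : Fin n, ∀ hij : i ≠ j, ∃ (σ : SA K) (a : K) (ha : star a * a = 1),
      ∀ x : SU K 2, α (bb hij x) = bb hij (tw σ a ha x) := by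
    intro i j hij
    obtain ⟨k, hk1, hk2⟩ := hthird i j
    exact pair hq hK hs hα hij hk1 hk2
  obtain ⟨σ, a1, ha1, hσ⟩ := hp i0 i1 h01
  -- all pairs `i0, j`
  have hall : ∀ j : Fin n, ∃ a : K, star a * a = 1 ∧ ∀ (hj : i0 ≠ j) (ha : star a * a = 1),
      ∀ x : SU K 2, α (bb hj x) = bb hj (tw σ a ha x) := by
    intro j
    by_cases hj : i0 = j
    · exact ⟨1, by rw [star_one, one_mul], fun h => absurd hj h⟩
    · by_cases hj1 : i1 = j
      · subst hj1
        exact ⟨a1, ha1, fun _ _ x => hσ x⟩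
      · obtain ⟨τ, b, hb, h3⟩ := hp i1 j hj1
        obtain ⟨σ', a', ha', h2⟩ := hp i0 j hj
        have he := sigma_eq hq hK hs h01 hj hj1 ha1 ha' hb hσ h2 h3
        have he' : σ = σ' := Subtype.ext (RingEquiv.ext he)
        subst he'
        exact ⟨a', ha', fun _ _ x => h2 x⟩
  choose A0 hA0 hA1 using hall
  obtain ⟨A, hAdef⟩ : ∃ A : Fin n → K, A = Function.update A0 i0 1 := ⟨_, rfl⟩
  have hAi0 : A i0 = 1 := by rw [hAdef, Function.update_self]
  have hAj : ∀ j, i0 ≠ j → A j = A0 j := by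
    intro j hj
    rw [hAdef, Function.update_of_ne (Ne.symm hj)]
  have hA : ∀ i, star (A i) * A i = 1 := by
    intro i
    by_cases h : i0 = i
    · subst h; rw [hAi0, star_one, one_mul]
    · rw [hAj i h]; exact hA0 i
  refine ⟨σ, A, hA, ?_⟩
  -- the two homomorphisms
  let f1 : SU K n →* PGU K n := (PSU K n).subtype.comp (α.toMonoidHom.comp (pS K n))
  let f2 : SU K n →* PGU K n := (QuotientGroup.mk' (Subgroup.center (GU K n))).comp
    ((MulAut.conj (dgN A hA)).toMonoidHom.comp ((mapGU σ).comp (SU K n).subtype))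
  have hf2 : ∀ g, f2 g = QuotientGroup.mk (dgN A hA * mapGU σ g.1 * (dgN A hA)⁻¹) := fun g => rfl
  have hH : H257.HasCoordAt i0 ((f1.eqLocus f2).map (SU K n).subtype) := by
    intro j hj g hg hfix
    have hij : i0 ≠ j := Ne.symm hj
    have hcol : ∀ k, k ≠ i0 → k ≠ j → ∀ l, g.1 l k = if l = k then 1 else 0 := by
      intro k hk1 hk2 l
      have h1 := congrFun (hfix k hk1 hk2) l
      rw [Matrix.mulVec_single_one] at h1
      change g.1 l k = _ at h1
      rw [h1, Pi.single_apply]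
    have hB : IsB i0 j g := fun k hk1 hk2 l hl => by rw [hcol k hk1 hk2 l, if_neg hl]
    obtain ⟨B, hBg⟩ := fix_form hij hB (fun k hk1 hk2 => by rw [hcol k hk1 hk2 k, if_pos rfl])
    have hBd : B.1.det = 1 := by rw [← det_ib hij, hBg, hg]
    refine ⟨⟨g, hg⟩, ?_, rfl⟩
    change f1 ⟨g, hg⟩ = f2 ⟨g, hg⟩
    have e1 : (⟨g, hg⟩ : SU K n) = ibS hij ⟨B, hBd⟩ := Subtype.ext hBg.symm
    rw [e1, hf2]
    change (α (bb hij ⟨B, hBd⟩)).1 = QuotientGroup.mk (dgN A hA * mapGU σ (ib K hij B) * (dgN A hA)⁻¹)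
    rw [hA1 j hij (hA0 j), bb_val, tw_eq, mapGU_ib]
    congr 1
    have h2 := dgN_Ef hA hij hAi0
    have h3 : (Ef K i0 j * (dg2 (A j) (hA j)).1)ᴴ * (Ef K i0 j * (dg2 (A j) (hA j)).1) = 1 :=
      isom_mulR (Ef_iso hij) (dg2 (A j) (hA j))
    change _ = _ * bkU (Ef K i0 j) (Ef_iso hij) _ * _
    rw [conj_bkU (Ef_iso hij) h3 _ h2, bkU_mulR (Ef_iso hij) h3 (dg2 (A j) (hA j)) rfl]
    have h4 : dg2 (A0 j) (hA0 j) = dg2 (A j) (hA j) := by
      apply Subtype.ext
      change !![(1 : K), 0; 0, A0 j] = !![(1 : K), 0; 0, A j]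
      rw [hAj j hij]
    rw [h4]
    rfl
  intro g
  have h5 := H257.SU_gen_at (by omega) hK hs n i0 _ hH g.1 g.2
  obtain ⟨g', hg', hgg⟩ := h5
  have h6 : g' = g := Subtype.ext hgg
  subst h6
  exact hg'

end core

end

end Vale.Agent.P240.R2.H923
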