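import Vale.Agent.P240.R2.H923.RowT
import Vale.Agent.P240.R2.H252.P0
import Vale.Agent.P240.R2.H252.V
import Vale.Agent.P240.R2.H744.RowM
import Vale.Agent.P240.R2.H257.RowF

/-!
P240 (helper923), TR for `q` even: the theorem (rows P0, V by helper252, F by helper257, M by helper744).
-/

set_option autoImplicit false
set_option linter.all false

namespace Vale.Agent.P240.R2.H923.TR

universe u

theorem trEven_of_F (hF : StmtF.{u}) : StmtTReven.{u} :=
  trEven Vale.Agent.P240.R2.H252.stmtP0 Vale.Agent.P240.R2.H252.stmtV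
    (rowT hF Vale.Agent.P240.R2.H744.rowM)

/-- elementary abelian `p`-subgroups of `PGU_n(q)` of order at least `p ^ (n - 2)`, `p ≥ 5`,
`p ∣ q + 1`, are diagonal in a frame -/
theorem stmtT : StmtT.{u} := rowT Vale.Agent.P240.R2.H257.rowF Vale.Agent.P240.R2.H744.rowM

/-- **TR for `q` even**: every automorphism of `PSU_n(q)`, `n ≥ 3`, `q ≥ 4` even, `q ≠ 8`, is
semilinear -/
theorem stmtTReven : StmtTReven.{u} := trEven_of_F Vale.Agent.P240.R2.H257.rowF

end Vale.Agent.P240.R2.H923.TR
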