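import Vale.Agent.P240.R2.H687.TDefs
import Mathlib.FieldTheory.Finite.Basic

/-!
Row (T1): the number of vectors of norm one of the quadratic form `x² - y² + z² - ε w²`.
-/

set_option autoImplicit false

namespace Vale.Agent.P240.R2.H923.T1

variable {K : Type*} [Field K]

lemma one_sub_ne {ε : K} (hε : ¬ IsSquare ε) (m : K) : 1 - ε * m ^ 2 ≠ 0 := by
  intro h
  have hm : m ≠ 0 := by
    rintro rfl
    simp at h
  apply hε
  refine ⟨m⁻¹, ?_⟩
  have h1 : ε * m ^ 2 = 1 := (sub_eq_zero.1 h).symm
  field_simp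
  linear_combination h1

lemma add_one_ne {ε z w : K} (hε : ¬ IsSquare ε) (h : z ^ 2 - ε * w ^ 2 = 1)
    (hn : ¬ (z = -1 ∧ w = 0)) : z + 1 ≠ 0 := by
  intro h0
  have hz : z = -1 := by linear_combination h0
  have he : ε ≠ 0 := by
    rintro rfl
    exact hε ⟨0, by simp⟩
  have hw : ε * w ^ 2 = 0 := by rw [hz] at h; linear_combination -h
  have hw' : w = 0 := by simpa [he] using hw
  exact hn ⟨hz, hw'⟩

open scoped Classical in
/-- the conic `z² - ε w² = 1` -/
noncomputable def conic (ε : K) (h2 : (2 : K) ≠ 0) (hε : ¬ IsSquare ε) :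
    {p : K × K // p.1 ^ 2 - ε * p.2 ^ 2 = 1} ≃ Option K where
  toFun p := if p.1.1 = -1 ∧ p.1.2 = 0 then none else some (p.1.2 / (p.1.1 + 1))
  invFun o := match o with
    | none => ⟨(-1, 0), by simp⟩
    | some m => ⟨(2 / (1 - ε * m ^ 2) - 1, 2 / (1 - ε * m ^ 2) * m), by
        have := one_sub_ne hε m
        simp only
        field_simp
        ring⟩
  left_inv := by
    rintro ⟨⟨z, w⟩, h⟩
    simp only at h
    by_cases hn : z = -1 ∧ w = 0
    · obtain ⟨rfl, rfl⟩ := hn
      simp
    · simp only [hn, if_false]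
      apply Subtype.ext
      have hz := add_one_ne hε h hn
      have h1 : 1 - ε * (w / (z + 1)) ^ 2 = 2 / (z + 1) := by
        field_simp
        linear_combination h
      have h3 : 2 / (1 - ε * (w / (z + 1)) ^ 2) = z + 1 := by
        rw [h1]
        field_simp
      simp only [h3]
      ext
      · simp
      · simp only
        field_simp
  right_inv := by
    intro o
    cases o with
    | none => simp
    | some m =>
      have h := one_sub_ne hε m
      have h1 : ¬ (2 / (1 - ε * m ^ 2) - 1 = -1 ∧ 2 / (1 - ε * m ^ 2) * m = 0) := by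
        rintro ⟨h3, _⟩
        have h4 : 2 / (1 - ε * m ^ 2) = 0 := by linear_combination h3
        rw [div_eq_zero_iff] at h4
        exact h4.elim h2 h
      simp only [h1, if_false]
      congr 1
      field_simp
      ring_nf
      rw [mul_assoc, inv_mul_cancel₀ h2, mul_one]

open scoped Classical in
/-- the sphere -/
noncomputable def sph (ε : K) (h2 : (2 : K) ≠ 0) :
    {v : Fin 4 → K // v 0 ^ 2 - v 1 ^ 2 + v 2 ^ 2 - ε * v 3 ^ 2 = 1} ≃
      (Kˣ × (K × K)) ⊕ (K × {p : K × K // p.1 ^ 2 - ε * p.2 ^ 2 = 1}) where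
  toFun v := if h : v.1 0 - v.1 1 = 0 then
      Sum.inr (v.1 0 + v.1 1, ⟨(v.1 2, v.1 3), by
        have := v.2
        linear_combination this - (v.1 0 + v.1 1) * h⟩)
    else Sum.inl (Units.mk0 _ h, (v.1 2, v.1 3))
  invFun s := match s with
    | Sum.inl (a, (z, w)) =>
      ⟨![((a : K) + (1 - (z ^ 2 - ε * w ^ 2)) / a) / 2, ((1 - (z ^ 2 - ε * w ^ 2)) / a - a) / 2,
        z, w], by
        have ha : (a : K) ≠ 0 := a.ne_zero
        simp
        field_simp
        ring⟩
    | Sum.inr (b, p) => ⟨![b / 2, b / 2, p.1.1, p.1.2], by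
        have := p.2
        simp
        exact this⟩
  left_inv := by
    rintro ⟨v, hv⟩
    apply Subtype.ext
    by_cases h : v 0 - v 1 = 0
    · simp only [h, dif_pos]
      have h1 : v 1 = v 0 := by linear_combination -h
      funext i
      fin_cases i <;> simp [h1] <;> field_simp <;> ring
    · simp only [h, dif_neg, not_false_eq_true]
      have h3 : (1 - (v 2 ^ 2 - ε * v 3 ^ 2)) / (v 0 - v 1) = v 0 + v 1 := by
        rw [div_eq_iff h]
        linear_combination -hv
      funext i
      fin_cases i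
      · simp [h3]; field_simp; ring
      · simp [h3]; field_simp; ring
      · simp
      · simp
  right_inv := by
    rintro (⟨a, z, w⟩ | ⟨b, ⟨p, hp⟩⟩)
    · have ha : (a : K) ≠ 0 := a.ne_zero
      have h1 : ((a : K) + (1 - (z ^ 2 - ε * w ^ 2)) / a) / 2 -
          ((1 - (z ^ 2 - ε * w ^ 2)) / a - a) / 2 = a := by
        field_simp
        ring
      simp [h1]
    · simp
      field_simp
      ring

theorem stmtCount : H687.T.StmtCount := by
  intro K _ _ ε h2 hε
  classical
  rw [Nat.card_congr (sph ε h2), Nat.card_sum, Nat.card_prod, Nat.card_prod, Nat.card_prod,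
    Nat.card_congr (conic ε h2 hε)]
  have h1 : Nat.card (Option K) = Nat.card K + 1 := by
    rw [Nat.card_eq_fintype_card, Fintype.card_option, Nat.card_eq_fintype_card]
  have h3 : Nat.card Kˣ + 1 = Nat.card K := by
    rw [Nat.card_eq_fintype_card, Nat.card_eq_fintype_card, Fintype.card_units]
    have : 0 < Fintype.card K := Fintype.card_pos
    omega
  rw [h1, ← h3]
  ring

end Vale.Agent.P240.R2.H923.T1
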