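import Vale.Agent.P240.R2.H923.Core4
import Vale.Agent.P240.R2.H38.UDefs

/-!
P240 (helper923), NL3: elements of `N_G(L)` act on `L = PSU_n(q)` by semilinear maps.
-/

set_option autoImplicit false
set_option linter.all false

namespace Vale.Agent.P240.R2.H923

open Matrix Subgroup
open Vale.Agent.P240.R2.AS (GU SU PGU PSU SA mapGU SA_star)
open Vale.Agent.P240.R2.H38 (mt Acts)

universe u v

noncomputable section

/-- an element that normalises the image acts on the quotient -/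
theorem lift_aut {S P G : Type*} [Group S] [Group P] [Group G] [Finite P] (p : S →* P)
    (hp : Function.Surjective p) (ε : S →* G) (hk : ∀ g, p g = 1 ↔ ε g = 1) (x : G)
    (hx : ∀ g, ∃ g1, x * ε g * x⁻¹ = ε g1) :
    ∃ α : MulAut P, ∀ g g1, x * ε g * x⁻¹ = ε g1 → α (p g) = p g1 := by
  have hpe : ∀ a b, p a = p b ↔ ε a = ε b := by
    intro a b
    have h := hk (a⁻¹ * b)
    rw [map_mul, map_inv, map_mul, map_inv, inv_mul_eq_one, inv_mul_eq_one] at h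
    exact h
  choose h hh using hx
  obtain ⟨α0, hα0⟩ : ∃ α0 : P → P, ∀ g g1, x * ε g * x⁻¹ = ε g1 → α0 (p g) = p g1 := by
    refine ⟨fun y => p (h (Function.surjInv hp y)), fun g g1 he => ?_⟩
    rw [hpe, ← hh, ← he]
    have h1 : ε (Function.surjInv hp (p g)) = ε g := by
      rw [← hpe]
      exact Function.surjInv_eq hp (p g)
    rw [h1]
  obtain ⟨φ, hφ⟩ : ∃ φ : P →* P, ∀ y, φ y = α0 y := by
    refine ⟨⟨⟨α0, ?_⟩, ?_⟩, fun y => rfl⟩
    · have h1 := hα0 1 1 (by rw [map_one, mul_one, mul_inv_cancel])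
      rwa [map_one] at h1
    · intro y y'
      obtain ⟨a, rfl⟩ := hp y
      obtain ⟨b, rfl⟩ := hp y'
      change α0 (p a * p b) = α0 (p a) * α0 (p b)
      rw [hα0 a _ (hh a), hα0 b _ (hh b), ← map_mul, ← map_mul]
      refine hα0 (a * b) _ ?_
      rw [map_mul, map_mul, ← hh, ← hh]
      group
  have hinj : Function.Injective φ := by
    intro y y' he
    obtain ⟨a, rfl⟩ := hp y
    obtain ⟨b, rfl⟩ := hp y'
    rw [hφ, hφ, hα0 a _ (hh a), hα0 b _ (hh b), hpe, ← hh, ← hh] at he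
    rw [hpe]
    exact mul_left_cancel (mul_right_cancel he)
  refine ⟨MulEquiv.ofBijective φ (Finite.injective_iff_bijective.1 hinj), fun g g1 he => ?_⟩
  change φ (p g) = p g1
  rw [hφ, hα0 g g1 he]

section frames
variable {K : Type u} [Field K] [Fintype K] [StarRing K] {q n : ℕ}

omit [Fintype K] in
lemma conj_det (D : GU K n) {z : GU K n} (hz : z.1.det = 1) : (D * z * D⁻¹).1.det = 1 := by
  change (D.1 * z.1 * D.1ᴴ).det = 1
  have h5 := congrArg Matrix.det (mul_conj D)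
  rw [det_mul, det_one] at h5
  rw [det_mul, det_mul, hz, mul_one, h5]

instance SU_normal : (SU K n).Normal := ⟨fun z hz D => conj_det D hz⟩

instance PSU_normal : (PSU K n).Normal :=
  Subgroup.Normal.map inferInstance _ (QuotientGroup.mk'_surjective _)

/-- conjugation by an element of `PGU_n` -/
def cjP (D : GU K n) : MulAut ↥(PSU K n) := MulAut.conjNormal (QuotientGroup.mk D : PGU K n)

omit [Fintype K] in
lemma cjP_val (D : GU K n) (y : PSU K n) :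
    (cjP D y).1 = QuotientGroup.mk D * y.1 * (QuotientGroup.mk D)⁻¹ :=
  MulAut.conjNormal_apply _ _

/-- the core theorem for another frame -/
theorem core_frame (hq : 4 ≤ q) (hK : Nat.card K = q ^ 2) (hs : ∀ x : K, star x = x ^ q)
    (hn : 3 ≤ n) (α : MulAut ↥(PSU K n)) (g0 : GU K n)
    (hα : CoreHyp ((cjP g0)⁻¹ * α * cjP g0)) :
    ∃ (σ : SA K) (D : GU K n), ∀ g : SU K n,
      (α (pS K n g)).1 = QuotientGroup.mk (D * mapGU σ g.1 * D⁻¹) := by
  obtain ⟨σ, A, hA, h⟩ := core hq hK hs hn _ hα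
  refine ⟨σ, g0 * dgN A hA * mapGU σ g0⁻¹, fun g => ?_⟩
  obtain ⟨g', hg'⟩ : ∃ g' : SU K n, g'.1 = g0⁻¹ * g.1 * g0 :=
    ⟨⟨g0⁻¹ * g.1 * g0, by
      have := conj_det g0⁻¹ (z := g.1) g.2
      rwa [inv_inv] at this⟩, rfl⟩
  have h1 := h g'
  have h2 : cjP g0 (pS K n g') = pS K n g := by
    apply Subtype.ext
    rw [cjP_val, pS_val, pS_val, hg']
    change (QuotientGroup.mk (g0 * (g0⁻¹ * g.1 * g0) * g0⁻¹) : PGU K n) = QuotientGroup.mk g.1
    congr 1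
    group
  have h3 : ((cjP g0)⁻¹ * α * cjP g0) (pS K n g') = (cjP g0)⁻¹ (α (pS K n g)) := by
    change (cjP g0)⁻¹ (α (cjP g0 (pS K n g'))) = _
    rw [h2]
  rw [h3] at h1
  have h4 : α (pS K n g) = cjP g0 ((cjP g0)⁻¹ (α (pS K n g))) := by
    change _ = (cjP g0 * (cjP g0)⁻¹) (α (pS K n g))
    rw [mul_inv_cancel]
    rfl
  rw [h4, cjP_val, h1]
  change (QuotientGroup.mk (g0 * (dgN A hA * mapGU σ g'.1 * (dgN A hA)⁻¹) * g0⁻¹) : PGU K n) = _
  congr 1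
  rw [hg', map_mul, map_mul, map_inv]
  group

end frames

section acts
variable {K : Type u} [Field K] [Fintype K] [StarRing K] {q n : ℕ} {G : Type v} [Group G]

/-- the two definitions of `SU_n` -/
def suE (K : Type u) [Field K] [Fintype K] [StarRing K] (n : ℕ) : SU K n →* H38.SU K n where
  toFun g := ⟨g.1, g.2⟩
  map_one' := rfl
  map_mul' _ _ := rfl

/-- from the core theorem to 38's definition of the action -/
theorem acts_of_core (hq : 4 ≤ q) (hK : Nat.card K = q ^ 2) (hs : ∀ x : K, star x = x ^ q)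
    (hn : 3 ≤ n) {ε : H38.SU K n →* G}
    (hker : ∀ g : H38.SU K n, ε g = 1 ↔ ∃ c : K, mt g = c • (1 : Matrix (Fin n) (Fin n) K))
    (x : G) (hx : ∀ g, ∃ g1, x * ε g * x⁻¹ = ε g1) (g0 : GU K n)
    (hα : ∀ α : MulAut ↥(PSU K n), (∀ g g1 : H38.SU K n, x * ε g * x⁻¹ = ε g1 →
      α (pS K n ⟨g.1, g.2⟩) = pS K n ⟨g1.1, g1.2⟩) → CoreHyp ((cjP g0)⁻¹ * α * cjP g0)) :
    ∃ g σ, Acts ε x g σ := by
  obtain ⟨ζ, hζ1, hζ2⟩ := exists_zeta1 hq hK hs
  have hk : ∀ g : SU K n, pS K n g = 1 ↔ (ε.comp (suE K n)) g = 1 := by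
    intro g
    have e1 : (ε.comp (suE K n)) g = ε ⟨g.1, g.2⟩ := rfl
    rw [e1, hker]
    have e2 : pS K n g = 1 ↔ (QuotientGroup.mk g.1 : PGU K n) = 1 := by
      rw [← pS_val, ← OneMemClass.coe_eq_one]
    rw [e2, QuotientGroup.eq_one_iff, H296.mem_center_iff hζ1 hζ2]
    rfl
  have hx' : ∀ g : SU K n, ∃ g1 : SU K n, x * (ε.comp (suE K n)) g * x⁻¹ = (ε.comp (suE K n)) g1 := by
    intro g
    obtain ⟨g1, h1⟩ := hx ⟨g.1, g.2⟩
    exact ⟨⟨g1.1, g1.2⟩, h1⟩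
  obtain ⟨α, h⟩ := lift_aut (pS K n) pS_surj (ε.comp (suE K n)) hk x hx'
  obtain ⟨σ, D, hD⟩ := core_frame hq hK hs hn α g0
    (hα α fun g g1 he => h ⟨g.1, g.2⟩ ⟨g1.1, g1.2⟩ he)
  refine ⟨D, σ.1, fun a => SA_star σ a, fun g g' hg => ?_⟩
  obtain ⟨g1, h1⟩ := hx g
  have h2 := h ⟨g.1, g.2⟩ ⟨g1.1, g1.2⟩ h1
  have h3 := hD ⟨g.1, g.2⟩
  have h4 : (pS K n ⟨g'.1, g'.2⟩).1 = QuotientGroup.mk (D * mapGU σ g.1 * D⁻¹) := by
    rw [pS_val]
    congr 1
    exact Subtype.ext hg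
  have h5 : pS K n ⟨g1.1, g1.2⟩ = pS K n ⟨g'.1, g'.2⟩ := by
    apply Subtype.ext
    rw [h4, ← h3, h2]
  have h6 : pS K n (⟨g1.1, g1.2⟩⁻¹ * ⟨g'.1, g'.2⟩) = 1 := by
    rw [map_mul, map_inv, h5, inv_mul_cancel]
  rw [hk, map_mul, map_inv, inv_mul_eq_one] at h6
  rw [h1]
  exact h6

end acts

end

end Vale.Agent.P240.R2.H923
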