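import Vale.Agent.P240.R2.H923.Act
import Vale.Agent.P240.R2.H257.Cij

/-!
P240 (helper923), NL3: elements that centralise the `p`-torsion of the torus of a frame act on
`PSU_n(q)` by semilinear maps (the case `p ∣ n` included).
-/

set_option autoImplicit false
set_option linter.all false

namespace Vale.Agent.P240.R2.H923

open Matrix Subgroup
open Vale.Agent.P240.R2.AS (GU SU PGU PSU SA mapGU SA_star)
open Vale.Agent.P240.R2.H38 (mt Acts)

universe u v

noncomputable section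

variable {K : Type u} [Field K] [Fintype K] [StarRing K] {q n : ℕ} {G : Type v} [Group G]

theorem acts_of_fixD {p : ℕ} (hp : p.Prime) (hpq : p ∣ q + 1) (hq : 4 ≤ q)
    (hK : Nat.card K = q ^ 2) (hs : ∀ x : K, star x = x ^ q) (hn : 3 ≤ n) (hp2 : p = 2 → n ≠ 4)
    (hp3 : p = 3 → n ≠ 3) {ε : H38.SU K n →* G}
    (hker : ∀ g : H38.SU K n, ε g = 1 ↔ ∃ c : K, mt g = c • (1 : Matrix (Fin n) (Fin n) K))
    (x : G) (hx : ∀ g, ∃ g1, x * ε g * x⁻¹ = ε g1) (g0 : GU K n)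
    (hfix : ∀ (s : H38.SU K n) (c : Fin n → K) (z : K), (∀ i, c i ^ p = 1) →
      mt s = z • (g0.1 * Matrix.diagonal c * star g0.1) → x * ε s = ε s * x) :
    ∃ g σ, Acts ε x g σ := by
  obtain ⟨ζ, hζ1, hζ2⟩ := exists_zeta1 hq hK hs
  refine acts_of_core hq hK hs hn hker x hx g0 fun α hα => ?_
  refine H257.coreHyp_fixD hp hpq (by omega) hK hs hn hp2 hp3 _ ?_
  rintro y ⟨c, hc, hy⟩
  by_cases hmem : Matrix.diagonal c ∈ Matrix.unitaryGroup (Fin n) K
  · rw [H775.Aut.dg, dif_pos hmem] at hy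
    obtain ⟨s0, rfl⟩ := pS_surj y
    rw [pS_val] at hy
    obtain ⟨z, -, hz⟩ := scal_of_mk hζ1 hζ2 (g := ⟨Matrix.diagonal c, hmem⟩) (g' := s0.1) hy.symm
    obtain ⟨s, hsd⟩ : ∃ s : H38.SU K n, s.1 = g0 * s0.1 * g0⁻¹ :=
      ⟨⟨g0 * s0.1 * g0⁻¹, conj_det g0 s0.2⟩, rfl⟩
    have h1 : mt s = z • (g0.1 * Matrix.diagonal c * star g0.1) := by
      change s.1.1 = _
      rw [hsd]
      change g0.1 * s0.1.1 * g0.1ᴴ = _
      rw [hz, Matrix.mul_smul, Matrix.smul_mul]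
      rfl
    have h2 := hfix s c z hc h1
    have h3 := hα s s (by rw [h2]; group)
    have h4 : cjP g0 (pS K n s0) = pS K n ⟨s.1, s.2⟩ := by
      apply Subtype.ext
      rw [cjP_val, pS_val, pS_val]
      change _ = QuotientGroup.mk s.1
      rw [hsd]
      rfl
    change (cjP g0)⁻¹ (α (cjP g0 (pS K n s0))) = _
    rw [h4, h3, ← h4]
    change ((cjP g0)⁻¹ * cjP g0) (pS K n s0) = _
    rw [inv_mul_cancel]
    rfl
  · rw [H775.Aut.dg, dif_neg hmem] at hy
    have h1 : y = 1 := Subtype.ext hy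
    rw [h1, map_one]

end

end Vale.Agent.P240.R2.H923
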