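import Vale.Agent.P240.R2.AS.Defs2

/-!
P240 (helper923), NL3: block embeddings of unitary groups.
-/

set_option autoImplicit false
set_option linter.all false

namespace Vale.Agent.P240.R2.H923

open Matrix Subgroup
open Vale.Agent.P240.R2.AS (GU SU PGU PSU SA mapGU SA_star)

noncomputable section

section bk
variable {K : Type*} [Field K] [StarRing K] {ι κ : Type*} [Fintype ι] [DecidableEq ι]
  [Fintype κ] [DecidableEq κ]

/-- the matrix which is `B` on the image of the isometry `V` and `1` on the complement -/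
def bkM (V : Matrix ι κ K) (B : Matrix κ κ K) : Matrix ι ι K := 1 + V * (B - 1) * Vᴴ

lemma bkM_one (V : Matrix ι κ K) : bkM V (1 : Matrix κ κ K) = 1 := by
  rw [bkM, sub_self, Matrix.mul_zero, Matrix.zero_mul, add_zero]

lemma bkM_mul {V : Matrix ι κ K} (hV : Vᴴ * V = 1) (B C : Matrix κ κ K) :
    bkM V (B * C) = bkM V B * bkM V C := by
  have h : V * (B - 1) * Vᴴ * (V * (C - 1) * Vᴴ) = V * ((B - 1) * (C - 1)) * Vᴴ := by
    calc _ = V * (B - 1) * (Vᴴ * V) * ((C - 1) * Vᴴ) := by simp only [Matrix.mul_assoc]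
      _ = _ := by rw [hV, Matrix.mul_one]; simp only [Matrix.mul_assoc]
  have h2 : B * C - 1 = (B - 1) + (C - 1) + (B - 1) * (C - 1) := by noncomm_ring
  rw [bkM, bkM, bkM, mul_add, add_mul, add_mul, h, h2, Matrix.mul_add, Matrix.mul_add,
    Matrix.add_mul, Matrix.add_mul, one_mul, one_mul, mul_one]
  abel

lemma bkM_conjTranspose (V : Matrix ι κ K) (B : Matrix κ κ K) : (bkM V B)ᴴ = bkM V Bᴴ := by
  rw [bkM, bkM, conjTranspose_add, conjTranspose_mul, conjTranspose_mul, conjTranspose_sub,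
    conjTranspose_conjTranspose, conjTranspose_one, conjTranspose_one, Matrix.mul_assoc]

lemma det_bkM {V : Matrix ι κ K} (hV : Vᴴ * V = 1) (B : Matrix κ κ K) :
    (bkM V B).det = B.det := by
  rw [bkM, Matrix.mul_assoc, Matrix.det_one_add_mul_comm, Matrix.mul_assoc, hV, Matrix.mul_one,
    add_sub_cancel]

lemma bkM_mul_V {V : Matrix ι κ K} (hV : Vᴴ * V = 1) (B : Matrix κ κ K) :
    bkM V B * V = V * B := by
  rw [bkM, Matrix.add_mul, Matrix.one_mul, Matrix.mul_assoc (V * (B - 1)), hV, Matrix.mul_one,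
    Matrix.mul_sub, Matrix.mul_one, add_sub_cancel]

lemma bkM_inj {V : Matrix ι κ K} (hV : Vᴴ * V = 1) {B C : Matrix κ κ K}
    (h : bkM V B = bkM V C) : B = C := by
  have h1 : V * B = V * C := by rw [← bkM_mul_V hV, ← bkM_mul_V hV, h]
  calc B = Vᴴ * (V * B) := by rw [← Matrix.mul_assoc, hV, Matrix.one_mul]
    _ = C := by rw [h1, ← Matrix.mul_assoc, hV, Matrix.one_mul]

lemma conj_bkM {V : Matrix ι κ K} {g g' : Matrix ι ι K} (h : g * g' = 1) (hg : g' = gᴴ)
    (B : Matrix κ κ K) : g * bkM V B * g' = bkM (g * V) B := by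
  subst hg
  rw [bkM, bkM, mul_add, add_mul, mul_one, h, conjTranspose_mul]
  simp only [Matrix.mul_assoc]

lemma bkM_mulR {V : Matrix ι κ K} {D D' : Matrix κ κ K} (h : D * D' = 1) (hD : D' = Dᴴ)
    (B : Matrix κ κ K) : bkM (V * D) B = bkM V (D * B * D') := by
  subst hD
  have h2 : D * B * Dᴴ - 1 = D * (B - 1) * Dᴴ := by
    rw [mul_sub, sub_mul, mul_one, h]
  rw [bkM, bkM, conjTranspose_mul, h2]
  simp only [Matrix.mul_assoc]

lemma bkM_mem {V : Matrix ι κ K} (hV : Vᴴ * V = 1) {B : Matrix κ κ K}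
    (hB : B ∈ Matrix.unitaryGroup κ K) : bkM V B ∈ Matrix.unitaryGroup ι K := by
  rw [Matrix.mem_unitaryGroup_iff] at hB ⊢
  rw [Matrix.star_eq_conjTranspose, bkM_conjTranspose, ← bkM_mul hV,
    ← Matrix.star_eq_conjTranspose, hB, bkM_one]

/-- the embedding of unitary groups -/
def bkU (V : Matrix ι κ K) (hV : Vᴴ * V = 1) :
    Matrix.unitaryGroup κ K →* Matrix.unitaryGroup ι K where
  toFun B := ⟨bkM V B.1, bkM_mem hV B.2⟩
  map_one' := Subtype.ext (bkM_one V)
  map_mul' B C := Subtype.ext (bkM_mul hV B.1 C.1)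

lemma bkU_val (V : Matrix ι κ K) (hV : Vᴴ * V = 1) (B : Matrix.unitaryGroup κ K) :
    (bkU V hV B).1 = bkM V B.1 := rfl

lemma isom_mul {V : Matrix ι κ K} (hV : Vᴴ * V = 1) (g : Matrix.unitaryGroup ι K) :
    (g.1 * V)ᴴ * (g.1 * V) = 1 := by
  have h := Matrix.mem_unitaryGroup_iff'.1 g.2
  rw [Matrix.star_eq_conjTranspose] at h
  rw [conjTranspose_mul]
  calc _ = Vᴴ * (g.1ᴴ * g.1) * V := by simp only [Matrix.mul_assoc]
    _ = 1 := by rw [h, Matrix.mul_one, hV]

lemma isom_mulR {V : Matrix ι κ K} (hV : Vᴴ * V = 1) (D : Matrix.unitaryGroup κ K) :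
    (V * D.1)ᴴ * (V * D.1) = 1 := by
  have h := Matrix.mem_unitaryGroup_iff'.1 D.2
  rw [Matrix.star_eq_conjTranspose] at h
  rw [conjTranspose_mul]
  calc _ = D.1ᴴ * (Vᴴ * V) * D.1 := by simp only [Matrix.mul_assoc]
    _ = 1 := by rw [hV, Matrix.mul_one, h]

lemma inv_val' (g : Matrix.unitaryGroup ι K) : (g⁻¹).1 = g.1ᴴ := rfl

lemma mul_conj (g : Matrix.unitaryGroup ι K) : g.1 * g.1ᴴ = 1 := by
  have h := Matrix.mem_unitaryGroup_iff.1 g.2
  rwa [Matrix.star_eq_conjTranspose] at h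

lemma conj_mul (g : Matrix.unitaryGroup ι K) : g.1ᴴ * g.1 = 1 := by
  have h := Matrix.mem_unitaryGroup_iff'.1 g.2
  rwa [Matrix.star_eq_conjTranspose] at h

lemma conj_bkU {V W : Matrix ι κ K} (hV : Vᴴ * V = 1) (hW : Wᴴ * W = 1)
    (g : Matrix.unitaryGroup ι K) (h : g.1 * V = W) (B : Matrix.unitaryGroup κ K) :
    g * bkU V hV B * g⁻¹ = bkU W hW B := by
  apply Subtype.ext
  change g.1 * bkM V B.1 * g.1ᴴ = bkM W B.1
  rw [conj_bkM (mul_conj g) rfl, h]

lemma bkU_mulR {V W : Matrix ι κ K} (hV : Vᴴ * V = 1) (hW : Wᴴ * W = 1)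
    (D : Matrix.unitaryGroup κ K) (h : V * D.1 = W) (B : Matrix.unitaryGroup κ K) :
    bkU W hW B = bkU V hV (D * B * D⁻¹) := by
  apply Subtype.ext
  change bkM W B.1 = bkM V (D.1 * B.1 * D.1ᴴ)
  rw [← h, bkM_mulR (mul_conj D) rfl]

lemma bkU_inj {V : Matrix ι κ K} (hV : Vᴴ * V = 1) {B C : Matrix.unitaryGroup κ K}
    (h : bkU V hV B = bkU V hV C) : B = C :=
  Subtype.ext (bkM_inj hV (congrArg Subtype.val h))

end bk

section coord
variable {K : Type*} [Field K] [StarRing K] {n : ℕ}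

/-- the isometry with columns `e_i`, `e_j` -/
def Ef (K : Type*) [Field K] {n : ℕ} (i j : Fin n) : Matrix (Fin n) (Fin 2) K :=
  Matrix.of fun k l => if k = ![i, j] l then 1 else 0

lemma Ef_apply (i j k : Fin n) (l : Fin 2) :
    Ef K i j k l = if k = ![i, j] l then 1 else 0 := rfl

lemma Ef_iso {i j : Fin n} (hij : i ≠ j) : (Ef K i j)ᴴ * Ef K i j = 1 := by
  have hf : Function.Injective ![i, j] := by
    intro a b h
    fin_cases a <;> fin_cases b <;> simp_all
  ext a b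
  rw [Matrix.mul_apply]
  simp only [conjTranspose_apply, Ef_apply, Matrix.one_apply]
  have : ∀ k : Fin n, star (if k = ![i, j] a then (1 : K) else 0) *
      (if k = ![i, j] b then 1 else 0) = if k = ![i, j] a then (if a = b then 1 else 0) else 0 := by
    intro k
    by_cases h1 : k = ![i, j] a
    · subst h1
      rw [if_pos rfl, if_pos rfl, star_one, one_mul]
      by_cases h2 : a = b
      · subst h2; rw [if_pos rfl, if_pos rfl]
      · rw [if_neg h2, if_neg fun h => h2 (hf h)]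
    · rw [if_neg h1, if_neg h1, star_zero, zero_mul]
  rw [Finset.sum_congr rfl fun k _ => this k, Finset.sum_ite_eq' Finset.univ, if_pos (Finset.mem_univ _)]

/-- the embedding of `GU_2` at the coordinates `i`, `j` -/
def ib (K : Type*) [Field K] [StarRing K] {n : ℕ} {i j : Fin n} (hij : i ≠ j) :
    GU K 2 →* GU K n := bkU (Ef K i j) (Ef_iso hij)

lemma ib_val {i j : Fin n} (hij : i ≠ j) (B : GU K 2) :
    (ib K hij B).1 = bkM (Ef K i j) B.1 := rfl

lemma Ef_mulVec (i j : Fin n) (v : Fin 2 → K) (k : Fin n) :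
    (Ef K i j *ᵥ v) k = (if k = i then v 0 else 0) + (if k = j then v 1 else 0) := by
  rw [Matrix.mulVec, dotProduct, Fin.sum_univ_two]
  change (if k = i then (1 : K) else 0) * v 0 + (if k = j then (1 : K) else 0) * v 1 = _
  rw [ite_mul, ite_mul, one_mul, one_mul, zero_mul, zero_mul]

lemma EfH_mulVec (i j : Fin n) (v : Fin n → K) :
    (Ef K i j)ᴴ *ᵥ v = ![v i, v j] := by
  ext l
  rw [Matrix.mulVec, dotProduct]
  simp only [conjTranspose_apply, Ef_apply]
  have : ∀ k : Fin n, star (if k = ![i, j] l then (1 : K) else 0) * v k =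
      if k = ![i, j] l then v k else 0 := by
    intro k
    by_cases h : k = ![i, j] l
    · rw [if_pos h, if_pos h, star_one, one_mul]
    · rw [if_neg h, if_neg h, star_zero, zero_mul]
  rw [Finset.sum_congr rfl fun k _ => this k, Finset.sum_ite_eq' Finset.univ,
    if_pos (Finset.mem_univ _)]
  fin_cases l <;> rfl

/-- action of `bkM (Ef i j) B` on vectors -/
lemma bkM_mulVec (i j : Fin n) (B : Matrix (Fin 2) (Fin 2) K) (v : Fin n → K) (k : Fin n) :
    (bkM (Ef K i j) B *ᵥ v) k = v k + ((if k = i then (B *ᵥ ![v i, v j]) 0 - v i else 0) +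
      (if k = j then (B *ᵥ ![v i, v j]) 1 - v j else 0)) := by
  rw [bkM, Matrix.add_mulVec, Matrix.one_mulVec, Pi.add_apply, ← Matrix.mulVec_mulVec,
    ← Matrix.mulVec_mulVec, EfH_mulVec, Ef_mulVec, Matrix.sub_mulVec, Matrix.one_mulVec]
  rfl

lemma bkM_mulVec_i {i j : Fin n} (hij : i ≠ j) (B : Matrix (Fin 2) (Fin 2) K) (v : Fin n → K) :
    (bkM (Ef K i j) B *ᵥ v) i = (B *ᵥ ![v i, v j]) 0 := by
  rw [bkM_mulVec, if_pos rfl, if_neg hij, add_zero, add_sub_cancel]

lemma bkM_mulVec_j {i j : Fin n} (hij : i ≠ j) (B : Matrix (Fin 2) (Fin 2) K) (v : Fin n → K) :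
    (bkM (Ef K i j) B *ᵥ v) j = (B *ᵥ ![v i, v j]) 1 := by
  rw [bkM_mulVec, if_neg hij.symm, if_pos rfl, zero_add, add_sub_cancel]

lemma bkM_mulVec_k {i j k : Fin n} (hi : k ≠ i) (hj : k ≠ j) (B : Matrix (Fin 2) (Fin 2) K)
    (v : Fin n → K) : (bkM (Ef K i j) B *ᵥ v) k = v k := by
  rw [bkM_mulVec, if_neg hi, if_neg hj, add_zero, add_zero]

end coord

end

end Vale.Agent.P240.R2.H923
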