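import Vale.Agent.P240.R2.AS.Defs2

/-!
P240 (helper923), NL3: the hypothesis of the core theorem on automorphisms of `PSU_n(q)`.
-/

set_option autoImplicit false
set_option linter.all false

namespace Vale.Agent.P240.R2.H923

open Matrix Subgroup
open Vale.Agent.P240.R2.AS (GU SU PGU PSU SA mapGU SA_star)

variable {K : Type*} [Field K] [StarRing K] {n : ℕ}

/-- `g` is a block on the coordinates `i, j` and diagonal on the others -/
def IsB (i j : Fin n) (g : GU K n) : Prop :=
  ∀ k, k ≠ i → k ≠ j → ∀ l, l ≠ k → g.1 l k = 0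

/-- the class of such an element -/
def IsC (i j : Fin n) (y : PGU K n) : Prop :=
  ∃ g : GU K n, IsB i j g ∧ y = QuotientGroup.mk g

/-- the automorphism `α` of `PSU_n(q)` preserves all the groups `C_ij` -/
def CoreHyp (α : MulAut ↥(PSU K n)) : Prop :=
  ∀ i j : Fin n, i ≠ j → ∀ y : ↥(PSU K n), IsC i j y.1 ↔ IsC i j (α y).1

/-- the class in `PGU` of a diagonal unitary matrix -/
noncomputable def dgc (c : Fin n → K) : PGU K n :=
  open scoped Classical in
  if h : Matrix.diagonal c ∈ Matrix.unitaryGroup (Fin n) K then QuotientGroup.mk ⟨_, h⟩ else 1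

end Vale.Agent.P240.R2.H923
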