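import Vale.Agent.P240.R2.H923.Blk
import Vale.Agent.P240.R2.H923.CDefs
import Vale.Agent.P240.R2.H296.Cen

/-!
P240 (helper923), NL3: block matrices in the unitary group.
-/

set_option autoImplicit false
set_option linter.all false

namespace Vale.Agent.P240.R2.H923

open Matrix Subgroup
open Vale.Agent.P240.R2.AS (GU SU PGU PSU SA mapGU SA_star)

universe u

noncomputable section

section rows
variable {K : Type*} [Field K] [StarRing K] {n : ℕ}

lemma col_inner (g : GU K n) (k l : Fin n) :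
    ∑ m, star (g.1 m k) * g.1 m l = if k = l then 1 else 0 := by
  have h := congrFun (congrFun (conj_mul g) k) l
  rw [Matrix.mul_apply, Matrix.one_apply] at h
  exact h

/-- a column with one entry -/
lemma IsB.col {i j : Fin n} {g : GU K n} (h : IsB i j g) {k : Fin n} (hi : k ≠ i) (hj : k ≠ j) :
    star (g.1 k k) * g.1 k k = 1 := by
  have h1 := col_inner g k k
  rw [if_pos rfl, Finset.sum_eq_single k] at h1
  · exact h1
  · intro m _ hm
    rw [h k hi hj m hm, mul_zero]
  · intro h2
    exact absurd (Finset.mem_univ k) h2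

lemma IsB.ne {i j : Fin n} {g : GU K n} (h : IsB i j g) {k : Fin n} (hi : k ≠ i) (hj : k ≠ j) :
    g.1 k k ≠ 0 := by
  intro h1
  have h2 := h.col hi hj
  rw [h1, mul_zero] at h2
  exact zero_ne_one h2

lemma IsB.row {i j : Fin n} {g : GU K n} (h : IsB i j g) {k : Fin n} (hi : k ≠ i) (hj : k ≠ j)
    {l : Fin n} (hl : l ≠ k) : g.1 k l = 0 := by
  have h1 := col_inner g l k
  rw [if_neg hl, Finset.sum_eq_single k] at h1
  · rcases mul_eq_zero.1 h1 with h2 | h2
    · exact star_eq_zero.1 h2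
    · exact absurd h2 (h.ne hi hj)
  · intro m _ hm
    rw [h k hi hj m hm, mul_zero]
  · intro h2
    exact absurd (Finset.mem_univ k) h2

lemma IsB.one (i j : Fin n) : IsB i j (1 : GU K n) := by
  intro k _ _ l hl
  exact Matrix.one_apply_ne hl

lemma IsB.mul {i j : Fin n} {g g' : GU K n} (h : IsB i j g) (h' : IsB i j g') :
    IsB i j (g * g') := by
  intro k hi hj l hl
  change (g.1 * g'.1) l k = 0
  rw [Matrix.mul_apply, Finset.sum_eq_single k]
  · rw [h k hi hj l hl, zero_mul]
  · intro m _ hm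
    rw [h' k hi hj m hm, mul_zero]
  · intro h2
    exact absurd (Finset.mem_univ k) h2

lemma IsB.mul_kk {i j : Fin n} {g g' : GU K n} (h : IsB i j g) (h' : IsB i j g') {k : Fin n}
    (hi : k ≠ i) (hj : k ≠ j) : (g * g').1 k k = g.1 k k * g'.1 k k := by
  change (g.1 * g'.1) k k = _
  rw [Matrix.mul_apply, Finset.sum_eq_single k]
  · intro m _ hm
    rw [h' k hi hj m hm, mul_zero]
  · intro h2
    exact absurd (Finset.mem_univ k) h2

lemma IsB.inv {i j : Fin n} {g : GU K n} (h : IsB i j g) : IsB i j g⁻¹ := by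
  intro k hi hj l hl
  change (g.1ᴴ) l k = 0
  rw [conjTranspose_apply, h.row hi hj hl, star_zero]

lemma IsB.inv_kk {i j : Fin n} {g : GU K n} {k : Fin n} : (g⁻¹).1 k k = star (g.1 k k) := rfl

/-- the group of all block matrices -/
def CG (K : Type*) [Field K] [StarRing K] {n : ℕ} (i j : Fin n) : Subgroup (GU K n) where
  carrier := {g | IsB i j g}
  one_mem' := IsB.one i j
  mul_mem' := IsB.mul
  inv_mem' := IsB.inv

/-- the elements fixing the basis vectors outside `i`, `j` -/
theorem fix_form {i j : Fin n} (hij : i ≠ j) {g : GU K n} (h : IsB i j g)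
    (h1 : ∀ k, k ≠ i → k ≠ j → g.1 k k = 1) : ∃ B : GU K 2, ib K hij B = g := by
  obtain ⟨B, hB⟩ : ∃ B : Matrix (Fin 2) (Fin 2) K,
    B = !![g.1 i i, g.1 i j; g.1 j i, g.1 j j] := ⟨_, rfl⟩
  have hg : bkM (Ef K i j) B = g.1 := by
    ext k l
    have e1 : (bkM (Ef K i j) B) k l = (bkM (Ef K i j) B *ᵥ (Pi.single l 1)) k := by
      rw [Matrix.mulVec_single_one]; rfl
    rw [e1]
    have hv : ∀ a b : K, B *ᵥ ![a, b] = ![g.1 i i * a + g.1 i j * b, g.1 j i * a + g.1 j j * b] := by
      intro a b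
      rw [hB]
      ext m
      fin_cases m <;> simp [Matrix.mulVec, dotProduct, Fin.sum_univ_two]
    by_cases hki : k = i
    · subst hki
      rw [bkM_mulVec_i hij, hv]
      change g.1 k k * (Pi.single l (1 : K) : Fin n → K) k +
        g.1 k j * (Pi.single l (1 : K) : Fin n → K) j = _
      by_cases hl1 : l = k
      · subst hl1
        rw [Pi.single_eq_same, Pi.single_eq_of_ne hij.symm, mul_one, mul_zero, add_zero]
      · by_cases hl2 : l = j
        · subst hl2
          rw [Pi.single_eq_same, Pi.single_eq_of_ne hij, mul_one, mul_zero, zero_add]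
        · rw [Pi.single_eq_of_ne (Ne.symm hl1), Pi.single_eq_of_ne (Ne.symm hl2), mul_zero,
            mul_zero, add_zero, h l hl1 hl2 k (Ne.symm hl1)]
    · by_cases hkj : k = j
      · subst hkj
        rw [bkM_mulVec_j hij, hv]
        change g.1 k i * (Pi.single l (1 : K) : Fin n → K) i +
          g.1 k k * (Pi.single l (1 : K) : Fin n → K) k = _
        by_cases hl1 : l = i
        · subst hl1
          rw [Pi.single_eq_same, Pi.single_eq_of_ne hki, mul_one, mul_zero, add_zero]
        · by_cases hl2 : l = k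
          · subst hl2
            rw [Pi.single_eq_same, Pi.single_eq_of_ne hij, mul_one, mul_zero, zero_add]
          · rw [Pi.single_eq_of_ne (Ne.symm hl1), Pi.single_eq_of_ne (Ne.symm hl2), mul_zero,
              mul_zero, add_zero, h l hl1 hl2 k (Ne.symm hl2)]
      · rw [bkM_mulVec_k hki hkj]
        by_cases hlk : l = k
        · subst hlk
          rw [Pi.single_eq_same, h1 l hki hkj]
        · rw [Pi.single_eq_of_ne (Ne.symm hlk), h.row hki hkj hlk]
  have hBu : B ∈ Matrix.unitaryGroup (Fin 2) K := by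
    rw [Matrix.mem_unitaryGroup_iff', Matrix.star_eq_conjTranspose]
    refine bkM_inj (Ef_iso hij) ?_
    rw [bkM_mul (Ef_iso hij), ← bkM_conjTranspose, hg, bkM_one, conj_mul]
  exact ⟨⟨B, hBu⟩, Subtype.ext hg⟩

lemma ib_isB {i j : Fin n} (hij : i ≠ j) (B : GU K 2) : IsB i j (ib K hij B) ∧
    ∀ k, k ≠ i → k ≠ j → (ib K hij B).1 k k = 1 := by
  have key : ∀ k, k ≠ i → k ≠ j → ∀ l, (ib K hij B).1 l k = if l = k then 1 else 0 := by
    intro k hi hj l
    have e1 : (ib K hij B).1 l k = (bkM (Ef K i j) B.1 *ᵥ (Pi.single k 1)) l := by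
      rw [Matrix.mulVec_single_one]; rfl
    rw [e1]
    have hz : B.1 *ᵥ ![(0 : K), 0] = ![0, 0] := by
      ext m
      fin_cases m <;> simp [Matrix.mulVec, dotProduct, Fin.sum_univ_two]
    rw [bkM_mulVec, Pi.single_eq_of_ne (Ne.symm hi), Pi.single_eq_of_ne (Ne.symm hj), hz]
    change (Pi.single k (1 : K) : Fin n → K) l + ((if l = i then (0 : K) - 0 else 0) +
      (if l = j then (0 : K) - 0 else 0)) = _
    rw [sub_zero, ite_self, ite_self, add_zero, add_zero]
    by_cases hlk : l = k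
    · subst hlk; rw [Pi.single_eq_same, if_pos rfl]
    · rw [Pi.single_eq_of_ne hlk, if_neg hlk]
  refine ⟨fun k hi hj l hl => ?_, fun k hi hj => ?_⟩
  · rw [key k hi hj l, if_neg hl]
  · rw [key k hi hj k, if_pos rfl]

lemma ib_entry {i j : Fin n} (hij : i ≠ j) (B : GU K 2) :
    (ib K hij B).1 i i = B.1 0 0 ∧ (ib K hij B).1 j i = B.1 1 0 := by
  have hv : B.1 *ᵥ ![(1 : K), 0] = ![B.1 0 0, B.1 1 0] := by
    ext m
    fin_cases m <;> simp [Matrix.mulVec, dotProduct, Fin.sum_univ_two]
  constructor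
  · have e1 : (ib K hij B).1 i i = (bkM (Ef K i j) B.1 *ᵥ (Pi.single i 1)) i := by
      rw [Matrix.mulVec_single_one]; rfl
    rw [e1, bkM_mulVec_i hij, Pi.single_eq_same, Pi.single_eq_of_ne hij.symm, hv]
    rfl
  · have e1 : (ib K hij B).1 j i = (bkM (Ef K i j) B.1 *ᵥ (Pi.single i 1)) j := by
      rw [Matrix.mulVec_single_one]; rfl
    rw [e1, bkM_mulVec_j hij, Pi.single_eq_same, Pi.single_eq_of_ne hij.symm, hv]
    rfl

lemma det_ib {i j : Fin n} (hij : i ≠ j) (B : GU K 2) : (ib K hij B).1.det = B.1.det :=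
  det_bkM (Ef_iso hij) B.1

end rows

end

end Vale.Agent.P240.R2.H923
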