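import Vale.Agent.P240.R2.H923.Core2

/-!
P240 (helper923), NL3: automorphisms of `PSU_n(q)` on the coordinate subgroups.
-/

set_option autoImplicit false
set_option linter.all false

namespace Vale.Agent.P240.R2.H923

open Matrix Subgroup
open Vale.Agent.P240.R2.AS (GU SU PGU PSU SA mapGU SA_star)

universe u

noncomputable section

section tw
variable {K : Type u} [Field K] [StarRing K]

/-- `x ↦ diag(1, a) σ(x) diag(1, a)⁻¹` -/
def tw (σ : SA K) (a : K) (ha : star a * a = 1) (x : SU K 2) : SU K 2 :=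
  su2 (σ.1 (x.1.1 0 0)) (a * σ.1 (x.1.1 1 0)) (by
    obtain ⟨-, -, h⟩ := su2_form x
    have h1 := congrArg σ.1 h
    rw [map_add, map_mul, map_mul, map_one, SA_star, SA_star] at h1
    rw [star_mul]
    linear_combination h1 + star (σ.1 (x.1.1 1 0)) * σ.1 (x.1.1 1 0) * ha)

/-- the diagonal matrix `diag(1, a)` -/
def dg2 (a : K) (ha : star a * a = 1) : GU K 2 :=
  ⟨!![1, 0; 0, a], by
    rw [Matrix.mem_unitaryGroup_iff', Matrix.star_eq_conjTranspose]
    ext i j
    rw [Matrix.mul_apply, Fin.sum_univ_two]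
    fin_cases i <;> fin_cases j <;> simp [conjTranspose_apply]
    exact ha⟩

lemma tw_eq (σ : SA K) (a : K) (ha : star a * a = 1) (x : SU K 2) :
    (tw σ a ha x).1 = dg2 a ha * mapGU σ x.1 * (dg2 a ha)⁻¹ := by
  obtain ⟨h1, h2, h3⟩ := su2_form x
  apply Subtype.ext
  change !![σ.1 (x.1.1 0 0), - star (a * σ.1 (x.1.1 1 0)); a * σ.1 (x.1.1 1 0),
    star (σ.1 (x.1.1 0 0))] = !![1, 0; 0, a] * x.1.1.map σ.1 * (!![1, 0; 0, a])ᴴ
  have e : star a = a⁻¹ := eq_inv_of_mul_eq_one_left ha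
  have ha0 : a ≠ 0 := by
    rintro rfl
    rw [mul_zero] at ha
    exact zero_ne_one ha
  ext i j
  rw [Matrix.mul_apply, Fin.sum_univ_two, Matrix.mul_apply, Fin.sum_univ_two, Matrix.mul_apply,
    Fin.sum_univ_two, Matrix.map_apply, Matrix.map_apply, Matrix.map_apply, Matrix.map_apply]
  fin_cases i <;> fin_cases j <;> simp [conjTranspose_apply, h1, h2, SA_star]
  · rw [mul_comm]
  · rw [e]; field_simp

lemma conj_tw (D : GU K 2) (a : K) (ha : star a * a = 1) (hD : D = dg2 a ha) (x : GU K 2) :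
    (D * x * D⁻¹).1 0 0 = x.1 0 0 := by
  subst hD
  change (!![1, 0; 0, a] * x.1 * (!![1, 0; 0, a])ᴴ) 0 0 = _
  rw [Matrix.mul_apply, Fin.sum_univ_two, Matrix.mul_apply, Fin.sum_univ_two, Matrix.mul_apply,
    Fin.sum_univ_two]
  simp [conjTranspose_apply]

end tw

section pair
variable {K : Type u} [Field K] [Fintype K] [StarRing K] {q n : ℕ}

lemma exists_zeta1 (hq : 4 ≤ q) (hK : Nat.card K = q ^ 2) (hs : ∀ x : K, star x = x ^ q) :
    ∃ ζ : K, ζ ≠ 1 ∧ ζ * star ζ = 1 := by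
  obtain ⟨u, h1, h2⟩ := exists_unit (by omega) hK hs
  refine ⟨u, ?_, by rw [mul_comm]; exact h1⟩
  rintro rfl
  exact h2 (star_one K).symm

/-- the automorphism on a coordinate subgroup -/
theorem pair (hq : 4 ≤ q) (hK : Nat.card K = q ^ 2) (hs : ∀ x : K, star x = x ^ q)
    {α : MulAut ↥(PSU K n)} (hα : CoreHyp α) {i j : Fin n} (hij : i ≠ j) {k : Fin n}
    (hi : k ≠ i) (hj : k ≠ j) :
    ∃ (σ : SA K) (a : K) (ha : star a * a = 1), ∀ x : SU K 2, α (bb hij x) = bb hij (tw σ a ha x) := by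
  obtain ⟨ζ, hζ1, hζ2⟩ := exists_zeta1 hq hK hs
  have hinj := bb_inj hζ1 hζ2 hij hi hj
  have hmap := map_bb (su2_perfect hq hK hs) hα hij
  have hex : ∀ x : SU K 2, ∃ y : SU K 2, bb hij y = α (bb hij x) := by
    intro x
    have h1 : α (bb hij x) ∈ ((bb (K := K) hij).range).map α.toMonoidHom :=
      ⟨bb hij x, ⟨x, rfl⟩, rfl⟩
    rw [hmap] at h1
    exact h1
  choose f hf using hex
  obtain ⟨φ, hφ⟩ : ∃ φ : SU K 2 →* SU K 2, ∀ x, φ x = f x := by
    refine ⟨⟨⟨f, ?_⟩, ?_⟩, fun x => rfl⟩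
    · apply hinj
      rw [hf, map_one, map_one]
    · intro x y
      apply hinj
      change bb hij (f (x * y)) = bb hij (f x * f y)
      rw [hf, map_mul, map_mul, map_mul, hf, hf]
  have hφinj : Function.Injective φ := by
    intro x y h
    rw [hφ, hφ] at h
    apply hinj
    apply α.injective
    rw [← hf, ← hf, h]
  haveI : Finite (SU K 2) := inferInstance
  obtain ⟨β, hβ⟩ : ∃ β : MulAut (SU K 2), ∀ x, β x = φ x :=
    ⟨MulEquiv.ofBijective φ (Finite.injective_iff_bijective.1 hφinj), fun x => rfl⟩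
  have hβα : ∀ x, bb hij (β x) = α (bb hij x) := fun x => by rw [hβ, hφ, hf]
  have hdiag : ∀ x : SU K 2, x.1.1 1 0 = 0 → (β x).1.1 1 0 = 0 := by
    intro x hx
    obtain ⟨f1, f2, -⟩ := su2_form x
    -- the image of `x` is diagonal
    have h1 : IsC j k (bb hij x).1 := by
      refine ⟨ib K hij x.1, ?_, rfl⟩
      intro m hmj hmk l hl
      by_cases hmi : m = i
      · subst hmi
        by_cases hlj : l = j
        · subst hlj
          rw [(ib_entry hij x.1).2, hx]
        · exact (ib_isB hij x.1).1.row hl hlj (Ne.symm hl)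
      · exact (ib_isB hij x.1).1 m hmi hmj l hl
    have h2 := (hα j k (Ne.symm hj) _).1 h1
    rw [← hβα] at h2
    obtain ⟨g, hg, h3⟩ := h2
    obtain ⟨c, -, hc⟩ := scal_of_mk hζ1 hζ2 (g := g) (g' := ib K hij (β x).1) h3.symm
    have h4 := isB_smul hc hg i hij (Ne.symm hi) j hij.symm
    rwa [(ib_entry hij (β x).1).2] at h4
  obtain ⟨σ, a, ha, h⟩ := aut_su2 hq hK hs β hdiag
  refine ⟨σ, a, ha, fun x => ?_⟩
  rw [← hβα]
  congr 1
  exact su2_ext (h x).1 (h x).2

end pair

section weyl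
variable {K : Type u} [Field K] [StarRing K] {n : ℕ}

lemma Ef_mul (i j : Fin n) (B : Matrix (Fin 2) (Fin 2) K) (k : Fin n) (l : Fin 2) :
    (Ef K i j * B) k l = (if k = i then B 0 l else 0) + (if k = j then B 1 l else 0) := by
  have h := Ef_mulVec (K := K) i j (fun m => B m l) k
  rw [← h]
  rfl

lemma mul_Ef (i j : Fin n) (M : Matrix (Fin n) (Fin n) K) (k : Fin n) (l : Fin 2) :
    (M * Ef K i j) k l = M k (![i, j] l) := by
  rw [Matrix.mul_apply]
  simp only [Ef_apply, mul_ite, mul_one, mul_zero, Finset.sum_ite_eq', Finset.mem_univ, if_true]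

/-- the Weyl element moves the coordinates -/
lemma weyl_Ef {i j k : Fin n} (hij : i ≠ j) (hik : i ≠ k) (hjk : j ≠ k) (a : K)
    (ha : star a * a = 1) (h : star (0 : K) * 0 + star a * a = 1) :
    (ib K hjk (su2 0 a h).1).1 * Ef K i j = Ef K i k * (dg2 a ha).1 := by
  ext m l
  rw [mul_Ef, Ef_mul]
  have hB := ib_isB hjk (su2 (0 : K) a h).1
  have hE := ib_entry hjk (su2 (0 : K) a h).1
  fin_cases l
  · change (ib K hjk (su2 0 a h).1).1 m i = (if m = i then (1 : K) else 0) + (if m = k then 0 else 0)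
    rw [ite_self, add_zero]
    by_cases hm : m = i
    · subst hm
      rw [if_pos rfl, hB.2 m hij hik]
    · rw [if_neg hm, hB.1 i hij hik m hm]
  · change (ib K hjk (su2 0 a h).1).1 m j = (if m = i then (0 : K) else 0) + (if m = k then a else 0)
    rw [ite_self, zero_add]
    by_cases hm : m = k
    · subst hm
      rw [if_pos rfl, hE.2]
      rfl
    · rw [if_neg hm]
      by_cases hm2 : m = j
      · subst hm2
        rw [hE.1]
        rfl
      · exact hB.1.row hm2 hm (Ne.symm hm2)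

end weyl

end

end Vale.Agent.P240.R2.H923
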