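import Vale.Agent.P240.R2.H923.Act

/-!
P240 (helper923): the core theorem under the hypothesis that the coordinate subgroups `S_ij` and the
diagonal classes are preserved.
-/

set_option autoImplicit false
set_option linter.all false

namespace Vale.Agent.P240.R2.H923

open Matrix Subgroup
open Vale.Agent.P240.R2.AS (GU SU PGU PSU SA mapGU SA_star)

universe u

noncomputable section

section pair
variable {K : Type u} [Field K] [Fintype K] [StarRing K] {q n : ℕ}

/-- diagonal classes -/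
def IsD {K : Type u} [Field K] [StarRing K] {n : ℕ} (y : PGU K n) : Prop :=
  ∃ g : GU K n, (∀ k l, l ≠ k → g.1 l k = 0) ∧ y = QuotientGroup.mk g

/-- the automorphism preserves the coordinate subgroups and the diagonal classes -/
structure CoreHyp' (α : MulAut ↥(PSU K n)) : Prop where
  rng : ∀ (i j : Fin n) (hij : i ≠ j) (x : SU K 2), ∃ y : SU K 2, bb hij y = α (bb hij x)
  dia : ∀ y : ↥(PSU K n), IsD y.1 → IsD (α y).1

/-- the automorphism on a coordinate subgroup -/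
theorem pair' (hq : 4 ≤ q) (hK : Nat.card K = q ^ 2) (hs : ∀ x : K, star x = x ^ q)
    {α : MulAut ↥(PSU K n)} (hα : CoreHyp' α) {i j : Fin n} (hij : i ≠ j) {k : Fin n}
    (hi : k ≠ i) (hj : k ≠ j) :
    ∃ (σ : SA K) (a : K) (ha : star a * a = 1), ∀ x : SU K 2, α (bb hij x) = bb hij (tw σ a ha x) := by
  obtain ⟨ζ, hζ1, hζ2⟩ := exists_zeta1 hq hK hs
  have hinj := bb_inj hζ1 hζ2 hij hi hj
  have hex := hα.rng i j hij
  choose f hf using hex
  obtain ⟨φ, hφ⟩ : ∃ φ : SU K 2 →* SU K 2, ∀ x, φ x = f x := by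
    refine ⟨⟨⟨f, ?_⟩, ?_⟩, fun x => rfl⟩
    · apply hinj
      rw [hf, map_one, map_one]
    · intro x y
      apply hinj
      change bb hij (f (x * y)) = bb hij (f x * f y)
      rw [hf, map_mul, map_mul, map_mul, hf, hf]
  have hφinj : Function.Injective φ := by
    intro x y h
    rw [hφ, hφ] at h
    apply hinj
    apply α.injective
    rw [← hf, ← hf, h]
  haveI : Finite (SU K 2) := inferInstance
  obtain ⟨β, hβ⟩ : ∃ β : MulAut (SU K 2), ∀ x, β x = φ x :=
    ⟨MulEquiv.ofBijective φ (Finite.injective_iff_bijective.1 hφinj), fun x => rfl⟩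
  have hβα : ∀ x, bb hij (β x) = α (bb hij x) := fun x => by rw [hβ, hφ, hf]
  have hdiag : ∀ x : SU K 2, x.1.1 1 0 = 0 → (β x).1.1 1 0 = 0 := by
    intro x hx
    obtain ⟨f1, f2, -⟩ := su2_form x
    have h1 : IsD (bb hij x).1 := by
      refine ⟨ib K hij x.1, ?_, rfl⟩
      intro m l hl
      by_cases hmi : m = i
      · subst hmi
        by_cases hlj : l = j
        · subst hlj
          rw [(ib_entry hij x.1).2, hx]
        · exact (ib_isB hij x.1).1.row hl hlj (Ne.symm hl)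
      · by_cases hmj : m = j
        · subst hmj
          by_cases hli : l = i
          · subst hli
            have e1 : (ib K hij x.1).1 l m = (bkM (Ef K l m) x.1.1 *ᵥ (Pi.single m 1)) l := by
              rw [Matrix.mulVec_single_one]; rfl
            rw [e1, bkM_mulVec_i hij, Pi.single_eq_same, Pi.single_eq_of_ne hij]
            have e2 : (x.1.1 *ᵥ ![(0 : K), 1]) 0 = x.1.1 0 1 := by
              simp [Matrix.mulVec, dotProduct, Fin.sum_univ_two]
            rw [e2, f2, hx, star_zero, neg_zero]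
          · exact (ib_isB hij x.1).1.row hli hl (Ne.symm hl)
        · exact (ib_isB hij x.1).1 m hmi hmj l hl
    have h2 := hα.dia _ h1
    rw [← hβα] at h2
    obtain ⟨g, hg, h3⟩ := h2
    obtain ⟨c, -, hc⟩ := scal_of_mk hζ1 hζ2 (g := g) (g' := ib K hij (β x).1) h3.symm
    have h4 : (ib K hij (β x).1).1 j i = 0 := by
      rw [hc, Matrix.smul_apply, hg i j hij.symm, smul_zero]
    rwa [(ib_entry hij (β x).1).2] at h4
  obtain ⟨σ, a, ha, h⟩ := aut_su2 hq hK hs β hdiag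
  refine ⟨σ, a, ha, fun x => ?_⟩
  rw [← hβα]
  congr 1
  exact su2_ext (h x).1 (h x).2

/-- the core theorem from its pairs -/
theorem core_of_pairs (hq : 4 ≤ q) (hK : Nat.card K = q ^ 2) (hs : ∀ x : K, star x = x ^ q)
    (hn : 3 ≤ n) (α : MulAut ↥(PSU K n))
    (hp : ∀ i j : Fin n, ∀ hij : i ≠ j, ∃ (σ : SA K) (a : K) (ha : star a * a = 1),
      ∀ x : SU K 2, α (bb hij x) = bb hij (tw σ a ha x)) :
    ∃ (σ : SA K) (A : Fin n → K) (hA : ∀ i, star (A i) * A i = 1), ∀ g : SU K n,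
      (α (pS K n g)).1 =
        QuotientGroup.mk (dgN A hA * mapGU σ g.1 * (dgN A hA)⁻¹) := by
  classical
  obtain ⟨i0, i1, i2, h01, h02, h12⟩ : ∃ i0 i1 i2 : Fin n, i0 ≠ i1 ∧ i0 ≠ i2 ∧ i1 ≠ i2 :=
    ⟨⟨0, by omega⟩, ⟨1, by omega⟩, ⟨2, by omega⟩, by simp, by simp, by simp⟩
  obtain ⟨σ, a1, ha1, hσ⟩ := hp i0 i1 h01
  -- all pairs `i0, j`
  have hall : ∀ j : Fin n, ∃ a : K, star a * a = 1 ∧ ∀ (hj : i0 ≠ j) (ha : star a * a = 1),
      ∀ x : SU K 2, α (bb hj x) = bb hj (tw σ a ha x) := by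
    intro j
    by_cases hj : i0 = j
    · exact ⟨1, by rw [star_one, one_mul], fun h => absurd hj h⟩
    · by_cases hj1 : i1 = j
      · subst hj1
        exact ⟨a1, ha1, fun _ _ x => hσ x⟩
      · obtain ⟨τ, b, hb, h3⟩ := hp i1 j hj1
        obtain ⟨σ', a', ha', h2⟩ := hp i0 j hj
        have he := sigma_eq hq hK hs h01 hj hj1 ha1 ha' hb hσ h2 h3
        have he' : σ = σ' := Subtype.ext (RingEquiv.ext he)
        subst he'
        exact ⟨a', ha', fun _ _ x => h2 x⟩
  choose A0 hA0 hA1 using hall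
  obtain ⟨A, hAdef⟩ : ∃ A : Fin n → K, A = Function.update A0 i0 1 := ⟨_, rfl⟩
  have hAi0 : A i0 = 1 := by rw [hAdef, Function.update_self]
  have hAj : ∀ j, i0 ≠ j → A j = A0 j := by
    intro j hj
    rw [hAdef, Function.update_of_ne (Ne.symm hj)]
  have hA : ∀ i, star (A i) * A i = 1 := by
    intro i
    by_cases h : i0 = i
    · subst h; rw [hAi0, star_one, one_mul]
    · rw [hAj i h]; exact hA0 i
  refine ⟨σ, A, hA, ?_⟩
  -- the two homomorphisms
  let f1 : SU K n →* PGU K n := (PSU K n).subtype.comp (α.toMonoidHom.comp (pS K n))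
  let f2 : SU K n →* PGU K n := (QuotientGroup.mk' (Subgroup.center (GU K n))).comp
    ((MulAut.conj (dgN A hA)).toMonoidHom.comp ((mapGU σ).comp (SU K n).subtype))
  have hf2 : ∀ g, f2 g = QuotientGroup.mk (dgN A hA * mapGU σ g.1 * (dgN A hA)⁻¹) := fun g => rfl
  have hH : H257.HasCoordAt i0 ((f1.eqLocus f2).map (SU K n).subtype) := by
    intro j hj g hg hfix
    have hij : i0 ≠ j := Ne.symm hj
    have hcol : ∀ k, k ≠ i0 → k ≠ j → ∀ l, g.1 l k = if l = k then 1 else 0 := by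
      intro k hk1 hk2 l
      have h1 := congrFun (hfix k hk1 hk2) l
      rw [Matrix.mulVec_single_one] at h1
      change g.1 l k = _ at h1
      rw [h1, Pi.single_apply]
    have hB : IsB i0 j g := fun k hk1 hk2 l hl => by rw [hcol k hk1 hk2 l, if_neg hl]
    obtain ⟨B, hBg⟩ := fix_form hij hB (fun k hk1 hk2 => by rw [hcol k hk1 hk2 k, if_pos rfl])
    have hBd : B.1.det = 1 := by rw [← det_ib hij, hBg, hg]
    refine ⟨⟨g, hg⟩, ?_, rfl⟩
    change f1 ⟨g, hg⟩ = f2 ⟨g, hg⟩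
    have e1 : (⟨g, hg⟩ : SU K n) = ibS hij ⟨B, hBd⟩ := Subtype.ext hBg.symm
    rw [e1, hf2]
    change (α (bb hij ⟨B, hBd⟩)).1 = QuotientGroup.mk (dgN A hA * mapGU σ (ib K hij B) * (dgN A hA)⁻¹)
    rw [hA1 j hij (hA0 j), bb_val, tw_eq, mapGU_ib]
    congr 1
    have h2 := dgN_Ef hA hij hAi0
    have h3 : (Ef K i0 j * (dg2 (A j) (hA j)).1)ᴴ * (Ef K i0 j * (dg2 (A j) (hA j)).1) = 1 :=
      isom_mulR (Ef_iso hij) (dg2 (A j) (hA j))
    change _ = _ * bkU (Ef K i0 j) (Ef_iso hij) _ * _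
    rw [conj_bkU (Ef_iso hij) h3 _ h2, bkU_mulR (Ef_iso hij) h3 (dg2 (A j) (hA j)) rfl]
    have h4 : dg2 (A0 j) (hA0 j) = dg2 (A j) (hA j) := by
      apply Subtype.ext
      change !![(1 : K), 0; 0, A0 j] = !![(1 : K), 0; 0, A j]
      rw [hAj j hij]
    rw [h4]
    rfl
  intro g
  have h5 := H257.SU_gen_at (by omega) hK hs n i0 _ hH g.1 g.2
  obtain ⟨g', hg', hgg⟩ := h5
  have h6 : g' = g := Subtype.ext hgg
  subst h6
  exact hg'

/-- the core theorem, second form -/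
theorem core' (hq : 4 ≤ q) (hK : Nat.card K = q ^ 2) (hs : ∀ x : K, star x = x ^ q) (hn : 3 ≤ n)
    (α : MulAut ↥(PSU K n)) (hα : CoreHyp' α) :
    ∃ (σ : SA K) (A : Fin n → K) (hA : ∀ i, star (A i) * A i = 1), ∀ g : SU K n,
      (α (pS K n g)).1 =
        QuotientGroup.mk (dgN A hA * mapGU σ g.1 * (dgN A hA)⁻¹) := by
  refine core_of_pairs hq hK hs hn α fun i j hij => ?_
  obtain ⟨k, hk⟩ : ∃ k : Fin n, k ∉ ({i, j} : Finset (Fin n)) := by
    by_contra hcon
    push Not at hcon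
    have h5 : (Finset.univ : Finset (Fin n)) ⊆ {i, j} := fun m _ => hcon m
    have h6 := Finset.card_le_card h5
    rw [Finset.card_univ, Fintype.card_fin] at h6
    have h7 : ({i, j} : Finset (Fin n)).card ≤ 2 := Finset.card_le_two
    omega
  rw [Finset.mem_insert, Finset.mem_singleton, not_or] at hk
  exact pair' hq hK hs hα hij hk.1 hk.2

/-- the second form for another frame -/
theorem core_frame' (hq : 4 ≤ q) (hK : Nat.card K = q ^ 2) (hs : ∀ x : K, star x = x ^ q)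
    (hn : 3 ≤ n) (α : MulAut ↥(PSU K n)) (g0 : GU K n)
    (hα : CoreHyp' ((cjP g0)⁻¹ * α)) :
    ∃ (σ : SA K) (D : GU K n), ∀ g : SU K n,
      (α (pS K n g)).1 = QuotientGroup.mk (D * mapGU σ g.1 * D⁻¹) := by
  obtain ⟨σ, A, hA, h⟩ := core' hq hK hs hn _ hα
  refine ⟨σ, g0 * dgN A hA, fun g => ?_⟩
  have h1 := h g
  have h4 : α (pS K n g) = cjP g0 ((cjP g0)⁻¹ (α (pS K n g))) := by
    change _ = (cjP g0 * (cjP g0)⁻¹) (α (pS K n g))
    rw [mul_inv_cancel]
    rfl
  change ((cjP g0)⁻¹ (α (pS K n g))).1 = _ at h1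
  rw [h4, cjP_val, h1]
  change (QuotientGroup.mk (g0 * (dgN A hA * mapGU σ g.1 * (dgN A hA)⁻¹) * g0⁻¹) : PGU K n) = _
  congr 1
  group

end pair

end

end Vale.Agent.P240.R2.H923
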