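import Vale.Agent.P240.R2.H923.PUDefs
import Vale.Agent.P240.R2.H923.Act
import Vale.Agent.P240.R2.H979.Num

/-!
P240 (helper923): `PSU_n(q)`, `n` a power of `2`, as a subgroup of `lin1`: the isomorphism, the
automorphisms, the property `AutTop` from the counts.
-/

set_option autoImplicit false
set_option linter.all false

namespace Vale.Agent.P240.R2.H923.PU

open Matrix Subgroup Vale.Agent.P240.K Vale.Agent.P240.H195
open Vale.Agent.P240.R2.AS (GU SU PGU PSU SA mapGU SA_star act)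
open Vale.Agent.P240.R2.H487
open Vale.Agent.P240.R2.H923 (pS pS_val pS_surj conj_det)

universe u v w

noncomputable section

section iso
variable {K : Type u} [Field K] [StarRing K] {a m : ℕ}

lemma tU_val (X : SU K (m + 1)) : tU K m X = jL m K (gU X.1) := rfl

lemma tU_eq_one {ζ : K} (h1 : ζ ≠ 1) (h2 : ζ * star ζ = 1) {r : ℕ} [hr : Fact r.Prime] [CharP K r]
    (hm : 1 ≤ m) (X : SU K (m + 1)) :
    tU K m X = 1 ↔ X.1 ∈ Subgroup.center (GU K (m + 1)) := by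
  rw [H296.mem_center_iff h1 h2]
  constructor
  · intro h
    have h3 : sem (gU X.1) 1 = 1 := congrArg Subtype.val h
    obtain ⟨-, c, -, h4⟩ := sem_trivial (r := r) h3 hm
    rw [Algebra.algebraMap_eq_smul_one] at h4
    exact ⟨c, h4⟩
  · rintro ⟨c, hc⟩
    apply Subtype.ext
    have h3 : sem (gU X.1) 1 = 1 := by
      refine sem_scalar (c := c) ?_
      rw [Algebra.algebraMap_eq_smul_one]
      exact hc
    exact h3

lemma ker_eq {ζ : K} (h1 : ζ ≠ 1) (h2 : ζ * star ζ = 1) {r : ℕ} [hr : Fact r.Prime] [CharP K r]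
    (hm : 1 ≤ m) : (pS K (m + 1)).ker = (tU K m).ker := by
  ext X
  rw [MonoidHom.mem_ker, MonoidHom.mem_ker, tU_eq_one h1 h2 (r := r) hm, Subtype.ext_iff, pS_val]
  exact QuotientGroup.eq_one_iff _

/-- the isomorphism -/
def eU {ζ : K} (h1 : ζ ≠ 1) (h2 : ζ * star ζ = 1) {r : ℕ} [hr : Fact r.Prime] [CharP K r]
    (hm : 1 ≤ m) : PSU K (m + 1) ≃* LU K m :=
  (QuotientGroup.quotientKerEquivOfSurjective (pS K (m + 1)) pS_surj).symm.trans
    ((QuotientGroup.quotientMulEquivOfEq (ker_eq h1 h2 (r := r) hm)).trans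
      (QuotientGroup.quotientKerEquivRange (tU K m)))

lemma eU_apply {ζ : K} (h1 : ζ ≠ 1) (h2 : ζ * star ζ = 1) {r : ℕ} [hr : Fact r.Prime] [CharP K r]
    (hm : 1 ≤ m) (X : SU K (m + 1)) :
    ((eU h1 h2 (r := r) hm (pS K (m + 1) X) : LU K m) : lin1 m K) = tU K m X := by
  have h3 : (QuotientGroup.quotientKerEquivOfSurjective (pS K (m + 1)) pS_surj).symm
      (pS K (m + 1) X) = QuotientGroup.mk X := by
    rw [MulEquiv.symm_apply_eq]
    rfl
  have h4 : eU h1 h2 (r := r) hm (pS K (m + 1) X) =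
      (QuotientGroup.quotientKerEquivRange (tU K m))
        ((QuotientGroup.quotientMulEquivOfEq (ker_eq h1 h2 (r := r) hm))
          ((QuotientGroup.quotientKerEquivOfSurjective (pS K (m + 1)) pS_surj).symm
            (pS K (m + 1) X))) := rfl
  rw [h4, h3]
  rfl

/-- linear automorphisms are induced -/
lemma ind_U {ζ : K} (h1 : ζ ≠ 1) (h2 : ζ * star ζ = 1) {r : ℕ} [hr : Fact r.Prime] [CharP K r]
    (hm : 1 ≤ m) {f : MulAut ↥(PSU K (m + 1))} {g : GU K (m + 1)}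
    (hf : ∀ y : ↥(PSU K (m + 1)), (f y).1 = QuotientGroup.mk g * y.1 * (QuotientGroup.mk g)⁻¹)
    (y : ↥(PSU K (m + 1))) :
    ((eU h1 h2 (r := r) hm (f y) : LU K m) : lin1 m K) =
      jL m K (gU g) * (eU h1 h2 (r := r) hm y : LU K m) * (jL m K (gU g))⁻¹ := by
  obtain ⟨X, rfl⟩ := pS_surj y
  have h3 : f (pS K (m + 1) X) = pS K (m + 1) ⟨g * X.1 * g⁻¹, conj_det g X.2⟩ := by
    apply Subtype.ext
    rw [hf, pS_val, pS_val]
    rfl
  rw [h3, eU_apply, eU_apply, tU_val, tU_val, map_mul, map_mul, map_mul, map_mul, map_inv, map_inv]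

/-- entrywise star -/
def sA (K : Type u) [Field K] [StarRing K] : SA K := ⟨starRingAut, fun _ => rfl⟩

lemma gU_star (X : GU K (m + 1)) : gU (mapGU (sA K) X) = gt (gU X) := by
  apply Units.ext
  have h1 : (gt (gU X)).1 = (((gU X)⁻¹).1)ᵀ := rfl
  have h2 : ((gU X)⁻¹).1 = star X.1 := rfl
  rw [h1, h2]
  ext i j
  rfl

lemma map_star_det {X : GU K (m + 1)} (hX : X.1.det = 1) : (mapGU (sA K) X).1.det = 1 := by
  have h1 : (mapGU (sA K) X).1 = X.1.map (sA K).1 := rfl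
  have h2 : (X.1.map (sA K).1).det = (sA K).1 X.1.det := (RingHom.map_det (sA K).1.toRingHom _).symm
  rw [h1, h2, hX, map_one]

/-- the graph automorphism is induced -/
lemma ind_star {ζ : K} (h1 : ζ ≠ 1) (h2 : ζ * star ζ = 1) {r : ℕ} [hr : Fact r.Prime] [CharP K r]
    (hm : 1 ≤ m) {f : MulAut ↥(PSU K (m + 1))} {g : GU K (m + 1)}
    (hf : ∀ X X' : GU K (m + 1), X'.1 = X.1.map star → ∀ y : ↥(PSU K (m + 1)),
      y.1 = QuotientGroup.mk X →
      (f y).1 = QuotientGroup.mk g * QuotientGroup.mk X' * (QuotientGroup.mk g)⁻¹)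
    (y : ↥(PSU K (m + 1))) :
    ((eU h1 h2 (r := r) hm (f y) : LU K m) : lin1 m K) =
      (jL m K (gU g) * gL m K) * (eU h1 h2 (r := r) hm y : LU K m) *
        (jL m K (gU g) * gL m K)⁻¹ := by
  obtain ⟨X, rfl⟩ := pS_surj y
  have h3 : f (pS K (m + 1) X) =
      pS K (m + 1) ⟨g * mapGU (sA K) X.1 * g⁻¹, conj_det g (map_star_det X.2)⟩ := by
    apply Subtype.ext
    rw [hf X.1 (mapGU (sA K) X.1) rfl (pS K (m + 1) X) rfl, pS_val]
    rfl
  rw [h3, eU_apply, eU_apply, tU_val, tU_val, map_mul, map_mul, map_mul, map_mul, map_inv, map_inv,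
    gU_star, ← gL_conj]
  group

end iso

section count
variable {K : Type u} [Field K] [StarRing K] {a m : ℕ}
variable (h2 : (2 : K) ≠ 0) {i : Kˣ} (hi : (i : K) * i = -1) (σ : Fin (m + 1) ≃ Vv a)

lemma mem_mU {r : ℕ} [hr : Fact r.Prime] [CharP K r] (hm : 1 ≤ m) {b : Ww a} (hb : b ≠ 0)
    (Z : GLm m K) (μ : Kˣ) :
    jL m K Z * hJ h2 hi σ (jL m K) b μ * (jL m K Z)⁻¹ ∈ LU K m ↔ μ ∈ mU (i : K) σ b Z := by
  rw [hJ_val h2 hi σ _ hb]
  constructor
  · rintro ⟨V, hV⟩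
    have h1 : sem Z 1 * sem (HG h2 hi σ b μ) 1 * (sem Z 1)⁻¹ = sem (gU V.1) 1 :=
      (congrArg Subtype.val hV).symm
    obtain ⟨c, hc, h3⟩ := rel_of_conj (r := r) hm h1
    refine ⟨V, c⁻¹, ?_⟩
    have h4 : (HG h2 hi σ b μ).1.map (1 : RingAut K) = HM (i : K) σ b μ := by
      ext u v
      rfl
    rw [h4] at h3
    rw [h3, smul_smul, inv_mul_cancel₀ hc, one_smul]
    rfl
  · rintro ⟨V, d, h3⟩
    refine ⟨V, ?_⟩
    have hd : d ≠ 0 := by
      rintro rfl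
      rw [zero_smul] at h3
      have h4 : ((gU V.1 * Z : GLm m K)).1 = 0 := h3
      have h5 := mul_inv_val (gU V.1 * Z)
      rw [h4, Matrix.zero_mul] at h5
      exact zero_ne_one h5
    have h4 : (HG h2 hi σ b μ).1.map (1 : RingAut K) = HM (i : K) σ b μ := by
      ext u v
      rfl
    have h5 : sem Z 1 * sem (HG h2 hi σ b μ) 1 * (sem Z 1)⁻¹ = sem (gU V.1) 1 := by
      refine sem_rel (c := d⁻¹) ?_
      have h6 : (gU V.1).1 * Z.1 = V.1.1 * Z.1 := rfl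
      rw [h4, h6, h3, smul_smul, inv_mul_cancel₀ hd, one_smul]
    exact Subtype.ext h5.symm

/-- the counts -/
def MXU (i0 : K) (σ : Fin (m + 1) ≃ Vv a) : Prop :=
  ∀ (b : Ww a) (Z : GLm m K) (X : SU K (m + 1)) (c : K), b ≠ 0 →
    X.1.1 * Z.1 = c • (Z.1 * PP i0 σ b) →
      12 ≤ Nat.card {la : Kˣ // la ^ 2 ∈ mU i0 σ b Z} ∧
      3 * Nat.card {la : Kˣ // la ∈ mU i0 σ b Z ∧ la ^ 4 = 1} ≤
        2 * Nat.card {la : Kˣ // la ∈ mU i0 σ b Z} ∧
      ∃ la ∈ mU i0 σ b Z, la ^ 4 ≠ 1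

/-- the counts for `PSU_n(q)` -/
theorem mxp_ofU {r : ℕ} [hr : Fact r.Prime] [CharP K r] (hm : 2 ≤ m) (hx : MXU (i : K) σ) :
    MXP (jL m K).range (hJ h2 hi σ (jL m K)) (pJ h2 hi σ (jL m K)) (LU K m) := by
  have h := htsL (a := a) h2 hi σ (r := r) hm
  rintro _ ⟨Z, rfl⟩ b hb hyb
  rw [← h.htP b hb, mem_mU h2 hi σ (r := r) (by omega) hb] at hyb
  obtain ⟨X, c, h3⟩ := hyb
  rw [HM_neg_one h2] at h3
  obtain ⟨h4, h5, h6⟩ := hx b Z X c hb h3
  simp only [mem_mU h2 hi σ (r := r) (by omega : 1 ≤ m) hb]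
  exact ⟨h4, h5, h6⟩

lemma star_s2 (x : ZMod 2) : star (s2 K x) = s2 K x := by
  rcases zmod2_cases x with rfl | rfl
  · rw [s2_zero, star_one]
  · rw [s2_one, star_neg, star_one]

lemma star_PM (w : Ww a) : star (PM K σ w) = s2 K (Qf w) • PM K σ w := by
  rw [← PM_tr]
  ext u v
  rw [Matrix.star_apply, Matrix.transpose_apply, PM_apply]
  split_ifs
  · exact star_s2 _
  · exact star_zero _

lemma PM_unitary (w : Ww a) : PM K σ w ∈ Matrix.unitaryGroup (Fin (m + 1)) K := by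
  rw [Matrix.mem_unitaryGroup_iff, star_PM, Matrix.mul_smul, PM_sq, smul_smul, s2_sq, one_smul]

include h2 hi in
lemma pJ_memU (ha : 2 ≤ a) (hma : m + 1 = 2 ^ a) (w : Ww a) :
    pJ h2 hi σ (jL m K) w ∈ LU K m := by
  refine ⟨⟨⟨PM K σ w, PM_unitary σ w⟩, PM_det h2 hi σ ha hma w⟩, ?_⟩
  obtain ⟨c, hc, h3⟩ := TS_i h2 hi σ w
  apply Subtype.ext
  have h5 : sem (gU (⟨PM K σ w, PM_unitary σ w⟩ : GU K (m + 1))) 1 =
      sem (tog (TS h2 hi σ w i)) 1 := by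
    refine sem_congr (c := c⁻¹) ?_
    have h6 : (tog (TS h2 hi σ w i)).1 = (TS h2 hi σ w i).1 := rfl
    have h7 : (gU (⟨PM K σ w, PM_unitary σ w⟩ : GU K (m + 1))).1 = PM K σ w := rfl
    rw [h6, h7, h3, smul_smul, inv_mul_cancel₀ hc, one_smul]
  exact h5

include h2 hi in
/-- the centralizer of `PSU_n(q)` -/
lemma cenU {r : ℕ} [hr : Fact r.Prime] [CharP K r] (ha : 2 ≤ a) (hma : m + 1 = 2 ^ a)
    (hx : MXU (i : K) σ) {x : lin1 m K} (hx' : ∀ y ∈ LU K m, y * x = x * y) : x = 1 := by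
  have hm : 2 ≤ m := by
    have : 2 ^ 2 ≤ 2 ^ a := Nat.pow_le_pow_right (by norm_num) ha
    omega
  have hmx := mxp_ofU h2 hi σ (r := r) hm hx
  refine cen_of h2 hi σ (r := r) hm ha x (fun w => (hx' _ (pJ_memU h2 hi σ ha hma w)).symm)
    fun b hb => ?_
  obtain ⟨μ, h3, h4⟩ := (hmx 1 (one_mem _) b hb (by
    rw [one_mul, inv_one, mul_one]
    exact pJ_memU h2 hi σ ha hma b)).2.2
  rw [one_mul, inv_one, mul_one] at h3
  refine ⟨μ, fun h5 => h4 ?_, (hx' _ h3).symm⟩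
  have : μ ^ 4 = (μ ^ 2) ^ 2 := by rw [← pow_mul]
  rw [this, h5, one_pow]

/-- involutions of the automorphism group -/
def InvU (K : Type u) [Field K] [StarRing K] (n : ℕ) : Prop :=
  ∀ f : MulAut ↥(PSU K n), f ^ 2 = 1 → ∃ g : GU K n,
    (∀ y : ↥(PSU K n), (f y).1 = QuotientGroup.mk g * y.1 * (QuotientGroup.mk g)⁻¹) ∨
    (∀ X X' : GU K n, X'.1 = X.1.map star → ∀ y : ↥(PSU K n), y.1 = QuotientGroup.mk X →
      (f y).1 = QuotientGroup.mk g * QuotientGroup.mk X' * (QuotientGroup.mk g)⁻¹)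

include h2 hi in
/-- **The property `AutTop` from the counts.** -/
theorem autTopU_of_mx [Finite K] {𝕜 : Type v} [Field 𝕜] {r : ℕ} [hr : Fact r.Prime]
    [CharP K r] {ζ : K} (hζ1 : ζ ≠ 1) (hζ2 : ζ * star ζ = 1) (ha : 2 ≤ a) (hma : m + 1 = 2 ^ a)
    (num : NumA K) (hx : MXU (i : K) σ) (hinv : InvU K (m + 1)) :
    AutTop 𝕜 ↥(PSU K (m + 1)) := by
  have hm : 2 ≤ m := by
    have : 2 ^ 2 ≤ 2 ^ a := Nat.pow_le_pow_right (by norm_num) ha
    omega
  have h := htsL (a := a) h2 hi σ (r := r) hm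
  have hmx := mxp_ofU h2 hi σ (r := r) hm hx
  have hR : RelTop 𝕜 (LU K m) := by
    refine relTop_of h ha (cenL h2 hi σ (r := r) hm ha num.h4) norm1 num (fun x hx => ?_)
      (pJ_memU h2 hi σ ha hma) ?_ hmx
    · obtain ⟨w₀, ε, h3, -⟩ := cent1 h2 hi σ (r := r) hm x hx
      exact ⟨w₀, ε, h3⟩
    · rintro _ ⟨X, rfl⟩
      exact ⟨_, rfl⟩
  refine autTop_of_rel (eU hζ1 hζ2 (r := r) (m := m) (by omega)) ?_ (fun f hf => ?_) hR
  · rw [eq_bot_iff]
    intro x hx'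
    rw [mem_centralizer_iff] at hx'
    rw [mem_bot]
    exact cenU h2 hi σ (r := r) ha hma hx hx'
  · obtain ⟨g, h3 | h3⟩ := hinv f hf
    · have h4 := ind_U hζ1 hζ2 (r := r) (m := m) (by omega) h3
      exact ⟨_, norm_of _ h4, h4⟩
    · have h4 := ind_star hζ1 hζ2 (r := r) (m := m) (by omega) h3
      exact ⟨_, norm_of _ h4, h4⟩

include h2 hi in
/-- the centre of `PSU_n(q)` is trivial -/
lemma centreU [Finite K] {r : ℕ} [hr : Fact r.Prime]
    [CharP K r] {ζ : K} (hζ1 : ζ ≠ 1) (hζ2 : ζ * star ζ = 1) (ha : 2 ≤ a) (hma : m + 1 = 2 ^ a)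
    (hx : MXU (i : K) σ) (x : ↥(PSU K (m + 1))) (hx' : ∀ y, x * y = y * x) : x = 1 := by
  have hm : 2 ≤ m := by
    have : 2 ^ 2 ≤ 2 ^ a := Nat.pow_le_pow_right (by norm_num) ha
    omega
  have h1 : ((eU hζ1 hζ2 (r := r) (m := m) (by omega) x : LU K m) : lin1 m K) = 1 := by
    refine cenU h2 hi σ (r := r) ha hma hx fun y hy => ?_
    obtain ⟨z, hz⟩ := (eU hζ1 hζ2 (r := r) (m := m) (by omega)).surjective ⟨y, hy⟩
    have h3 : y = ((eU hζ1 hζ2 (r := r) (m := m) (by omega) z : LU K m) : lin1 m K) := by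
      rw [hz]
    rw [h3, ← Subgroup.coe_mul, ← Subgroup.coe_mul, ← map_mul, ← map_mul, hx']
  have h2 : eU hζ1 hζ2 (r := r) (m := m) (by omega) x = 1 := Subtype.ext h1
  exact (map_eq_one_iff _ (eU hζ1 hζ2 (r := r) (m := m) (by omega)).injective).1 h2

end count

end

end Vale.Agent.P240.R2.H923.PU
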