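import Vale.Agent.P240.R2.H923.TR4

/-!
P240 (helper923), TR for `q` even: ROW T from ROW F and ROW M. An elementary abelian `p`-subgroup of
`PGU_n(q)` of order at least `p ^ (n - 2)`, `p ≥ 5`, is diagonal in some frame.
-/

set_option autoImplicit false
set_option linter.all false

namespace Vale.Agent.P240.R2.H923.TR

open Matrix Subgroup
open Vale.Agent.P240.R2.AS (GU SU PGU PSU SA mapGU SA_star act)
open Vale.Agent.P240.R2.H257 (Rigid diag_mem dgc_eq dgc_mem zero_of_comm comm_of_isC)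

universe u

noncomputable section

section rowT
variable {K : Type u} [Field K] [StarRing K] {p q n : ℕ} {ζ : K}

/-- a nonzero entry in each column -/
lemma Mon.ne {h : GU K n} {π : Equiv.Perm (Fin n)} (hm : Mon h π) (i : Fin n) :
    h.1 (π i) i ≠ 0 := by
  intro h0
  have h1 := col_inner h i i
  rw [if_pos rfl, Finset.sum_eq_zero] at h1
  · exact zero_ne_one h1
  · intro m _
    by_cases hm' : m = π i
    · rw [hm', h0, mul_zero]
    · rw [hm i m hm', mul_zero]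

lemma Mon.mul {h h' : GU K n} {π π' : Equiv.Perm (Fin n)} (hm : Mon h π) (hm' : Mon h' π') :
    Mon (h * h') (π * π') := by
  intro i l hl
  change (h.1 * h'.1) l i = 0
  rw [Matrix.mul_apply]
  refine Finset.sum_eq_zero fun m _ => ?_
  by_cases h1 : m = π' i
  · rw [h1, hm (π' i) l hl, zero_mul]
  · rw [hm' i m h1, mul_zero]

lemma Mon.unique (hz1 : ζ ≠ 1) (hzz : ζ * star ζ = 1) {h h' : GU K n}
    {π π' : Equiv.Perm (Fin n)} (hm : Mon h π) (hm' : Mon h' π')
    (he : (QuotientGroup.mk h : PGU K n) = QuotientGroup.mk h') : π = π' := by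
  obtain ⟨z, hz0, hz⟩ := scal_of_mk hz1 hzz he
  ext i : 1
  by_contra hne
  have h1 := hm'.ne i
  rw [hz, Matrix.smul_apply, hm i (π' i) (Ne.symm hne), smul_zero] at h1
  exact h1 rfl

/-- diagonal classes of exponent `p` in `PGU`, normalised -/
lemma vec_of_dia (h : Dt p q n ζ) {y : PGU K n} {g : GU K n} (hg : Dia g)
    (hy : y = QuotientGroup.mk g) (hp : y ^ p = 1) (i0 : Fin n) :
    ∃ c : Fin n → K, (∀ i, c i ^ p = 1) ∧ y = dgc c ∧ c i0 = 1 := by
  -- `g = diagonal`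
  have hgd : g.1 = Matrix.diagonal fun i => g.1 i i := by
    ext l k
    by_cases hlk : l = k
    · subst hlk; rw [Matrix.diagonal_apply_eq]
    · rw [Matrix.diagonal_apply_ne _ hlk, hg k l hlk]
  have hnorm : ∀ i, star (g.1 i i) * g.1 i i = 1 := by
    intro i
    have h1 := col_inner g i i
    rw [if_pos rfl, Finset.sum_eq_single i] at h1
    · exact h1
    · intro m _ hm
      rw [hg i m hm, mul_zero]
    · intro h2
      exact absurd (Finset.mem_univ i) h2
  have h00 : g.1 i0 i0 ≠ 0 := by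
    intro h0
    have := hnorm i0
    rw [h0, mul_zero] at this
    exact zero_ne_one this
  have hgp : ∃ z : K, (g ^ p).1 = z • (1 : Matrix (Fin n) (Fin n) K) := by
    have h1 : (QuotientGroup.mk (g ^ p) : PGU K n) = 1 := by
      rw [hy] at hp
      exact hp
    rw [QuotientGroup.eq_one_iff, H296.mem_center_iff h.z1 h.zz] at h1
    exact h1
  obtain ⟨z, hz⟩ := hgp
  have hpow : ∀ i, g.1 i i ^ p = z := by
    intro i
    have h1 := congrFun (congrFun hz i) i
    rw [Matrix.smul_apply, Matrix.one_apply_eq, smul_eq_mul, mul_one] at h1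
    rw [← h1]
    have h2 : (g ^ p).1 = g.1 ^ p := rfl
    have h3 : g.1 ^ p = Matrix.diagonal ((fun i => g.1 i i) ^ p) := by
      rw [← Matrix.diagonal_pow, ← hgd]
    rw [h2, h3, Matrix.diagonal_apply_eq, Pi.pow_apply]
  refine ⟨fun i => (g.1 i0 i0)⁻¹ * g.1 i i, fun i => ?_, ?_, inv_mul_cancel₀ h00⟩
  · have hz0 : z ≠ 0 := by
      rw [← hpow i0]
      exact pow_ne_zero _ h00
    rw [mul_pow, inv_pow, hpow, hpow, inv_mul_cancel₀ hz0]
  · have hcn : ∀ i, ((g.1 i0 i0)⁻¹ * g.1 i i) * star ((g.1 i0 i0)⁻¹ * g.1 i i) = 1 := by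
      intro i
      rw [star_mul, star_inv₀]
      have a1 := hnorm i
      have a2 : (g.1 i0 i0)⁻¹ * (star (g.1 i0 i0))⁻¹ = 1 := by
        rw [← _root_.mul_inv_rev, hnorm, inv_one]
      linear_combination ((g.1 i0 i0)⁻¹ * (star (g.1 i0 i0))⁻¹) * a1 + a2
    rw [hy, dgc_eq (diag_mem hcn), eq_comm, QuotientGroup.eq, H296.mem_center_iff h.z1 h.zz]
    refine ⟨g.1 i0 i0, ?_⟩
    change (Matrix.diagonal fun i => (g.1 i0 i0)⁻¹ * g.1 i i)ᴴ * g.1 = _
    conv_lhs => rw [hgd]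
    rw [Matrix.diagonal_conjTranspose, Matrix.diagonal_mul_diagonal]
    ext l k
    by_cases hlk : l = k
    · subst hlk
      rw [Matrix.diagonal_apply_eq, Matrix.smul_apply, Matrix.one_apply_eq, smul_eq_mul, mul_one]
      simp only [Matrix.diagonal_apply_eq, Pi.star_apply]
      rw [star_mul, star_inv₀]
      have a1 := hnorm l
      have a2 := hnorm i0
      have a3 : star (g.1 i0 i0) ≠ 0 := fun h0 => h00 (star_eq_zero.1 h0)
      have a4 : (star (g.1 i0 i0))⁻¹ = g.1 i0 i0 := by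
        rw [inv_eq_iff_eq_inv, eq_comm, inv_eq_of_mul_eq_one_left a2]
      rw [a4]
      linear_combination (g.1 i0 i0) * a1
    · rw [Matrix.diagonal_apply_ne _ hlk, Matrix.smul_apply, Matrix.one_apply_ne hlk, smul_zero]

/-- scalars do not change the class -/
lemma dgc_smul (h : Dt p q n ζ) {c : Fin n → K} (hc : ∀ i, c i ^ p = 1) {z : K} (hz : z ^ p = 1) :
    (dgc (fun i => z * c i) : PGU K n) = dgc c := by
  have h1 : ∀ i : Fin n, (fun _ : Fin n => z) i ^ p = 1 := fun _ => hz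
  rw [← dgc_mul h h1 hc]
  have h2 : (dgc (fun _ : Fin n => z) : PGU K n) = 1 := by
    rw [dgc_eq (diag_mem fun i => h.nrm (h1 i)), QuotientGroup.eq_one_iff,
      H296.mem_center_iff h.z1 h.zz]
    refine ⟨z, ?_⟩
    change Matrix.diagonal (fun _ => z) = _
    rw [Matrix.smul_one_eq_diagonal]
  rw [h2, one_mul]

lemma Dt.inj (h : Dt p q n ζ) {a b : ℕ} (ha : a < p) (hb : b < p) (he : ζ ^ a = ζ ^ b) : a = b := by
  have key : ∀ a b : ℕ, a < b → b < p → ζ ^ a = ζ ^ b → False := by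
    intro a b h4 h5 h6
    have h7 : ζ ^ (b - a) = 1 := by
      have h8 : ζ ^ b = ζ ^ a * ζ ^ (b - a) := by rw [← pow_add]; congr 1; omega
      rw [← h6] at h8
      exact (mul_left_cancel₀ (pow_ne_zero a h.z0) (by rw [← h8, mul_one])).symm
    have h9 := Nat.le_of_dvd (by omega) (h.pw h7)
    omega
  rcases Nat.lt_trichotomy a b with h4 | h4 | h4
  · exact (key _ _ h4 hb he).elim
  · exact h4
  · exact (key _ _ h4 ha he.symm).elim

end rowT

/-- **ROW T** from the rows F and M -/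
theorem rowT (hF : StmtF.{u}) (hM : StmtM.{u}) : StmtT.{u} := by
  intro K _ _ _ q hq hFq p hpf hp5 hpq n hn E hcomm hx hE
  have hp : p.Prime := hpf.out
  have hq4 : 4 ≤ q := by
    have := Nat.le_of_dvd (by omega) hpq
    omega
  obtain ⟨ζ, hζp, hζ1, -⟩ := H257.exists_zeta hp hpq (by omega) hFq.card
  have h : Dt p q n ζ := ⟨hp, hp5, hn, hq4, hFq.card, hFq.star, hpq, hζp, hζ1⟩
  obtain ⟨g0, hg0⟩ := hF K q hq hFq p (by omega) hpq n (by omega) E (fun x =>
    ⟨1, by rw [pow_one]; exact Subtype.ext (hx x.1 x.2)⟩)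
  refine ⟨g0, ?_⟩
  choose! H π hmon hrep using hg0
  have hcj : ∀ w : GU K n, (QuotientGroup.mk w : PGU K n) =
      (QuotientGroup.mk g0)⁻¹ * QuotientGroup.mk (g0 * w * g0⁻¹) * QuotientGroup.mk g0 := by
    intro w
    change _ = (QuotientGroup.mk (g0⁻¹ * (g0 * w * g0⁻¹) * g0) : PGU K n)
    congr 1
    group
  have hcj' : ∀ w : GU K n, (QuotientGroup.mk (g0 * w * g0⁻¹) : PGU K n) =
      QuotientGroup.mk g0 * QuotientGroup.mk w * (QuotientGroup.mk g0)⁻¹ := fun w => rfl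
  have hu : ∀ y ∈ E, ∀ (g : GU K n) (σ : Equiv.Perm (Fin n)), Mon g σ →
      y = QuotientGroup.mk (g0 * g * g0⁻¹) → π y = σ := by
    intro y hy g σ hg hyg
    refine Mon.unique h.z1 h.zz (hmon y hy) hg ?_
    have h1 := (hrep y hy).symm.trans hyg
    rw [hcj (H y), h1, ← hcj]
  have hπmul : ∀ x ∈ E, ∀ y ∈ E, π (x * y) = π x * π y := by
    intro x hx' y hy
    refine hu _ (E.mul_mem hx' hy) (H x * H y) _ ((hmon x hx').mul (hmon y hy)) ?_
    refine (congrArg₂ (· * ·) (hrep x hx') (hrep y hy)).trans ?_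
    change (QuotientGroup.mk ((g0 * H x * g0⁻¹) * (g0 * H y * g0⁻¹)) : PGU K n) = _
    congr 1
    group
  obtain ⟨τ, hτ⟩ : ∃ τ : E →* Equiv.Perm (Fin n), ∀ y, τ y = π y.1 :=
    ⟨MonoidHom.mk' (fun y => π y.1) (fun a b => hπmul a.1 a.2 b.1 b.2), fun y => rfl⟩
  by_cases hA : τ.range = ⊥
  · intro y hy
    refine ⟨H y, ?_, hrep y hy⟩
    have h1 : τ ⟨y, hy⟩ ∈ τ.range := ⟨_, rfl⟩
    rw [hA, Subgroup.mem_bot, hτ] at h1
    intro i l hl
    apply hmon y hy i l
    change π y = 1 at h1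
    rw [h1]
    exact hl
  exfalso
  have hi0 : 0 < n := by omega
  obtain ⟨D, hD⟩ : ∃ D : Set (Fin n → K), D = {c | (∀ i, c i ^ p = 1) ∧
    (QuotientGroup.mk g0 * dgc c * (QuotientGroup.mk g0)⁻¹ : PGU K n) ∈ E} := ⟨_, rfl⟩
  have hMM := hM K p n hp5 τ.range ?_ ?_ hA D ?_ ?_
  rotate_left
  · rintro _ ⟨x, rfl⟩ _ ⟨y, rfl⟩
    rw [← map_mul, ← map_mul]
    congr 1
    exact Subtype.ext (hcomm x.1 x.2 y.1 y.2)
  · rintro _ ⟨x, rfl⟩
    have h1 : x ^ p = 1 := Subtype.ext (hx x.1 x.2)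
    rw [← map_pow, h1, map_one]
  · intro c hc
    rw [hD] at hc
    obtain ⟨hc1, hcE⟩ := hc
    refine ⟨hc1, ?_⟩
    rintro _ ⟨x, rfl⟩
    rw [hτ]
    have h1 := hcomm x.1 x.2 _ hcE
    have h2 : (QuotientGroup.mk (H x.1) : PGU K n) * dgc c = dgc c * QuotientGroup.mk (H x.1) := by
      have h3 : (QuotientGroup.mk (H x.1) : PGU K n) =
          (QuotientGroup.mk g0)⁻¹ * x.1 * QuotientGroup.mk g0 := by
        rw [hcj (H x.1), ← hrep x.1 x.2]
      rw [h3]
      have h4 : (QuotientGroup.mk g0 : PGU K n)⁻¹ * x.1 * QuotientGroup.mk g0 * dgc c =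
          (QuotientGroup.mk g0 : PGU K n)⁻¹ * (x.1 *
            (QuotientGroup.mk g0 * dgc c * (QuotientGroup.mk g0)⁻¹)) * QuotientGroup.mk g0 := by
        group
      rw [h4, h1]
      group
    rw [dgc_eq (diag_mem fun i => h.nrm (hc1 i)), ← QuotientGroup.mk_mul, ← QuotientGroup.mk_mul]
      at h2
    obtain ⟨z, hz0, hz⟩ := scal_of_mk h.z1 h.zz h2
    refine ⟨z, fun i => ?_⟩
    have h5 := congrFun (congrFun hz (π x.1 i)) i
    change (Matrix.diagonal c * (H x.1).1) (π x.1 i) i =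
      (z • ((H x.1).1 * Matrix.diagonal c)) (π x.1 i) i at h5
    rw [Matrix.smul_apply, Matrix.mul_diagonal, Matrix.diagonal_mul, smul_eq_mul] at h5
    have h6 := (hmon x.1 x.2).ne i
    apply mul_right_cancel₀ h6
    rw [h5]
    ring
  · intro c hc d hd
    rw [hD] at hc hd ⊢
    obtain ⟨hc1, hcE⟩ := hc
    obtain ⟨hd1, hdE⟩ := hd
    have hd0 : ∀ i, d i ≠ 0 := by
      intro i h0
      have := hd1 i
      rw [h0, zero_pow hp.ne_zero] at this
      exact zero_ne_one this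
    have h1 : ∀ i, (c i * (d i)⁻¹) ^ p = 1 := fun i => by
      rw [mul_pow, inv_pow, hc1, hd1, inv_one, mul_one]
    refine ⟨h1, ?_⟩
    have h2 : (dgc (fun i => c i * (d i)⁻¹) : PGU K n) = dgc c * (dgc d)⁻¹ := by
      rw [eq_mul_inv_iff_mul_eq, dgc_mul h h1 hd1]
      congr 1
      funext i
      rw [mul_assoc, inv_mul_cancel₀ (hd0 i), mul_one]
    rw [h2]
    have h3 := E.mul_mem hcE (E.inv_mem hdE)
    have h4 : (QuotientGroup.mk g0 : PGU K n) * (dgc c * (dgc d)⁻¹) * (QuotientGroup.mk g0)⁻¹ =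
      (QuotientGroup.mk g0 * dgc c * (QuotientGroup.mk g0)⁻¹) *
      (QuotientGroup.mk g0 * dgc d * (QuotientGroup.mk g0)⁻¹)⁻¹ := by group
    rw [h4]
    exact h3
  -- the count
  have hv : ∀ y : τ.ker, ∃ c : Fin n → K, (∀ i, c i ^ p = 1) ∧
      y.1.1 = QuotientGroup.mk g0 * dgc c * (QuotientGroup.mk g0)⁻¹ ∧ c ⟨0, hi0⟩ = 1 := by
    intro y
    have h1 : π y.1.1 = 1 := by
      rw [← hτ]
      exact y.2
    have h2 : Dia (H y.1.1) := by
      intro i l hl
      apply hmon y.1.1 y.1.2 i l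
      rw [h1]
      exact hl
    have h3 : (QuotientGroup.mk (H y.1.1) : PGU K n) ^ p = 1 := by
      rw [hcj (H y.1.1), ← hrep y.1.1 y.1.2]
      have h4 : ((QuotientGroup.mk g0 : PGU K n)⁻¹ * y.1.1 * QuotientGroup.mk g0) ^ p =
          (QuotientGroup.mk g0 : PGU K n)⁻¹ * y.1.1 ^ p * QuotientGroup.mk g0 := by
        have h5 := conj_pow (i := p) (a := (QuotientGroup.mk g0 : PGU K n)⁻¹) (b := y.1.1)
        rwa [inv_inv] at h5
      rw [h4, hx y.1.1 y.1.2]
      group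
    obtain ⟨c, hc1, hc2, hc3⟩ := vec_of_dia h h2 rfl h3 ⟨0, hi0⟩
    refine ⟨c, hc1, ?_, hc3⟩
    rw [← hc2]
    exact hrep y.1.1 y.1.2
  choose V hV1 hV2 hV3 using hv
  have hzp : ∀ t : ℕ, (ζ ^ t) ^ p = 1 := fun t => by
    rw [← pow_mul, mul_comm, pow_mul, h.zp, one_pow]
  obtain ⟨Φ, hΦ⟩ : ∃ Φ : τ.ker × Fin p → D, ∀ a, (Φ a).1 = fun i => ζ ^ (a.2 : ℕ) * V a.1 i := by
    refine ⟨fun a => ⟨fun i => ζ ^ (a.2 : ℕ) * V a.1 i, ?_⟩, fun a => rfl⟩
    rw [hD]
    refine ⟨fun i => by rw [mul_pow, hzp, hV1, one_mul], ?_⟩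
    rw [dgc_smul h (hV1 a.1) (hzp _), ← hV2]
    exact a.1.1.2
  have hΦi : Function.Injective Φ := by
    rintro ⟨a, j⟩ ⟨b, k⟩ hab
    have h1 : (fun i => ζ ^ (j : ℕ) * V a i) = fun i => ζ ^ (k : ℕ) * V b i := by
      rw [← hΦ (a, j), ← hΦ (b, k), hab]
    have h2 := congrFun h1 ⟨0, hi0⟩
    simp only [hV3, mul_one] at h2
    have h3 := h.inj j.2 k.2 h2
    have h4 : V a = V b := by
      funext i
      have h5 := congrFun h1 i
      simp only [h2] at h5
      exact mul_left_cancel₀ (pow_ne_zero _ h.z0) h5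
    have h6 : a = b := by
      apply Subtype.ext
      apply Subtype.ext
      rw [hV2, hV2, h4]
    rw [h6, Fin.ext h3]
  haveI : Finite D := inferInstance
  have hcard1 := Nat.card_le_card_of_injective Φ hΦi
  rw [Nat.card_prod, Nat.card_eq_fintype_card (α := Fin p), Fintype.card_fin] at hcard1
  have hcard2 : Nat.card τ.ker * Nat.card τ.range = Nat.card E := by
    rw [← Subgroup.index_ker, Subgroup.card_mul_index]
  have hpos : 0 < p ^ (n - 2) := pow_pos hp.pos _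
  have h1 : p ^ (n - 2) * p ≤ p ^ (n - 2) := by
    calc p ^ (n - 2) * p ≤ Nat.card E * p := Nat.mul_le_mul_right _ hE
      _ = Nat.card τ.range * (Nat.card τ.ker * p) := by rw [← hcard2]; ring
      _ ≤ Nat.card τ.range * Nat.card D := Nat.mul_le_mul_left _ hcard1
      _ ≤ p ^ (n - 2) := hMM
  nlinarith

end

end Vale.Agent.P240.R2.H923.TR
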