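import Vale.Agent.P240.H195.SLC
import Mathlib.LinearAlgebra.Projectivization.PSL.PSL2

/-!
P240 (helper923), NL3: automorphisms of `SL_2(F)` are semilinear, `|F| ≥ 4`.
-/

set_option autoImplicit false
set_option linter.all false

namespace Vale.Agent.P240.R2.H923

open Matrix Subgroup Vale.Agent.P240.K Vale.Agent.P240.H195


open scoped commutatorElement in
/-- automorphisms of a perfect group which agree modulo the centre are equal -/
theorem aut_eq_of_center {G : Type*} [Group G] (hG : commutator G = ⊤) (γ δ : G →* G)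
    (hz : ∀ x, γ x * (δ x)⁻¹ ∈ center G) (x : G) : γ x = δ x := by
  have hc : ∀ x, ∃ z, γ x = z * δ x ∧ ∀ y, y * z = z * y := by
    intro x
    refine ⟨γ x * (δ x)⁻¹, by group, fun y => Subgroup.mem_center_iff.1 (hz x) y⟩
  have hle : commutator G ≤ γ.eqLocus δ := by
    rw [commutator_def, Subgroup.commutator_le]
    intro a _ b _
    change γ ⁅a, b⁆ = δ ⁅a, b⁆
    obtain ⟨z, hz1, hz2⟩ := hc a
    obtain ⟨w, hw1, hw2⟩ := hc b
    rw [commutatorElement_def, map_mul, map_mul, map_mul, map_inv, map_inv, map_mul, map_mul,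
      map_mul, map_inv, map_inv, hz1, hw1, _root_.mul_inv_rev, _root_.mul_inv_rev]
    have e1 : z * δ a * (w * δ b) * ((δ a)⁻¹ * z⁻¹) * ((δ b)⁻¹ * w⁻¹) =
        z * (δ a * w) * δ b * (δ a)⁻¹ * z⁻¹ * (δ b)⁻¹ * w⁻¹ := by group
    rw [e1, hw2 (δ a)]
    have e2 : z * (w * δ a) * δ b * (δ a)⁻¹ * z⁻¹ * (δ b)⁻¹ * w⁻¹ =
        (z * w) * (δ a * δ b * (δ a)⁻¹) * z⁻¹ * (δ b)⁻¹ * w⁻¹ := by group
    rw [e2, hw2 z]
    have e3 : w * z * (δ a * δ b * (δ a)⁻¹) * z⁻¹ * (δ b)⁻¹ * w⁻¹ =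
        w * (z * (δ a * δ b * (δ a)⁻¹)) * z⁻¹ * (δ b)⁻¹ * w⁻¹ := by group
    rw [e3, ← hz2]
    have e4 : w * (δ a * δ b * (δ a)⁻¹ * z) * z⁻¹ * (δ b)⁻¹ * w⁻¹ =
        (w * (δ a * δ b * (δ a)⁻¹ * (δ b)⁻¹)) * w⁻¹ := by group
    rw [e4, ← hw2]
    group
  rw [hG] at hle
  exact hle (Subgroup.mem_top x)

section
variable {F : Type*} [Field F] [Finite F]

theorem exists_sq_ne (hF : 4 ≤ Nat.card F) : ∃ a : F, a ≠ 0 ∧ a ^ 2 ≠ 1 := by
  obtain ⟨x, hx⟩ : IsCyclic Fˣ := by infer_instance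
  refine ⟨x, Units.ne_zero x, fun h ↦ ?_⟩
  grw [Nat.card_eq_card_units_add_one F, ← orderOf_eq_card_of_forall_mem_zpowers hx,
    orderOf_le_of_pow_eq_one zero_lt_two (Units.ext <| by simpa using h)] at hF
  omega

theorem sl2_perfect (hF : 4 ≤ Nat.card F) : commutator (SLm 1 F) = ⊤ := by
  obtain ⟨a, ha, h⟩ := exists_sq_ne hF
  exact Matrix.SL2.commutator_eq_top ha h

theorem psl2_simple (hF : 4 ≤ Nat.card F) : IsSimpleGroup (PL 1 F) :=
  Matrix.ProjectiveSpecialLinearGroup.rank_two_simple hF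

/-- every automorphism of `SL_2(F)` is semilinear -/
theorem aut_sl2 (hF : 4 ≤ Nat.card F) (γ : MulAut (SLm 1 F)) :
    ∃ (M : GLm 1 F) (τ : RingAut F), ∀ x, γ x = act M τ x := by
  obtain ⟨p, hp⟩ := CharP.exists F
  haveI : Fact p.Prime := ⟨CharP.char_is_prime F p⟩
  obtain ⟨M, τ, h⟩ := aut_psl2 (p := p) (psl2_simple hF) (ind γ)
  refine ⟨M, τ, ?_⟩
  refine aut_eq_of_center (sl2_perfect hF) γ.toMonoidHom (act M τ).toMonoidHom ?_
  intro x
  have h1 : ind γ (pr 1 F x) = ind (act M τ) (pr 1 F x) := by rw [h]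
  rw [ind_apply, ind_apply] at h1
  have h2 : pr 1 F (γ x * (act M τ x)⁻¹) = 1 := by
    rw [map_mul, map_inv, h1, mul_inv_cancel]
  exact (QuotientGroup.eq_one_iff _).1 h2

end

end Vale.Agent.P240.R2.H923
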