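import Vale.Agent.P240.R2.H687.TDefs
import Mathlib.LinearAlgebra.Eigenspace.Pi
import Mathlib.LinearAlgebra.Eigenspace.Semisimple
import Mathlib.LinearAlgebra.Eigenspace.Triangularizable
import Mathlib.FieldTheory.IsAlgClosed.AlgebraicClosure
import Mathlib.FieldTheory.Separable
import Mathlib.Dynamics.PeriodicPts.Lemmas
import Mathlib.LinearAlgebra.Dimension.Finite

/-!
Row (T2): an isometry of order prime to `6` that normalizes an abelian group of isometries of
exponent `3` in dimension less than `10` centralizes it.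
-/

set_option autoImplicit false

namespace Vale.Agent.P240.R2.H923.T2

open Module Module.End Function

/-- The combinatorial part: a permutation of odd order prime to `3` of a set with less than `10`
elements commuting with a fixed point free (up to trivial points) involution is trivial. -/
lemma comb {α : Type*} (X : Set α) [Finite X] (hX : Nat.card X < 10) (T I : α → α)
    (hT : ∀ x ∈ X, T x ∈ X) (hI : ∀ x ∈ X, I x ∈ X) (hTI : ∀ x, I (T x) = T (I x))
    (hII : ∀ x ∈ X, I (I x) = x) {N : ℕ} (hN : N.Coprime 6) (hTN : ∀ x ∈ X, T^[N] x = x)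
    (hfix : ∀ x ∈ X, I x = x → T x = x) : ∀ x ∈ X, T x = x := by
  intro x hx
  by_contra hne
  have hN0 : 0 < N := by
    rcases Nat.eq_zero_or_pos N with h | h
    · subst h; revert hN; decide
    · exact h
  have hper : IsPeriodicPt T N x := hTN x hx
  obtain ⟨k, hk⟩ : ∃ k, k = minimalPeriod T x := ⟨_, rfl⟩
  have hk0 : 0 < k := by rw [hk]; exact hper.minimalPeriod_pos hN0
  have hkN : k ∣ N := by rw [hk]; exact hper.minimalPeriod_dvd
  have hk1 : k ≠ 1 := by
    intro h
    rw [hk, minimalPeriod_eq_one_iff_isFixedPt] at h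
    exact hne h
  have hk6 : k.Coprime 6 := Nat.Coprime.coprime_dvd_left hkN hN
  have hk5 : 5 ≤ k := by
    by_contra h
    push Not at h
    interval_cases k
    · exact hk1 rfl
    · revert hk6; decide
    · revert hk6; decide
    · revert hk6; decide
  have hk2 : k.Coprime 2 := Nat.Coprime.coprime_dvd_right (by norm_num) hk6
  have hmem : ∀ n, T^[n] x ∈ X := by
    intro n
    induction n with
    | zero => exact hx
    | succ n ih => rw [iterate_succ_apply']; exact hT _ ih
  have hcomm : ∀ n y, I (T^[n] y) = T^[n] (I y) := by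
    intro n
    induction n with
    | zero => intro y; rfl
    | succ n ih => intro y; rw [iterate_succ_apply', iterate_succ_apply', hTI, ih]
  have hinj : ∀ i j, i < k → j < k → T^[i] x = T^[j] x → i = j := by
    intro i j hi hj h
    rw [hk] at hi hj
    exact (iterate_eq_iterate_iff_of_lt_minimalPeriod hi hj).1 h
  have hpp : x ∈ periodicPts T := mk_mem_periodicPts hN0 hper
  have hmix : ∀ i j, i < k → j < k → I (T^[i] x) ≠ T^[j] x := by
    intro i j hi hj h
    have h1 : T^[i] (I x) = T^[j] x := by rw [← hcomm, h]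
    have h2 : T^[j] (I x) = T^[i] x := by rw [← hcomm, ← h, hII _ (hmem i)]
    have h3 : T^[i + i] x = T^[j + j] x := by
      rw [iterate_add_apply, ← h2, ← iterate_add_apply, add_comm i j, iterate_add_apply, h1,
        ← iterate_add_apply]
    have h4 : (i + i) % k = (j + j) % k := by
      apply hinj _ _ (Nat.mod_lt _ hk0) (Nat.mod_lt _ hk0)
      rw [hk, iterate_mod_minimalPeriod_eq, iterate_mod_minimalPeriod_eq, h3]
    have h5 : i ≡ j [MOD k] := by
      have h6 : 2 * i ≡ 2 * j [MOD k] := by
        rw [two_mul, two_mul]; exact h4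
      exact Nat.ModEq.cancel_left_of_coprime hk2 h6
    have h7 : i = j := by
      have h8 : i % k = j % k := h5
      rwa [Nat.mod_eq_of_lt hi, Nat.mod_eq_of_lt hj] at h8
    subst h7
    have h9 := hfix _ (hmem i) h
    have h10 := minimalPeriod_apply_iterate hpp i
    rw [minimalPeriod_eq_one_iff_isFixedPt.2 h9, ← hk] at h10
    exact hk1 h10.symm
  let g : Fin k × Bool → X := fun z => ⟨if z.2 then I (T^[(z.1 : ℕ)] x) else T^[(z.1 : ℕ)] x, by
    split_ifs
    · exact hI _ (hmem _)
    · exact hmem _⟩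
  have hg : Injective g := by
    rintro ⟨i, b⟩ ⟨j, b'⟩ h
    have h' := congrArg Subtype.val h
    cases b <;> cases b'
    · have := hinj i j i.2 j.2 (by simpa [g] using h')
      rw [Fin.ext this]
    · exact absurd (by simpa [g] using h'.symm) (hmix j i j.2 i.2)
    · exact absurd (by simpa [g] using h') (hmix i j i.2 j.2)
    · have h1 : I (T^[(i : ℕ)] x) = I (T^[(j : ℕ)] x) := by simpa [g] using h'
      have h2 := congrArg I h1
      rw [hII _ (hmem _), hII _ (hmem _)] at h2
      rw [Fin.ext (hinj i j i.2 j.2 h2)]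
  have hc := Nat.card_le_card_of_injective g hg
  rw [Nat.card_prod, Nat.card_eq_fintype_card (α := Fin k), Fintype.card_fin,
    Nat.card_eq_fintype_card (α := Bool), Fintype.card_bool] at hc
  omega

section
variable {F : Type*} [Field F] {V : Type*} [AddCommGroup V] [Module F V]

lemma eig [FiniteDimensional F V] (h3 : (3 : F) ≠ 0) (f : End F V) (hf : f ^ 3 = 1) (μ : F) :
    f.maxGenEigenspace μ = f.eigenspace μ := by
  have hs : f.IsSemisimple := by
    apply isSemisimple_of_squarefree_aeval_eq_zero (p := Polynomial.X ^ 3 - Polynomial.C 1)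
    · exact (Polynomial.separable_X_pow_sub_C (1 : F) (by exact_mod_cast h3)
        one_ne_zero).squarefree
    · simp [hf]
  exact hs.isFinitelySemisimple.maxGenEigenspace_eq_eigenspace μ

/-- joint eigenspaces -/
def W {ι : Type*} (f : ι → End F V) (χ : ι → F) : Submodule F V := ⨅ i, (f i).eigenspace (χ i)

lemma mem_W {ι : Type*} {f : ι → End F V} {χ : ι → F} {v : V} :
    v ∈ W f χ ↔ ∀ i, f i v = χ i • v := by
  simp only [W, Submodule.mem_iInf, mem_eigenspace_iff]

lemma W_eq [FiniteDimensional F V] {ι : Type*} (h3 : (3 : F) ≠ 0) (f : ι → End F V)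
    (hf : ∀ i, f i ^ 3 = 1) :
    (fun χ : ι → F => ⨅ i, (f i).maxGenEigenspace (χ i)) = W f := by
  funext χ
  simp only [W, eig h3 _ (hf _)]

lemma iSup_W [IsAlgClosed F] [FiniteDimensional F V] {ι : Type*} (h3 : (3 : F) ≠ 0)
    (f : ι → End F V) (hf : ∀ i, f i ^ 3 = 1) (hc : ∀ i j, Commute (f i) (f j)) :
    ⨆ χ, W f χ = ⊤ := by
  have h := iSup_iInf_maxGenEigenspace_eq_top_of_iSup_maxGenEigenspace_eq_top_of_commute f
    (fun i j _ => hc i j) (fun i => iSup_maxGenEigenspace_eq_top (f i))
  rw [← h]
  rw [← W_eq h3 f hf]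

lemma indep_W [FiniteDimensional F V] {ι : Type*} (h3 : (3 : F) ≠ 0)
    (f : ι → End F V) (hf : ∀ i, f i ^ 3 = 1) (hc : ∀ i j, Commute (f i) (f j)) :
    iSupIndep (W f) := by
  rw [← W_eq h3 f hf]
  exact independent_iInf_maxGenEigenspace_of_forall_mapsTo f
    (fun i j φ => mapsTo_maxGenEigenspace_of_comm (hc j i) φ)

theorem absCen [IsAlgClosed F] [FiniteDimensional F V] {ι : Type*} (h3 : (3 : F) ≠ 0)
    (hdim : finrank F V < 10) (f : ι → End F V) (hf : ∀ i, f i ^ 3 = 1)
    (hc : ∀ i j, Commute (f i) (f j)) (B : V →ₗ[F] V →ₗ[F] F)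
    (hB : ∀ i v w, B (f i v) (f i w) = B v w) (hnd : ∀ v, (∀ w, B v w = 0) → v = 0)
    (τ : ι → ι) (c : V → V) (hc0 : ∀ v, c v = 0 → v = 0) (hcs : ∀ (t : F) v, c (t • v) = t • c v)
    (hcf : ∀ i v, f i (c v) = c (f (τ i) v)) {N : ℕ} (hN : N.Coprime 6)
    (hτ : ∀ i, f (τ^[N] i) = f i) : ∀ i, f (τ i) = f i := by
  classical
  have hind := indep_W h3 f hf hc
  have hsup := iSup_W h3 f hf hc
  let X : Set (ι → F) := {χ | W f χ ≠ ⊥}
  let _ : Fintype {χ : ι → F // W f χ ≠ ⊥} := hind.fintypeNeBotOfFiniteDimensional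
  have : Finite X := Finite.of_fintype {χ : ι → F // W f χ ≠ ⊥}
  have hX : Nat.card X < 10 := by
    have h1 := hind.subtype_ne_bot_le_finrank
    have h2 : Nat.card X = Fintype.card {χ : ι → F // W f χ ≠ ⊥} :=
      Nat.card_eq_fintype_card (α := {χ : ι → F // W f χ ≠ ⊥})
    omega
  have hχ3 : ∀ χ ∈ X, ∀ i, χ i ^ 3 = 1 := by
    intro χ hχ i
    obtain ⟨v, hv, hv0⟩ := Submodule.exists_mem_ne_zero_of_ne_bot hχ
    rw [mem_W] at hv
    have h1 : (f i ^ 3) v = χ i ^ 3 • v := by
      rw [pow_succ, pow_succ, pow_one, mul_apply, mul_apply, hv i, map_smul, map_smul, hv i,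
        map_smul, hv i, smul_smul, smul_smul]
      congr 1
      ring
    rw [hf i, one_apply] at h1
    have h2 : (χ i ^ 3 - 1) • v = 0 := by rw [sub_smul, ← h1, one_smul, sub_self]
    exact sub_eq_zero.1 ((smul_eq_zero.1 h2).resolve_right hv0)
  have hit : ∀ (n : ℕ) (χ : ι → F), (fun χ : ι → F => χ ∘ τ)^[n] χ = χ ∘ τ^[n] := by
    intro n
    induction n with
    | zero => intro χ; rfl
    | succ n ih => intro χ; rw [iterate_succ_apply', ih, iterate_succ]; rfl
  have key := comb X hX (fun χ => χ ∘ τ) (fun χ i => (χ i)⁻¹) ?_ ?_ (fun _ => rfl)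
    (fun χ _ => by funext i; exact inv_inv _) hN ?_ ?_
  · -- the end
    intro i
    have h1 : ∀ v, v ∈ (⨆ χ, W f χ) → f (τ i) v = f i v := by
      intro v hv
      induction hv using Submodule.iSup_induction' with
      | mem χ v hv =>
        by_cases hχ : W f χ = ⊥
        · rw [hχ, Submodule.mem_bot] at hv
          rw [hv, map_zero, map_zero]
        · have h2 := congrFun (key χ hχ) i
          rw [mem_W] at hv
          rw [hv, hv, ← h2]
          rfl
      | zero => rw [map_zero, map_zero]
      | add v w _ _ h h' => rw [map_add, map_add, h, h']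
    apply LinearMap.ext
    intro v
    exact h1 v (by rw [hsup]; exact Submodule.mem_top)
  · -- `T` preserves `X`
    intro χ hχ h0
    obtain ⟨v, hv, hv0⟩ := Submodule.exists_mem_ne_zero_of_ne_bot hχ
    rw [mem_W] at hv
    have h1 : c v ∈ W f (χ ∘ τ) := by
      rw [mem_W]
      intro i
      rw [hcf, hv, hcs]
      rfl
    have h0' : W f (χ ∘ τ) = ⊥ := h0
    rw [h0', Submodule.mem_bot] at h1
    exact hv0 (hc0 v h1)
  · -- the inverses
    intro χ hχ h0
    have h0' : W f (fun i => (χ i)⁻¹) = ⊥ := h0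
    obtain ⟨v, hv, hv0⟩ := Submodule.exists_mem_ne_zero_of_ne_bot hχ
    rw [mem_W] at hv
    apply hv0
    apply hnd
    intro w
    have hw : w ∈ (⨆ χ, W f χ) := by rw [hsup]; exact Submodule.mem_top
    induction hw using Submodule.iSup_induction' with
    | mem ψ w hw =>
      by_cases hψ : ∀ i, χ i * ψ i = 1
      · have h1 : ψ = fun i => (χ i)⁻¹ := by
          funext i
          exact eq_inv_of_mul_eq_one_right (hψ i)
        rw [h1, h0', Submodule.mem_bot] at hw
        rw [hw, map_zero]
      · push Not at hψ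
        obtain ⟨i, hi⟩ := hψ
        rw [mem_W] at hw
        have h1 := hB i v w
        rw [hv, hw, map_smul, map_smul, LinearMap.smul_apply, smul_eq_mul, smul_eq_mul] at h1
        have h2 : (χ i * ψ i - 1) * B v w = 0 := by linear_combination h1
        exact (mul_eq_zero.1 h2).resolve_left (sub_ne_zero.2 hi)
    | zero => rw [map_zero]
    | add w w' _ _ h h' => rw [map_add, h, h', add_zero]
  · -- the order
    intro χ hχ
    rw [hit]
    funext i
    obtain ⟨v, hv, hv0⟩ := Submodule.exists_mem_ne_zero_of_ne_bot hχ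
    rw [mem_W] at hv
    have h1 : χ (τ^[N] i) • v = χ i • v := by rw [← hv, ← hv, hτ]
    have h2 : (χ (τ^[N] i) - χ i) • v = 0 := by rw [sub_smul, h1, sub_self]
    exact sub_eq_zero.1 ((smul_eq_zero.1 h2).resolve_right hv0)
  · -- the fixed points
    intro χ hχ h
    have h1 : ∀ i, χ i = 1 := by
      intro i
      have h2 : (χ i)⁻¹ = χ i := congrFun h i
      have h4 := hχ3 χ hχ i
      have h5 : χ i ≠ 0 := by
        intro h0
        rw [h0] at h4
        exact absurd h4 (by norm_num)
      have h6 : χ i * χ i = 1 := by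
        nth_rewrite 1 [← h2]
        exact inv_mul_cancel₀ h5
      calc χ i = χ i * (χ i * χ i) := by rw [h6, mul_one]
        _ = χ i ^ 3 := by ring
        _ = 1 := h4
    funext i
    change χ (τ i) = χ i
    rw [h1, h1]

end

section
open Matrix Vale.Agent.P240.R2.H145.EO Vale.Agent.P240.R2.H687.T

variable {K : Type*} [Field K] {n : ℕ}

/-- the action over an extension field -/
noncomputable def phi (F : Type*) [Field F] [Algebra K F] :
    GL (Fin n) K →* End F (Fin n → F) :=
  ((Matrix.toLinAlgEquiv' (R := F) (n := Fin n)).toMonoidHom.comp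
    (RingHom.mapMatrix (algebraMap K F)).toMonoidHom).comp
    (Units.coeHom (Matrix (Fin n) (Fin n) K))

lemma phi_apply (F : Type*) [Field F] [Algebra K F] (g : GL (Fin n) K) (v : Fin n → F) :
    phi F g v = (g.1.map (algebraMap K F)) *ᵥ v := rfl

lemma phi_inj (F : Type*) [Field F] [Algebra K F] {g h : GL (Fin n) K}
    (e : phi F g = phi F h) : g = h := by
  have h1 : g.1.map (algebraMap K F) = h.1.map (algebraMap K F) :=
    (Matrix.toLinAlgEquiv' (R := F) (n := Fin n)).injective e
  apply Units.ext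
  ext i j
  exact (algebraMap K F).injective (congrFun (congrFun h1 i) j)

lemma OD_mat {a : Fin n → K} {g : GL (Fin n) K} (hg : g ∈ OD a) :
    g.1ᵀ * Matrix.diagonal a * g.1 = Matrix.diagonal a := by
  ext i j
  have h := OD_B hg (Pi.single i 1) (Pi.single j 1)
  rw [B_single] at h
  unfold B ac at h
  simp only [Matrix.mulVec_single_one] at h
  rw [Matrix.mul_apply]
  simp only [Matrix.mul_diagonal, Matrix.transpose_apply]
  have h2 : Matrix.diagonal a i j = a i * 1 * (Pi.single j (1 : K) : Fin n → K) i := by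
    by_cases hij : i = j
    · subst hij
      simp
    · rw [Matrix.diagonal_apply_ne _ hij, Pi.single_eq_of_ne hij, mul_zero]
  rw [h2, ← h]
  apply Finset.sum_congr rfl
  intro k _
  simp only [Matrix.col_apply]
  ring

/-- the form over the extension field -/
noncomputable def bF (F : Type*) [Field F] [Algebra K F] (a : Fin n → K) :
    (Fin n → F) →ₗ[F] (Fin n → F) →ₗ[F] F :=
  LinearMap.mk₂ F (fun v w => v ⬝ᵥ (Matrix.diagonal (fun i => algebraMap K F (a i)) *ᵥ w))
    (fun v v' w => add_dotProduct _ _ _) (fun c v w => smul_dotProduct _ _ _)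
    (fun v w w' => by rw [Matrix.mulVec_add, dotProduct_add])
    (fun c v w => by rw [Matrix.mulVec_smul, dotProduct_smul])

lemma bF_apply (F : Type*) [Field F] [Algebra K F] (a : Fin n → K) (v w : Fin n → F) :
    bF F a v w = v ⬝ᵥ (Matrix.diagonal (fun i => algebraMap K F (a i)) *ᵥ w) := rfl

lemma bF_phi (F : Type*) [Field F] [Algebra K F] {a : Fin n → K} {g : GL (Fin n) K}
    (hg : g ∈ OD a) (v w : Fin n → F) : bF F a (phi F g v) (phi F g w) = bF F a v w := by
  rw [bF_apply, bF_apply, phi_apply, phi_apply]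
  have h := congrArg (fun M : Matrix (Fin n) (Fin n) K => M.map (algebraMap K F)) (OD_mat hg)
  simp only [Matrix.map_mul, Matrix.transpose_map] at h
  rw [Matrix.diagonal_map (map_zero _)] at h
  have h' : (g.1.map (algebraMap K F))ᵀ *
      Matrix.diagonal (fun i => algebraMap K F (a i)) * g.1.map (algebraMap K F) =
      Matrix.diagonal (fun i => algebraMap K F (a i)) := h
  rw [← Matrix.vecMul_transpose, ← Matrix.dotProduct_mulVec, Matrix.mulVec_mulVec,
    Matrix.mulVec_mulVec, h']

theorem stmtCen : StmtCen := by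
  intro K _ _ n a hn h3 ha E hE hE3 hEc c hc hcE N hN hcN x hx
  let F := AlgebraicClosure K
  have h3F : (3 : F) ≠ 0 := by
    have := (map_ne_zero (algebraMap K F)).2 h3
    rwa [map_ofNat] at this
  let τ : E → E := fun x => ⟨c * x.1 * c⁻¹, hcE _ x.2⟩
  have hτ : ∀ (m : ℕ) (x : E), (τ^[m] x).1 = c ^ m * x.1 * (c ^ m)⁻¹ := by
    intro m
    induction m with
    | zero => intro x; simp
    | succ m ih =>
      intro x
      rw [iterate_succ_apply']
      change c * (τ^[m] x).1 * c⁻¹ = _
      rw [ih, pow_succ']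
      group
  have key := absCen (F := F) (V := Fin n → F) h3F (by rw [Module.finrank_fin_fun]; exact hn)
    (fun x : E => phi F x.1) (fun x => by rw [← map_pow, hE3 _ x.2, map_one])
    (fun x y => by
      change phi F x.1 * phi F y.1 = phi F y.1 * phi F x.1
      rw [← map_mul, ← map_mul, hEc _ x.2 _ y.2])
    (bF F a) (fun x v w => bF_phi F (hE x.2) v w)
    (fun v hv => by
      funext i
      have h1 := hv (Pi.single i 1)
      rw [bF_apply, Matrix.mulVec_single_one] at h1
      have h2 : v ⬝ᵥ (Matrix.diagonal (fun i => algebraMap K F (a i))).col i =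
          v i * algebraMap K F (a i) := by
        rw [dotProduct, Finset.sum_eq_single i]
        · simp
        · intro j _ hj
          simp [Matrix.diagonal_apply_ne _ hj]
        · intro h; exact absurd (Finset.mem_univ _) h
      rw [h2] at h1
      exact (mul_eq_zero.1 h1).resolve_right ((map_ne_zero _).2 (ha i)))
    τ (fun v => phi F c⁻¹ v)
    (fun v hv => by
      have h1 : phi F c (phi F c⁻¹ v) = v := by
        rw [← End.mul_apply, ← map_mul, mul_inv_cancel, map_one, End.one_apply]
      rw [← h1, hv, map_zero])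
    (fun t v => map_smul _ _ _)
    (fun x v => by
      rw [← End.mul_apply, ← End.mul_apply, ← map_mul, ← map_mul]
      congr 2
      change x.1 * c⁻¹ = c⁻¹ * (c * x.1 * c⁻¹)
      group)
    hN
    (fun x => by
      have h1 : τ^[N] x = x := by
        apply Subtype.ext
        rw [hτ, hcN]
        simp
      rw [h1])
  have h1 := phi_inj F (key ⟨x, hx⟩)
  change c * x * c⁻¹ = x at h1
  exact mul_inv_eq_iff_eq_mul.1 h1

end

end Vale.Agent.P240.R2.H923.T2
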