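import Vale.Agent.P240.R2.H923.Core5
import Vale.Agent.P240.R2.H923.TRStmts
import Vale.Agent.P240.R2.H257.Cij

/-!
P240 (helper923), TR for `q` even: the pairs. An automorphism that preserves the group `D_0` of
diagonal classes of exponent `p ≥ 5` permutes the subgroups `D_ij` and the coordinate subgroups `S_ij`.
-/

set_option autoImplicit false
set_option linter.all false

namespace Vale.Agent.P240.R2.H923.TR

open Matrix Subgroup
open Vale.Agent.P240.R2.AS (GU SU PGU PSU SA mapGU SA_star)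
open Vale.Agent.P240.R2.H257 (Rigid diag_mem dgc_eq dgc_mem zero_of_comm comm_of_isC)

universe u

noncomputable section

/-- the data -/
structure Dt {K : Type u} [Field K] [StarRing K] (p q n : ℕ) (ζ : K) : Prop where
  hp : p.Prime
  h5 : 5 ≤ p
  hn : 3 ≤ n
  q4 : 4 ≤ q
  card : Nat.card K = q ^ 2
  st : ∀ x : K, star x = x ^ q
  dvd : p ∣ q + 1
  zp : ζ ^ p = 1
  z1 : ζ ≠ 1

section arith
variable {K : Type u} [Field K] [StarRing K] {p q n : ℕ} {ζ : K}

lemma Dt.pw (h : Dt p q n ζ) {m : ℕ} (hm : ζ ^ m = 1) : p ∣ m := by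
  rcases (Nat.coprime_or_dvd_of_prime h.hp m) with hc | hd
  · exfalso
    apply h.z1
    have h1 : ζ ^ (Nat.gcd p m) = 1 := pow_gcd_eq_one.2 ⟨h.zp, hm⟩
    rwa [Nat.Coprime.gcd_eq_one hc, pow_one] at h1
  · exact hd

lemma Dt.nrm (h : Dt p q n ζ) {x : K} (hx : x ^ p = 1) : x * star x = 1 := by
  rw [h.st, ← pow_succ']
  obtain ⟨t, ht⟩ := h.dvd
  rw [ht, pow_mul, hx, one_pow]

lemma Dt.z0 (h : Dt p q n ζ) : ζ ≠ 0 := by
  rintro rfl
  have := h.zp
  rw [zero_pow h.hp.ne_zero] at this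
  exact zero_ne_one this

lemma Dt.zz (h : Dt p q n ζ) : ζ * star ζ = 1 := h.nrm h.zp

/-- powers of `ζ` with small different exponents are different -/
lemma Dt.ne (h : Dt p q n ζ) {a b : ℕ} (hab : a < b) (hb : b < a + 5) : ζ ^ a ≠ ζ ^ b := by
  intro he
  have h1 : ζ ^ (b - a) = 1 := by
    have h2 : ζ ^ b = ζ ^ a * ζ ^ (b - a) := by rw [← pow_add]; congr 1; omega
    rw [← he] at h2
    exact (mul_left_cancel₀ (pow_ne_zero a h.z0) (by rw [← h2, mul_one])).symm
  have h2 := Nat.le_of_dvd (by omega) (h.pw h1)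
  have := h.h5
  omega

/-- at most four values: rigid -/
lemma rigid_of_values (h : Dt p q n ζ) {c : Fin n → K} (hc : ∀ i, c i ^ p = 1) (S : Finset K)
    (hS : S.card ≤ 4) (hcS : ∀ i, c i ∈ S) : Rigid c := by
  classical
  intro σ z hz
  by_contra hz1
  have hn : 0 < n := by have := h.hn; omega
  set i0 : Fin n := ⟨0, hn⟩
  have hc0 : ∀ i, c i ≠ 0 := by
    intro i hi
    have := hc i
    rw [hi, zero_pow h.hp.ne_zero] at this
    exact zero_ne_one this
  have hz0 : z ≠ 0 := by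
    rintro rfl
    have := hz i0
    rw [zero_mul] at this
    exact hc0 i0 this
  have hzp : z ^ p = 1 := by
    have h1 := hc i0
    rw [hz i0, mul_pow, hc, mul_one] at h1
    exact h1
  have hit : ∀ t : ℕ, c i0 = z ^ t * c ((σ ^ t) i0) := by
    intro t
    induction t with
    | zero => simp
    | succ t ih =>
      rw [ih, hz ((σ ^ t) i0), pow_succ z, mul_assoc]
      congr 2
      rw [pow_succ' σ]
      rfl
  have hinj : Set.InjOn (fun t : ℕ => c ((σ ^ t) i0)) (Finset.range 5 : Finset ℕ) := by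
    intro a ha b hb hab
    simp only [Finset.coe_range, Set.mem_Iio] at ha hb
    have hab' : c ((σ ^ a) i0) = c ((σ ^ b) i0) := hab
    have h1 := hit a
    have h2 := hit b
    rw [hab'] at h1
    rw [h1] at h2
    have h3 : z ^ a = z ^ b := mul_right_cancel₀ (hc0 _) h2
    by_contra hne
    have key : ∀ a b : ℕ, a < b → b < 5 → z ^ a = z ^ b → False := by
      intro a b h4 h5 h6
      have h7 : z ^ (b - a) = 1 := by
        have h8 : z ^ b = z ^ a * z ^ (b - a) := by rw [← pow_add]; congr 1; omega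
        rw [← h6] at h8
        exact (mul_left_cancel₀ (pow_ne_zero a hz0) (by rw [← h8, mul_one])).symm
      rcases (Nat.coprime_or_dvd_of_prime h.hp (b - a)) with hcc | hd
      · have h1 : z ^ (Nat.gcd p (b - a)) = 1 := pow_gcd_eq_one.2 ⟨hzp, h7⟩
        rw [Nat.Coprime.gcd_eq_one hcc, pow_one] at h1
        exact hz1 h1
      · have h2 := Nat.le_of_dvd (by omega) hd
        have := h.h5
        omega
    rcases Nat.lt_or_gt_of_ne hne with h4 | h4
    · exact key a b h4 hb h3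
    · exact key b a h4 ha h3.symm
  have h9 := Finset.card_le_card_of_injOn (s := Finset.range 5) (t := S)
    (fun t : ℕ => c ((σ ^ t) i0)) (fun t _ => hcS _) hinj
  rw [Finset.card_range] at h9
  omega

end arith

section elements
variable {K : Type u} [Field K] [StarRing K] {p q n : ℕ} {ζ : K}

/-- elements of `D_0` -/
def InD0 (p : ℕ) (y : ↥(PSU K n)) : Prop := ∃ c : Fin n → K, (∀ i, c i ^ p = 1) ∧ y.1 = dgc c

/-- elements of `D_ij` -/
def InD (p : ℕ) (i j : Fin n) (y : ↥(PSU K n)) : Prop :=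
  ∃ c : Fin n → K, (∀ i, c i ^ p = 1) ∧ y.1 = dgc c ∧ c i = c j

lemma InD.d0 {i j : Fin n} {y : ↥(PSU K n)} (h : InD p i j y) : InD0 p y := by
  obtain ⟨c, h1, h2, -⟩ := h
  exact ⟨c, h1, h2⟩

lemma InD.symm {i j : Fin n} {y : ↥(PSU K n)} (h : InD p i j y) : InD p j i y := by
  obtain ⟨c, h1, h2, h3⟩ := h
  exact ⟨c, h1, h2, h3.symm⟩

/-- uniqueness of the vector -/
lemma dgc_unique (h : Dt p q n ζ) {c c' : Fin n → K} (hc : ∀ i, c i ^ p = 1)
    (hc' : ∀ i, c' i ^ p = 1) (he : (dgc c : PGU K n) = dgc c') :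
    ∃ z : K, z ≠ 0 ∧ ∀ i, c' i = z * c i := by
  rw [dgc_eq (diag_mem fun i => h.nrm (hc i)), dgc_eq (diag_mem fun i => h.nrm (hc' i))] at he
  obtain ⟨z, hz0, hz⟩ := scal_of_mk h.z1 h.zz he
  refine ⟨z, hz0, fun i => ?_⟩
  have h1 := congrFun (congrFun hz i) i
  change Matrix.diagonal c' i i = (z • Matrix.diagonal c) i i at h1
  rwa [Matrix.diagonal_apply_eq, Matrix.smul_apply, Matrix.diagonal_apply_eq, smul_eq_mul] at h1

lemma InD_iff (h : Dt p q n ζ) {c : Fin n → K} (hc : ∀ i, c i ^ p = 1) {y : ↥(PSU K n)}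
    (hy : y.1 = dgc c) (i j : Fin n) : InD p i j y ↔ c i = c j := by
  constructor
  · rintro ⟨c', h1, h2, h3⟩
    obtain ⟨z, hz0, hz⟩ := dgc_unique h hc h1 (hy.symm.trans h2)
    rw [hz, hz] at h3
    exact mul_left_cancel₀ hz0 h3
  · intro h1
    exact ⟨c, hc, hy, h1⟩

/-- the vectors with values `x` on `A`, `y` on `B` -/
def cv (x y : K) (A B : Finset (Fin n)) (m : Fin n) : K :=
  (if m ∈ A then x else 1) * (if m ∈ B then y else 1)

lemma cv_prod (x y : K) (A B : Finset (Fin n)) :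
    ∏ m, cv x y A B m = x ^ A.card * y ^ B.card := by
  unfold cv
  rw [Finset.prod_mul_distrib, Finset.prod_ite_mem, Finset.prod_ite_mem, Finset.univ_inter,
    Finset.univ_inter, Finset.prod_const, Finset.prod_const]

lemma cv_pow {x y : K} (hx : x ^ p = 1) (hy : y ^ p = 1) (A B : Finset (Fin n)) (m : Fin n) :
    cv x y A B m ^ p = 1 := by
  unfold cv
  rw [mul_pow]
  split_ifs <;> simp [hx, hy]

lemma exists_cv (h : Dt p q n ζ) {x y : K} (hx : x ^ p = 1) (hy : y ^ p = 1)
    (A B : Finset (Fin n)) (hxy : x ^ A.card * y ^ B.card = 1) :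
    ∃ d : ↥(PSU K n), d.1 = dgc (cv x y A B) ∧ InD0 p d := by
  have h1 : (dgc (cv x y A B) : PGU K n) ∈ PSU K n := by
    refine dgc_mem (fun i => h.nrm (cv_pow hx hy A B i)) ?_
    rw [cv_prod, hxy]
  exact ⟨⟨_, h1⟩, rfl, ⟨_, fun i => cv_pow hx hy A B i, rfl⟩⟩

lemma cv_values (x y : K) (A B : Finset (Fin n)) (m : Fin n) :
    cv x y A B m ∈ ({1, x, y, x * y} : Set K) := by
  unfold cv
  split_ifs <;> simp

lemma cv_rigid (h : Dt p q n ζ) {x y : K} (hx : x ^ p = 1) (hy : y ^ p = 1)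
    (A B : Finset (Fin n)) : Rigid (cv x y A B) := by
  classical
  refine rigid_of_values h (fun i => cv_pow hx hy A B i) ({1, x, y, x * y} : Finset K) ?_ ?_
  · exact Finset.card_le_four
  · intro i
    have := cv_values x y A B i
    simpa using this

end elements

end

end Vale.Agent.P240.R2.H923.TR
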