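import Vale.Agent.P240.R2.H923.TR1

/-!
P240 (helper923), TR for `q` even: an automorphism that preserves `D_0` permutes the `D_ij`, `S_ij`.
-/

set_option autoImplicit false
set_option linter.all false

namespace Vale.Agent.P240.R2.H923.TR

open Matrix Subgroup
open Vale.Agent.P240.R2.AS (GU SU PGU PSU SA mapGU SA_star)
open Vale.Agent.P240.R2.H257 (Rigid diag_mem dgc_eq dgc_mem zero_of_comm comm_of_isC)

universe u

noncomputable section

section sep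
variable {K : Type u} [Field K] [StarRing K] {p q n : ℕ} {ζ : K}

/-- the separating element: `ζ` at `i, j`, `ζ⁻²` at `k` -/
lemma exists_sep (h : Dt p q n ζ) {i j k : Fin n} (hij : i ≠ j) (hik : i ≠ k) (hjk : j ≠ k) :
    ∃ (c : Fin n → K) (d : ↥(PSU K n)), (∀ m, c m ^ p = 1) ∧ Rigid c ∧ d.1 = dgc c ∧ c i = c j ∧
      (∀ m, m ≠ k → c m ≠ c k) := by
  classical
  have hy : ((ζ ^ 2)⁻¹) ^ p = 1 := by
    rw [inv_pow, ← pow_mul, mul_comm, pow_mul, h.zp, one_pow, inv_one]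
  have h20 : ζ ^ 2 ≠ 0 := pow_ne_zero 2 h.z0
  obtain ⟨d, hd, -⟩ := exists_cv h h.zp hy {i, j} {k} (by
    rw [Finset.card_pair hij, Finset.card_singleton, pow_one, mul_inv_cancel₀ h20])
  have hk1 : k ∉ ({i, j} : Finset (Fin n)) := by
    rw [Finset.mem_insert, Finset.mem_singleton, not_or]
    exact ⟨hik.symm, hjk.symm⟩
  have hck : cv ζ ((ζ ^ 2)⁻¹) {i, j} {k} k = (ζ ^ 2)⁻¹ := by
    unfold cv
    rw [if_neg hk1, if_pos (Finset.mem_singleton_self k), one_mul]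
  have hcm : ∀ m, m ≠ k → cv ζ ((ζ ^ 2)⁻¹) {i, j} {k} m =
      if m ∈ ({i, j} : Finset (Fin n)) then ζ else 1 := by
    intro m hm
    have hmk : m ∉ ({k} : Finset (Fin n)) := by rwa [Finset.mem_singleton]
    unfold cv
    rw [if_neg hmk, mul_one]
  refine ⟨_, d, fun m => cv_pow h.zp hy _ _ m, cv_rigid h h.zp hy _ _, hd, ?_, ?_⟩
  · rw [hcm i hik, hcm j hjk, if_pos (Finset.mem_insert_self _ _),
      if_pos (Finset.mem_insert_of_mem (Finset.mem_singleton_self _))]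
  · intro m hm
    rw [hck, hcm m hm]
    split_ifs
    · intro he
      refine h.ne (a := 0) (b := 3) (by omega) (by omega) ?_
      rw [pow_zero]
      have : ζ * ζ ^ 2 = (ζ ^ 2)⁻¹ * ζ ^ 2 := by rw [← he]
      rw [inv_mul_cancel₀ h20] at this
      rw [← this]; ring
    · intro he
      refine h.ne (a := 0) (b := 2) (by omega) (by omega) ?_
      rw [pow_zero]
      have : 1 * ζ ^ 2 = (ζ ^ 2)⁻¹ * ζ ^ 2 := by rw [← he]
      rw [inv_mul_cancel₀ h20, one_mul] at this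
      exact this.symm

lemma exists_third (hn : 3 ≤ n) (i j : Fin n) : ∃ k, k ≠ i ∧ k ≠ j := by
  classical
  obtain ⟨k, hk⟩ : ∃ k : Fin n, k ∉ ({i, j} : Finset (Fin n)) := by
    by_contra hcon
    push Not at hcon
    have h5 : (Finset.univ : Finset (Fin n)) ⊆ {i, j} := fun m _ => hcon m
    have h6 := Finset.card_le_card h5
    rw [Finset.card_univ, Fintype.card_fin] at h6
    have h7 : ({i, j} : Finset (Fin n)).card ≤ 2 := Finset.card_le_two
    omega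
  rw [Finset.mem_insert, Finset.mem_singleton, not_or] at hk
  exact ⟨k, hk⟩

/-- the centraliser of `D_0` consists of diagonal classes -/
lemma isD_of_comm (h : Dt p q n ζ) {y : ↥(PSU K n)}
    (hy : ∀ d : ↥(PSU K n), InD0 p d → y * d = d * y) : IsD y.1 := by
  obtain ⟨g, hg⟩ := QuotientGroup.mk_surjective y.1
  refine ⟨g, ?_, hg.symm⟩
  intro k l hl
  obtain ⟨j, hj1, hj2⟩ := exists_third h.hn k l
  obtain ⟨c, d, hc, hr, hd, -, hsep⟩ := exists_sep h (i := l) (j := j) (k := k) hj2.symm hl hj1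
  have h2 := congrArg Subtype.val (hy d ⟨c, hc, hd⟩)
  rw [Subgroup.coe_mul, Subgroup.coe_mul, hd, ← hg] at h2
  exact zero_of_comm h.zz h.z1 (fun m => h.nrm (hc m)) hr h2 (hsep l hl)

/-- diagonal classes commute with `D_0` -/
lemma comm_of_isD (h : Dt p q n ζ) {y d : ↥(PSU K n)} (hy : IsD y.1) (hd : InD0 p d) :
    y * d = d * y := by
  obtain ⟨g, hg, hyg⟩ := hy
  obtain ⟨c, hc, hdc⟩ := hd
  apply Subtype.ext
  rw [Subgroup.coe_mul, Subgroup.coe_mul, hyg, hdc, dgc_eq (diag_mem fun i => h.nrm (hc i)),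
    ← QuotientGroup.mk_mul, ← QuotientGroup.mk_mul]
  congr 1
  apply Subtype.ext
  change g.1 * Matrix.diagonal c = Matrix.diagonal c * g.1
  ext l k
  rw [Matrix.mul_diagonal, Matrix.diagonal_mul, mul_comm]
  by_cases hlk : l = k
  · rw [hlk]
  · rw [hg k l hlk, mul_zero, mul_zero]

end sep

section exact'
variable {K : Type u} [Field K] [StarRing K] {p q n : ℕ} {ζ : K}

/-- exact commutation with a diagonal matrix -/
def ExC (c : Fin n → K) (y : ↥(PSU K n)) : Prop :=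
  ∃ g : GU K n, y.1 = QuotientGroup.mk g ∧ g.1 * Matrix.diagonal c = Matrix.diagonal c * g.1

lemma ExC.all (h : Dt p q n ζ) {c : Fin n → K} {y : ↥(PSU K n)} (hy : ExC c y) {g : GU K n}
    (hg : y.1 = QuotientGroup.mk g) : g.1 * Matrix.diagonal c = Matrix.diagonal c * g.1 := by
  obtain ⟨g', h1, h2⟩ := hy
  obtain ⟨z, -, hz⟩ := scal_of_mk h.z1 h.zz (h1.symm.trans hg)
  rw [hz, Matrix.smul_mul, Matrix.mul_smul, h2]

lemma ExC.zero (h : Dt p q n ζ) {c : Fin n → K} {y : ↥(PSU K n)} (hy : ExC c y) {g : GU K n}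
    (hg : y.1 = QuotientGroup.mk g) {l k : Fin n} (hlk : c l ≠ c k) : g.1 l k = 0 := by
  have h1 := congrFun (congrFun (hy.all h hg) l) k
  rw [Matrix.mul_diagonal, Matrix.diagonal_mul, mul_comm] at h1
  have h6 : (c k - c l) * g.1 l k = 0 := by rw [sub_mul, h1, sub_self]
  exact (mul_eq_zero.1 h6).resolve_left (sub_ne_zero.2 hlk.symm)

/-- the elements that commute exactly with a diagonal matrix -/
def ExS (c : Fin n → K) : Subgroup ↥(PSU K n) where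
  carrier := {y | ExC c y}
  one_mem' := ⟨1, rfl, by
    change (1 : Matrix (Fin n) (Fin n) K) * _ = _ * 1
    rw [Matrix.one_mul, Matrix.mul_one]⟩
  mul_mem' := by
    rintro y y' ⟨g, h1, h2⟩ ⟨g', h1', h2'⟩
    refine ⟨g * g', ?_, ?_⟩
    · change y.1 * y'.1 = _
      rw [h1, h1']
      rfl
    · change g.1 * g'.1 * _ = _ * (g.1 * g'.1)
      rw [Matrix.mul_assoc, h2', ← Matrix.mul_assoc, h2, Matrix.mul_assoc]
  inv_mem' := by
    rintro y ⟨g, h1, h2⟩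
    refine ⟨g⁻¹, ?_, ?_⟩
    · change y.1⁻¹ = _
      rw [h1]
      rfl
    · change g.1ᴴ * _ = _ * g.1ᴴ
      have e1 := conj_mul g
      have e2 := mul_conj g
      calc g.1ᴴ * Matrix.diagonal c = g.1ᴴ * Matrix.diagonal c * (g.1 * g.1ᴴ) := by
            rw [e2, Matrix.mul_one]
        _ = g.1ᴴ * (Matrix.diagonal c * g.1) * g.1ᴴ := by simp only [Matrix.mul_assoc]
        _ = g.1ᴴ * (g.1 * Matrix.diagonal c) * g.1ᴴ := by rw [h2]
        _ = (g.1ᴴ * g.1) * (Matrix.diagonal c * g.1ᴴ) := by simp only [Matrix.mul_assoc]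
        _ = _ := by rw [e1, Matrix.one_mul]

open scoped commutatorElement in
lemma group_comm {G : Type*} [Group G] {g g' t w w' : G} (h1 : g * t * g⁻¹ = w * t)
    (h2 : g' * t * g'⁻¹ = w' * t) (hw : ∀ x, w * x = x * w) (hw' : ∀ x, w' * x = x * w') :
    ⁅g, g'⁆ * t = t * ⁅g, g'⁆ := by
  have a1 : g⁻¹ * t * g = w⁻¹ * t := by
    have e : t = g⁻¹ * (w * t) * g := by rw [← h1]; group
    have e2 : g⁻¹ * (w * t) * g = w * (g⁻¹ * t * g) := by
      rw [← mul_assoc g⁻¹, ← hw g⁻¹]; group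
    rw [e2] at e
    rw [eq_inv_mul_iff_mul_eq]
    exact e.symm
  have a2 : g'⁻¹ * t * g' = w'⁻¹ * t := by
    have e : t = g'⁻¹ * (w' * t) * g' := by rw [← h2]; group
    have e2 : g'⁻¹ * (w' * t) * g' = w' * (g'⁻¹ * t * g') := by
      rw [← mul_assoc g'⁻¹, ← hw' g'⁻¹]; group
    rw [e2] at e
    rw [eq_inv_mul_iff_mul_eq]
    exact e.symm
  have hwi : ∀ x, w⁻¹ * x = x * w⁻¹ := by
    intro x
    rw [inv_mul_eq_iff_eq_mul, ← mul_assoc, hw, mul_assoc, mul_inv_cancel, mul_one]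
  have hwi' : ∀ x, w'⁻¹ * x = x * w'⁻¹ := by
    intro x
    rw [inv_mul_eq_iff_eq_mul, ← mul_assoc, hw', mul_assoc, mul_inv_cancel, mul_one]
  have key : (g * g' * g⁻¹ * g'⁻¹) * t * (g * g' * g⁻¹ * g'⁻¹)⁻¹ = t := by
    calc (g * g' * g⁻¹ * g'⁻¹) * t * (g * g' * g⁻¹ * g'⁻¹)⁻¹
        = g * (g' * (g⁻¹ * (g'⁻¹ * t * g') * g) * g'⁻¹) * g⁻¹ := by group
      _ = g * (g' * (g⁻¹ * (w'⁻¹ * t) * g) * g'⁻¹) * g⁻¹ := by rw [a2]
      _ = g * (g' * (w'⁻¹ * (g⁻¹ * t * g)) * g'⁻¹) * g⁻¹ := by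
          have : g⁻¹ * (w'⁻¹ * t) * g = w'⁻¹ * (g⁻¹ * t * g) := by
            rw [← mul_assoc g⁻¹, ← hwi' g⁻¹]; group
          rw [this]
      _ = g * (g' * (w'⁻¹ * (w⁻¹ * t)) * g'⁻¹) * g⁻¹ := by rw [a1]
      _ = g * (w'⁻¹ * w⁻¹ * (g' * t * g'⁻¹)) * g⁻¹ := by
          have : g' * (w'⁻¹ * (w⁻¹ * t)) * g'⁻¹ = w'⁻¹ * w⁻¹ * (g' * t * g'⁻¹) := by
            calc g' * (w'⁻¹ * (w⁻¹ * t)) * g'⁻¹ = (g' * w'⁻¹) * w⁻¹ * t * g'⁻¹ := by group
              _ = (w'⁻¹ * g') * w⁻¹ * t * g'⁻¹ := by rw [hwi' g']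
              _ = w'⁻¹ * (g' * w⁻¹) * t * g'⁻¹ := by group
              _ = w'⁻¹ * (w⁻¹ * g') * t * g'⁻¹ := by rw [hwi g']
              _ = _ := by group
          rw [this]
      _ = g * (w'⁻¹ * w⁻¹ * (w' * t)) * g⁻¹ := by rw [h2]
      _ = w'⁻¹ * w⁻¹ * w' * (g * t * g⁻¹) := by
          calc g * (w'⁻¹ * w⁻¹ * (w' * t)) * g⁻¹ = (g * w'⁻¹) * w⁻¹ * w' * t * g⁻¹ := by group
            _ = (w'⁻¹ * g) * w⁻¹ * w' * t * g⁻¹ := by rw [hwi' g]
            _ = w'⁻¹ * (g * w⁻¹) * w' * t * g⁻¹ := by group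
            _ = w'⁻¹ * (w⁻¹ * g) * w' * t * g⁻¹ := by rw [hwi g]
            _ = w'⁻¹ * w⁻¹ * (g * w') * t * g⁻¹ := by group
            _ = w'⁻¹ * w⁻¹ * (w' * g) * t * g⁻¹ := by rw [hw' g]
            _ = _ := by group
      _ = w'⁻¹ * w⁻¹ * w' * (w * t) := by rw [h1]
      _ = t := by
          calc w'⁻¹ * w⁻¹ * w' * (w * t) = w'⁻¹ * (w⁻¹ * w') * (w * t) := by group
            _ = w'⁻¹ * (w' * w⁻¹) * (w * t) := by rw [hwi w']
            _ = t := by group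
  rw [commutatorElement_def]
  rw [mul_inv_eq_iff_eq_mul] at key
  exact key

open scoped commutatorElement in
/-- a perfect group that commutes with a diagonal class commutes exactly -/
lemma exact_of_perfect (h : Dt p q n ζ) {H : Subgroup ↥(PSU K n)} (hH : ⁅H, H⁆ = H)
    {c : Fin n → K} (hc : ∀ i, c i ^ p = 1) {d : ↥(PSU K n)} (hd : d.1 = dgc c)
    (hcomm : ∀ y ∈ H, y * d = d * y) : H ≤ ExS c := by
  rw [← hH, Subgroup.commutator_le]
  intro y1 h1 y2 h2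
  obtain ⟨t, ht⟩ : ∃ t : GU K n, t = ⟨Matrix.diagonal c, diag_mem fun i => h.nrm (hc i)⟩ := ⟨_, rfl⟩
  have hdt : d.1 = QuotientGroup.mk t := by
    rw [hd, dgc_eq (diag_mem fun i => h.nrm (hc i)), ht]
  have aux : ∀ y ∈ H, ∃ g w : GU K n, y.1 = QuotientGroup.mk g ∧ g * t * g⁻¹ = w * t ∧
      ∀ x, w * x = x * w := by
    intro y hy
    obtain ⟨g, hg⟩ := QuotientGroup.mk_surjective y.1
    have h3 := congrArg Subtype.val (hcomm y hy)
    rw [Subgroup.coe_mul, Subgroup.coe_mul, hdt, ← hg, ← QuotientGroup.mk_mul,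
      ← QuotientGroup.mk_mul] at h3
    have h4 : (g * t * g⁻¹ * t⁻¹) ∈ center (GU K n) := by
      have h5 := QuotientGroup.eq.1 h3
      -- (g t)⁻¹ (t g) is central
      have h6 : g * t * g⁻¹ * t⁻¹ = ((g * t)⁻¹ * (t * g))⁻¹ := by
        have h7 := Subgroup.mem_center_iff.1 h5 (t * g)
        -- t g z = z t g
        have h8 : (g * t) * ((g * t)⁻¹ * (t * g)) = t * g := by group
        have h9 := Subgroup.mem_center_iff.1 h5 (g * t)
        rw [h8] at h9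
        have h10 : g * t = ((g * t)⁻¹ * (t * g))⁻¹ * (t * g) := by
          rw [eq_inv_mul_iff_mul_eq]
          exact h9.symm
        calc g * t * g⁻¹ * t⁻¹ = (g * t) * (t * g)⁻¹ := by group
          _ = (((g * t)⁻¹ * (t * g))⁻¹ * (t * g)) * (t * g)⁻¹ := by rw [← h10]
          _ = _ := by rw [mul_inv_cancel_right]
      rw [h6]
      exact inv_mem h5
    refine ⟨g, g * t * g⁻¹ * t⁻¹, hg.symm, by group, fun x => ?_⟩
    exact (Subgroup.mem_center_iff.1 h4 x).symm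
  obtain ⟨g1, w1, e1, e2, e3⟩ := aux y1 h1
  obtain ⟨g2, w2, e1', e2', e3'⟩ := aux y2 h2
  refine ⟨⁅g1, g2⁆, ?_, ?_⟩
  · have : (⁅y1, y2⁆).1 = ⁅y1.1, y2.1⁆ := rfl
    rw [this, e1, e1']
    rfl
  · have h3 := group_comm e2 e2' e3 e3'
    have h4 := congrArg Subtype.val h3
    rw [ht] at h4
    exact h4

end exact'

end

end Vale.Agent.P240.R2.H923.TR
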