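import Vale.Agent.P240.R2.H923.TR2

/-!
P240 (helper923), TR for `q` even: the pairs `D_ij`, `S_ij` are permuted.
-/

set_option autoImplicit false
set_option linter.all false

namespace Vale.Agent.P240.R2.H923.TR

open Matrix Subgroup
open Vale.Agent.P240.R2.AS (GU SU PGU PSU SA mapGU SA_star)
open Vale.Agent.P240.R2.H257 (Rigid diag_mem dgc_eq dgc_mem zero_of_comm comm_of_isC)

universe u

noncomputable section

variable {K : Type u} [Field K] [Fintype K] [StarRing K] {p q n : ℕ} {ζ : K}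

omit [Fintype K] in
lemma isC_bb {i j : Fin n} (hij : i ≠ j) (x : SU K 2) : IsC i j (bb hij x).1 :=
  ⟨ib K hij x.1, (ib_isB hij x.1).1, rfl⟩

omit [Fintype K] in
/-- `S_ij` commutes with `D_ij` -/
lemma bb_comm (h : Dt p q n ζ) {i j : Fin n} (hij : i ≠ j) (x : SU K 2) {d : ↥(PSU K n)}
    (hd : InD p i j d) : bb hij x * d = d * bb hij x := by
  obtain ⟨c, hc, hdc, hcij⟩ := hd
  apply Subtype.ext
  rw [Subgroup.coe_mul, Subgroup.coe_mul, hdc]
  exact comm_of_isC (isC_bb hij x) (fun m => h.nrm (hc m)) hcij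

omit [Fintype K] in
/-- the Weyl element does not centralise `D_0` -/
lemma weyl_not (h : Dt p q n ζ) {i j : Fin n} (hij : i ≠ j) :
    ∃ x : SU K 2, ¬ ∀ d : ↥(PSU K n), InD0 p d → bb hij x * d = d * bb hij x := by
  have e2 : star (0 : K) * 0 + star (1 : K) * 1 = 1 := by
    rw [mul_zero, zero_add, star_one, one_mul]
  refine ⟨su2 0 1 e2, fun hall => ?_⟩
  obtain ⟨k, hk1, hk2⟩ := exists_third h.hn i j
  obtain ⟨c, d, hc, hr, hd, -, hsep⟩ := exists_sep h (i := i) (j := k) (k := j) hk1.symm hij hk2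
  have h2 := congrArg Subtype.val (hall d ⟨c, hc, hd⟩)
  rw [Subgroup.coe_mul, Subgroup.coe_mul, hd, bb_val] at h2
  have h3 := zero_of_comm h.zz h.z1 (fun m => h.nrm (hc m)) hr h2 (l := j) (k := i)
    (fun he => hsep i hij he.symm)
  rw [(ib_entry hij (su2 (0 : K) 1 e2).1).2] at h3
  exact one_ne_zero h3

open scoped commutatorElement in
lemma range_perfect (h : Dt p q n ζ) {i j : Fin n} (hij : i ≠ j) :
    ⁅(bb (K := K) hij).range, (bb (K := K) hij).range⁆ = (bb (K := K) hij).range := by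
  rw [MonoidHom.range_eq_map, ← Subgroup.map_commutator, ← commutator_def,
    su2_perfect h.q4 h.card h.st]

/-- the automorphism preserves `D_0` -/
def PD (p : ℕ) (α : MulAut ↥(PSU K n)) : Prop := ∀ y : ↥(PSU K n), InD0 p y ↔ InD0 p (α y)

omit [Fintype K] in
lemma PD.inv {α : MulAut ↥(PSU K n)} (hα : PD p α) : PD p α⁻¹ := by
  intro y
  have h1 := hα (α⁻¹ y)
  have h2 : α (α⁻¹ y) = y := by
    rw [← MulAut.mul_apply, mul_inv_cancel, MulAut.one_apply]
  rw [h2] at h1
  exact h1.symm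

omit [Fintype K] in
/-- diagonal classes go to diagonal classes -/
lemma PD.dia (h : Dt p q n ζ) {α : MulAut ↥(PSU K n)} (hα : PD p α) {y : ↥(PSU K n)}
    (hy : IsD y.1) : IsD (α y).1 := by
  refine isD_of_comm h fun d hd => ?_
  obtain ⟨d', rfl⟩ := α.surjective d
  rw [← hα] at hd
  rw [← map_mul, ← map_mul, comm_of_isD h hy hd]

open scoped commutatorElement in
/-- `α (S_ij)` commutes exactly with `α (D_ij)` -/
lemma exact_img (h : Dt p q n ζ) {α : MulAut ↥(PSU K n)} (hα : PD p α) {i j : Fin n}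
    (hij : i ≠ j) {d : ↥(PSU K n)} (hd : InD p i j d) {c : Fin n → K} (hc : ∀ m, c m ^ p = 1)
    (hdc : (α d).1 = dgc c) : ((bb (K := K) hij).range).map α.toMonoidHom ≤ ExS c := by
  refine exact_of_perfect h ?_ hc hdc ?_
  · rw [← Subgroup.map_commutator, range_perfect h hij]
  · rintro _ ⟨_, ⟨x, rfl⟩, rfl⟩
    change α (bb hij x) * α d = α d * α (bb hij x)
    rw [← map_mul, ← map_mul, bb_comm h hij x hd]

/-- Lemma A1 -/
lemma lemA1 (h : Dt p q n ζ) {α : MulAut ↥(PSU K n)} (hα : PD p α) {i j : Fin n} (hij : i ≠ j) :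
    ∃ l k : Fin n, l ≠ k ∧ ∀ y : ↥(PSU K n), InD p i j y → InD p l k (α y) := by
  obtain ⟨x, hx⟩ := weyl_not h hij
  have h1 : ¬ IsD (α (bb hij x)).1 := by
    intro h2
    have h3 := hα.inv.dia h h2
    have h4 : α⁻¹ (α (bb hij x)) = bb hij x := by
      rw [← MulAut.mul_apply, inv_mul_cancel, MulAut.one_apply]
    rw [h4] at h3
    exact hx fun d hd => comm_of_isD h h3 hd
  obtain ⟨g, hg⟩ := QuotientGroup.mk_surjective (α (bb hij x)).1
  obtain ⟨l, k, hlk, hne⟩ : ∃ l k : Fin n, l ≠ k ∧ g.1 l k ≠ 0 := by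
    by_contra hcon
    push Not at hcon
    exact h1 ⟨g, fun k l hl => hcon l k hl, hg.symm⟩
  refine ⟨l, k, hlk, fun y hy => ?_⟩
  obtain ⟨c', hc', hyc'⟩ := (hα y).1 hy.d0
  rw [InD_iff h hc' hyc']
  by_contra hcne
  have h5 : ExC c' (α (bb hij x)) :=
    exact_img h hα hij hy hc' hyc' ⟨bb hij x, ⟨x, rfl⟩, rfl⟩
  exact hne (h5.zero h hg.symm hcne)

omit [Fintype K] in
/-- inclusions between the `D_ij` -/
lemma incl (h : Dt p q n ζ) {i j a b : Fin n} (hij : i ≠ j) (hab : a ≠ b)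
    (hi : ∀ y : ↥(PSU K n), InD p i j y → InD p a b y) : (a = i ∧ b = j) ∨ (a = j ∧ b = i) := by
  have key : ∀ a b : Fin n, a ≠ b → (∀ y : ↥(PSU K n), InD p i j y → InD p a b y) →
      a = i ∨ a = j := by
    intro a b hab hi
    by_contra hcon
    rw [not_or] at hcon
    obtain ⟨c, d, hc, -, hd, hcij, hsep⟩ := exists_sep h (i := i) (j := j) (k := a) hij
      (Ne.symm hcon.1) (Ne.symm hcon.2)
    have h1 := hi d ⟨c, hc, hd, hcij⟩
    rw [InD_iff h hc hd] at h1
    exact hsep b (Ne.symm hab) h1.symm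
  have k1 := key a b hab hi
  have k2 := key b a hab.symm fun y hy => (hi y hy).symm
  rcases k1 with h1 | h1 <;> rcases k2 with h2 | h2
  · exact absurd (h1.trans h2.symm) hab
  · exact Or.inl ⟨h1, h2⟩
  · exact Or.inr ⟨h1, h2⟩
  · exact absurd (h1.trans h2.symm) hab

/-- Lemma A2 -/
lemma lemA2 (h : Dt p q n ζ) {α : MulAut ↥(PSU K n)} (hα : PD p α) {i j : Fin n} (hij : i ≠ j) :
    ∃ l k : Fin n, l ≠ k ∧ ∀ y : ↥(PSU K n), InD p i j y ↔ InD p l k (α y) := by
  obtain ⟨l, k, hlk, h1⟩ := lemA1 h hα hij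
  obtain ⟨a, b, hab, h2⟩ := lemA1 h hα.inv hlk
  have hinv : ∀ y, α⁻¹ (α y) = y := fun y => by
    rw [← MulAut.mul_apply, inv_mul_cancel, MulAut.one_apply]
  have h3 : ∀ y : ↥(PSU K n), InD p i j y → InD p a b y := by
    intro y hy
    have := h2 _ (h1 y hy)
    rwa [hinv] at this
  refine ⟨l, k, hlk, fun y => ⟨h1 y, fun hy => ?_⟩⟩
  have h4 := h2 _ hy
  rw [hinv] at h4
  rcases incl h hij hab h3 with ⟨rfl, rfl⟩ | ⟨rfl, rfl⟩
  · exact h4
  · exact h4.symm

open scoped commutatorElement in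
/-- Lemma A3 -/
lemma lemA3 (h : Dt p q n ζ) {α : MulAut ↥(PSU K n)} (hα : PD p α) {i j l k : Fin n}
    (hij : i ≠ j) (hlk : l ≠ k) (hD : ∀ y : ↥(PSU K n), InD p i j y ↔ InD p l k (α y)) :
    ((bb (K := K) hij).range).map α.toMonoidHom ≤ (bb (K := K) hlk).range := by
  have h1 : ((bb (K := K) hij).range).map α.toMonoidHom ≤ Cb hlk := by
    rintro y hy
    obtain ⟨g, hg⟩ := QuotientGroup.mk_surjective y.1
    refine ⟨g, fun m hm1 hm2 m' hm' => ?_, hg.symm⟩
    obtain ⟨c, d, hc, -, hd, hclk, hsep⟩ := exists_sep h (i := l) (j := k) (k := m) hlk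
      (Ne.symm hm1) (Ne.symm hm2)
    obtain ⟨d', rfl⟩ := α.surjective d
    have h2 : InD p i j d' := (hD d').2 ⟨c, hc, hd, hclk⟩
    have h3 : ExC c y := exact_img h hα hij h2 hc hd hy
    exact h3.zero h hg.symm (hsep m' hm')
  have h2 : ((bb (K := K) hij).range).map α.toMonoidHom =
      ⁅((bb (K := K) hij).range).map α.toMonoidHom, ((bb (K := K) hij).range).map α.toMonoidHom⁆ := by
    rw [← Subgroup.map_commutator, range_perfect h hij]
  rw [h2, ← comm_Cb (su2_perfect h.q4 h.card h.st) hlk]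
  exact Subgroup.commutator_mono h1 h1

omit [Fintype K] in
/-- the triangle lemma -/
lemma triangle (h : Dt p q n ζ) {a b c d e f : Fin n} (hab : a ≠ b) (hcd : c ≠ d) (hef : e ≠ f)
    (h12 : ({a, b} : Finset (Fin n)) ≠ {c, d}) (h13 : ({a, b} : Finset (Fin n)) ≠ {e, f})
    (h23 : ({c, d} : Finset (Fin n)) ≠ {e, f})
    (hi : ∀ y : ↥(PSU K n), InD p a b y → InD p c d y → InD p e f y) :
    (({a, b} : Finset (Fin n)) ∪ {c, d} ∪ {e, f}).card = 3 := by
  classical
  have hz0 := h.z0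
  have hzi : ∀ t : ℕ, ((ζ ^ t)⁻¹) ^ p = 1 := by
    intro t
    rw [inv_pow, ← pow_mul, mul_comm, pow_mul, h.zp, one_pow, inv_one]
  -- use of a vector
  have use : ∀ (A B : Finset (Fin n)) (y : K), y ^ p = 1 → ζ ^ A.card * y ^ B.card = 1 →
      cv ζ y A B a = cv ζ y A B b → cv ζ y A B c = cv ζ y A B d → cv ζ y A B e = cv ζ y A B f := by
    intro A B y hy hp h1 h2
    obtain ⟨D, hD, -⟩ := exists_cv h h.zp hy A B hp
    have hc := fun m => cv_pow (n := n) h.zp hy A B m
    have h3 := hi D ((InD_iff h hc hD a b).2 h1) ((InD_iff h hc hD c d).2 h2)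
    exact (InD_iff h hc hD e f).1 h3
  have hne1 : ∀ t : ℕ, 0 < t → t < 5 → ζ ^ t ≠ 1 := by
    intro t h1 h2 h3
    exact h.ne (a := 0) (b := t) h1 (by omega) (by rw [pow_zero, h3])
  -- value at a point
  have cvv : ∀ (A B : Finset (Fin n)) (y : K) (m : Fin n), cv ζ y A B m =
      (if m ∈ A then ζ else 1) * (if m ∈ B then y else 1) := fun A B y m => rfl
  have ma : a ∈ ({a, b} : Finset (Fin n)) := Finset.mem_insert_self _ _
  have mb : b ∈ ({a, b} : Finset (Fin n)) := Finset.mem_insert_of_mem (Finset.mem_singleton_self _)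
  have mc : c ∈ ({c, d} : Finset (Fin n)) := Finset.mem_insert_self _ _
  have md : d ∈ ({c, d} : Finset (Fin n)) := Finset.mem_insert_of_mem (Finset.mem_singleton_self _)
  have me : e ∈ ({e, f} : Finset (Fin n)) := Finset.mem_insert_self _ _
  have mf : f ∈ ({e, f} : Finset (Fin n)) := Finset.mem_insert_of_mem (Finset.mem_singleton_self _)
  have pair_eq : ∀ (x y : Fin n) (P : Finset (Fin n)), x ≠ y → P.card = 2 → x ∈ P → y ∈ P →
      P = {x, y} := by
    intro x y P hxy hP hx hy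
    refine (Finset.eq_of_subset_of_card_le ?_ ?_).symm
    · intro m hm
      rw [Finset.mem_insert, Finset.mem_singleton] at hm
      rcases hm with rfl | rfl
      · exact hx
      · exact hy
    · rw [hP, Finset.card_pair hxy]
  obtain ⟨P1, hP1⟩ : ∃ P : Finset (Fin n), P = {a, b} := ⟨_, rfl⟩
  obtain ⟨P2, hP2⟩ : ∃ P : Finset (Fin n), P = {c, d} := ⟨_, rfl⟩
  rw [← hP1] at h12 h13 ma mb
  rw [← hP2] at h12 h23 mc md
  have c1 : P1.card = 2 := by rw [hP1, Finset.card_pair hab]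
  have c2 : P2.card = 2 := by rw [hP2, Finset.card_pair hcd]
  rw [← hP1, ← hP2]
  by_cases hdisj : Disjoint P1 P2
  · exfalso
    have hd12 : ∀ m, m ∈ P1 → m ∉ P2 := fun m hm => Finset.disjoint_left.1 hdisj hm
    have hd21 : ∀ m, m ∈ P2 → m ∉ P1 := fun m hm => Finset.disjoint_right.1 hdisj hm
    -- the vector `ζ` on `P1`, `ζ⁻¹` on `P2`
    have hv := use P1 P2 (ζ ^ 1)⁻¹ (hzi 1) (by
      rw [c1, c2, pow_one, ← mul_pow, mul_inv_cancel₀ hz0, one_pow]) (by
      rw [cvv, cvv, if_pos ma, if_pos mb, if_neg (hd12 _ ma), if_neg (hd12 _ mb)]) (by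
      rw [cvv, cvv, if_neg (hd21 _ mc), if_neg (hd21 _ md), if_pos mc, if_pos md])
    rw [cvv, cvv, pow_one] at hv
    have z1 : ζ ≠ 1 := h.z1
    have z2 : ζ⁻¹ ≠ 1 := fun hh => z1 (inv_eq_one.1 hh)
    have z3 : ζ ≠ ζ⁻¹ := by
      intro hh
      apply hne1 2 (by omega) (by omega)
      rw [pow_two]
      nth_rewrite 2 [hh]
      exact mul_inv_cancel₀ hz0
    by_cases he1 : e ∈ P1
    · rw [if_pos he1, if_neg (hd12 _ he1), mul_one] at hv
      by_cases hf1 : f ∈ P1
      · exact h13 (pair_eq e f P1 hef c1 he1 hf1)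
      · rw [if_neg hf1, one_mul] at hv
        by_cases hf2 : f ∈ P2
        · rw [if_pos hf2] at hv; exact z3 hv
        · rw [if_neg hf2] at hv; exact z1 hv
    · by_cases he2 : e ∈ P2
      · rw [if_neg he1, if_pos he2, one_mul] at hv
        by_cases hf1 : f ∈ P1
        · rw [if_pos hf1, if_neg (hd12 _ hf1), mul_one] at hv; exact z3 hv.symm
        · by_cases hf2 : f ∈ P2
          · exact h23 (pair_eq e f P2 hef c2 he2 hf2)
          · rw [if_neg hf1, if_neg hf2, mul_one] at hv; exact z2 hv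
      · -- `e` outside
        have hv2 := use P1 {e} (ζ ^ 2)⁻¹ (hzi 2) (by
          rw [c1, Finset.card_singleton, pow_one, mul_inv_cancel₀ (pow_ne_zero 2 hz0)]) (by
          have n1 : a ∉ ({e} : Finset (Fin n)) := by
            rw [Finset.mem_singleton]; rintro rfl; exact he1 ma
          have n2 : b ∉ ({e} : Finset (Fin n)) := by
            rw [Finset.mem_singleton]; rintro rfl; exact he1 mb
          rw [cvv, cvv, if_pos ma, if_pos mb, if_neg n1, if_neg n2]) (by
          have n1 : c ∉ ({e} : Finset (Fin n)) := by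
            rw [Finset.mem_singleton]; rintro rfl; exact he2 mc
          have n2 : d ∉ ({e} : Finset (Fin n)) := by
            rw [Finset.mem_singleton]; rintro rfl; exact he2 md
          rw [cvv, cvv, if_neg (hd21 _ mc), if_neg (hd21 _ md), if_neg n1, if_neg n2])
        have n3 : f ∉ ({e} : Finset (Fin n)) := by
          rw [Finset.mem_singleton]; exact hef.symm
        rw [cvv, cvv, if_neg he1, if_pos (Finset.mem_singleton_self e), one_mul, if_neg n3,
          mul_one] at hv2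
        have h20 : ζ ^ 2 ≠ 0 := pow_ne_zero 2 hz0
        by_cases hf1 : f ∈ P1
        · rw [if_pos hf1] at hv2
          apply hne1 3 (by omega) (by omega)
          calc ζ ^ 3 = ζ ^ 2 * ζ := by ring
            _ = ζ ^ 2 * (ζ ^ 2)⁻¹ := by rw [hv2]
            _ = 1 := mul_inv_cancel₀ h20
        · rw [if_neg hf1] at hv2
          exact hne1 2 (by omega) (by omega) (inv_eq_one.1 hv2)
  · -- a common vertex
    have cU : (P1 ∪ P2).card = 3 := by
      have h1 := Finset.card_union_add_card_inter P1 P2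
      have h2 : 1 ≤ (P1 ∩ P2).card := by
        rw [Nat.one_le_iff_ne_zero, Finset.card_ne_zero]
        exact Finset.not_disjoint_iff_nonempty_inter.1 hdisj
      have h3 : (P1 ∩ P2).card ≠ 2 := by
        intro h4
        apply h12
        have e1 : P1 ∩ P2 = P1 := Finset.eq_of_subset_of_card_le Finset.inter_subset_left
          (by rw [c1, h4])
        have e2 : P1 ∩ P2 = P2 := Finset.eq_of_subset_of_card_le Finset.inter_subset_right
          (by rw [c2, h4])
        rw [← e1, e2]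
      have h4 : (P1 ∩ P2).card ≤ P1.card := Finset.card_le_card Finset.inter_subset_left
      omega
    have h30 : ζ ^ 3 ≠ 0 := pow_ne_zero 3 hz0
    have out : ∀ x y : Fin n, x ≠ y → x ∉ P1 ∪ P2 →
        cv ζ (ζ ^ 3)⁻¹ (P1 ∪ P2) {x} x ≠ cv ζ (ζ ^ 3)⁻¹ (P1 ∪ P2) {x} y := by
      intro x y hxy hx hcon
      have n3 : y ∉ ({x} : Finset (Fin n)) := by
        rw [Finset.mem_singleton]; exact hxy.symm
      rw [cvv, cvv, if_neg hx, if_pos (Finset.mem_singleton_self x), one_mul, if_neg n3,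
        mul_one] at hcon
      by_cases hy : y ∈ P1 ∪ P2
      · rw [if_pos hy] at hcon
        apply hne1 4 (by omega) (by omega)
        calc ζ ^ 4 = ζ ^ 3 * ζ := by ring
          _ = ζ ^ 3 * (ζ ^ 3)⁻¹ := by rw [hcon]
          _ = 1 := mul_inv_cancel₀ h30
      · rw [if_neg hy] at hcon
        exact hne1 3 (by omega) (by omega) (inv_eq_one.1 hcon)
    have inn : ∀ x : Fin n, x ∉ P1 ∪ P2 →
        cv ζ (ζ ^ 3)⁻¹ (P1 ∪ P2) {x} e = cv ζ (ζ ^ 3)⁻¹ (P1 ∪ P2) {x} f := by
      intro x hx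
      have nx : ∀ m, m ∈ P1 ∪ P2 → m ∉ ({x} : Finset (Fin n)) := by
        intro m hm
        rw [Finset.mem_singleton]; rintro rfl; exact hx hm
      refine use (P1 ∪ P2) {x} (ζ ^ 3)⁻¹ (hzi 3) ?_ ?_ ?_
      · rw [cU, Finset.card_singleton, pow_one, mul_inv_cancel₀ h30]
      · have na := Finset.mem_union_left P2 ma
        have nb := Finset.mem_union_left P2 mb
        rw [cvv, cvv, if_pos na, if_pos nb, if_neg (nx a na), if_neg (nx b nb)]
      · have nc := Finset.mem_union_right P1 mc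
        have nd := Finset.mem_union_right P1 md
        rw [cvv, cvv, if_pos nc, if_pos nd, if_neg (nx c nc), if_neg (nx d nd)]
    have he : e ∈ P1 ∪ P2 := by
      by_contra hcon
      exact out e f hef hcon (inn e hcon)
    have hf : f ∈ P1 ∪ P2 := by
      by_contra hcon
      exact out f e hef.symm hcon (inn f hcon).symm
    have : P1 ∪ P2 ∪ {e, f} = P1 ∪ P2 := by
      refine Finset.union_eq_left.2 ?_
      intro m hm
      rw [Finset.mem_insert, Finset.mem_singleton] at hm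
      rcases hm with rfl | rfl
      · exact he
      · exact hf
    rw [this, cU]

end

end Vale.Agent.P240.R2.H923.TR
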