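import Vale.Agent.P240.R2.H923.TR3

/-!
P240 (helper923), TR for `q` even: from the pairs to the core theorem; the final assembly.
-/

set_option autoImplicit false
set_option linter.all false

namespace Vale.Agent.P240.R2.H923.TR

open Matrix Subgroup
open Vale.Agent.P240.R2.AS (GU SU PGU PSU SA mapGU SA_star act)
open Vale.Agent.P240.R2.H257 (Rigid diag_mem dgc_eq dgc_mem zero_of_comm comm_of_isC)

universe u

noncomputable section

section vertex
variable {K : Type u} [Field K] [Fintype K] [StarRing K] {p q n : ℕ} {ζ : K}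

lemma pair_cases {i j a b : Fin n} (hij : i ≠ j) (h : ({i, j} : Finset (Fin n)) = {a, b}) :
    (a = i ∧ b = j) ∨ (a = j ∧ b = i) := by
  have ha : a ∈ ({i, j} : Finset (Fin n)) := by rw [h]; exact Finset.mem_insert_self _ _
  have hb : b ∈ ({i, j} : Finset (Fin n)) := by
    rw [h]; exact Finset.mem_insert_of_mem (Finset.mem_singleton_self _)
  have hi : i ∈ ({a, b} : Finset (Fin n)) := by rw [← h]; exact Finset.mem_insert_self _ _
  have hj : j ∈ ({a, b} : Finset (Fin n)) := by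
    rw [← h]; exact Finset.mem_insert_of_mem (Finset.mem_singleton_self _)
  rw [Finset.mem_insert, Finset.mem_singleton] at ha hb hi hj
  rcases ha with ha | ha
  · subst ha
    left
    refine ⟨rfl, ?_⟩
    rcases hj with hj | hj
    · exact absurd hj.symm hij
    · exact hj.symm
  · subst ha
    right
    refine ⟨rfl, ?_⟩
    rcases hi with hi | hi
    · exact absurd hi hij
    · exact hi.symm

omit [Fintype K] in
lemma inD_pair {i j a b : Fin n} (hij : i ≠ j) (h : ({i, j} : Finset (Fin n)) = {a, b})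
    (y : ↥(PSU K n)) : InD p i j y ↔ InD p a b y := by
  rcases pair_cases hij h with ⟨rfl, rfl⟩ | ⟨rfl, rfl⟩
  · rfl
  · exact ⟨fun h => h.symm, fun h => h.symm⟩

/-- the permutation of the coordinates -/
theorem exists_pi (h : Dt p q n ζ) (hV : StmtV) {α : MulAut ↥(PSU K n)} (hα : PD p α) :
    ∃ π : Equiv.Perm (Fin n), ∀ i j : Fin n, i ≠ j → ∀ y : ↥(PSU K n),
      InD p i j y ↔ InD p (π i) (π j) (α y) := by
  classical
  have hinv : ∀ y, α⁻¹ (α y) = y := fun y => by
    rw [← MulAut.mul_apply, inv_mul_cancel, MulAut.one_apply]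
  have hex : ∀ s : Finset (Fin n), ∃ t : Finset (Fin n), ∀ i j : Fin n, i ≠ j → s = {i, j} →
      ∃ l k : Fin n, l ≠ k ∧ t = {l, k} ∧ ∀ y : ↥(PSU K n), InD p i j y ↔ InD p l k (α y) := by
    intro s
    by_cases hs : ∃ i j : Fin n, i ≠ j ∧ s = {i, j}
    · obtain ⟨i, j, hij, rfl⟩ := hs
      obtain ⟨l, k, hlk, hy⟩ := lemA2 h hα hij
      refine ⟨{l, k}, fun i' j' hij' he => ⟨l, k, hlk, rfl, fun y => ?_⟩⟩
      rw [← hy y, inD_pair hij he]
    · exact ⟨∅, fun i j hij he => absurd ⟨i, j, hij, he⟩ hs⟩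
  choose φ hφ using hex
  have h2 : ∀ s, s.card = 2 → (φ s).card = 2 := by
    intro s hs
    obtain ⟨i, j, hij, rfl⟩ := Finset.card_eq_two.1 hs
    obtain ⟨l, k, hlk, he, -⟩ := hφ _ i j hij rfl
    rw [he, Finset.card_pair hlk]
  have hinj : ∀ s t, s.card = 2 → t.card = 2 → φ s = φ t → s = t := by
    intro s t hs ht hst
    obtain ⟨i, j, hij, rfl⟩ := Finset.card_eq_two.1 hs
    obtain ⟨i', j', hij', rfl⟩ := Finset.card_eq_two.1 ht
    obtain ⟨l, k, hlk, he, hy⟩ := hφ _ i j hij rfl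
    obtain ⟨l', k', hlk', he', hy'⟩ := hφ _ i' j' hij' rfl
    rw [he, he'] at hst
    have h3 : ∀ y : ↥(PSU K n), InD p i j y → InD p i' j' y := by
      intro y h4
      rw [hy, inD_pair hlk hst] at h4
      rwa [hy']
    rcases incl h hij hij' h3 with ⟨rfl, rfl⟩ | ⟨rfl, rfl⟩
    · rfl
    · exact Finset.pair_comm _ _
  have htri : ∀ i j k, i ≠ j → i ≠ k → j ≠ k → (φ {i, j} ∪ φ {j, k} ∪ φ {i, k}).card = 3 := by
    intro i j k hij hik hjk
    obtain ⟨a, b, hab, e1, hy1⟩ := hφ _ i j hij rfl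
    obtain ⟨c, d, hcd, e2, hy2⟩ := hφ _ j k hjk rfl
    obtain ⟨e, f, hef, e3, hy3⟩ := hφ _ i k hik rfl
    have n12 : ({i, j} : Finset (Fin n)) ≠ {j, k} := by
      intro he
      rcases pair_cases hij he with ⟨h1, -⟩ | ⟨-, h1⟩
      · exact hij h1.symm
      · exact hik h1.symm
    have n13 : ({i, j} : Finset (Fin n)) ≠ {i, k} := by
      intro he
      rcases pair_cases hij he with ⟨-, h1⟩ | ⟨h1, -⟩
      · exact hjk h1.symm
      · exact hij h1
    have n23 : ({j, k} : Finset (Fin n)) ≠ {i, k} := by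
      intro he
      rcases pair_cases hjk he with ⟨h1, -⟩ | ⟨h1, -⟩
      · exact hij h1
      · exact hik h1
    have cc : ∀ x y : Fin n, x ≠ y → ({x, y} : Finset (Fin n)).card = 2 := fun x y hxy =>
      Finset.card_pair hxy
    have m12 : ({a, b} : Finset (Fin n)) ≠ {c, d} := by
      rw [← e1, ← e2]
      exact fun he => n12 (hinj _ _ (cc _ _ hij) (cc _ _ hjk) he)
    have m13 : ({a, b} : Finset (Fin n)) ≠ {e, f} := by
      rw [← e1, ← e3]
      exact fun he => n13 (hinj _ _ (cc _ _ hij) (cc _ _ hik) he)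
    have m23 : ({c, d} : Finset (Fin n)) ≠ {e, f} := by
      rw [← e2, ← e3]
      exact fun he => n23 (hinj _ _ (cc _ _ hjk) (cc _ _ hik) he)
    rw [e1, e2, e3]
    refine triangle h hab hcd hef m12 m13 m23 fun y g1 g2 => ?_
    obtain ⟨y', rfl⟩ := α.surjective y
    rw [← hy1] at g1
    rw [← hy2] at g2
    rw [← hy3]
    obtain ⟨v, hv, hyv⟩ := g1.d0
    rw [InD_iff h hv hyv] at g1 g2 ⊢
    exact g1.trans g2
  obtain ⟨π, hπ⟩ := hV n h.hn φ h2 hinj htri
  refine ⟨π, fun i j hij y => ?_⟩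
  obtain ⟨l, k, hlk, he, hy⟩ := hφ _ i j hij rfl
  rw [hy, inD_pair hlk (he.symm.trans (hπ i j hij))]

/-- permutation matrices -/
def pmt (K : Type u) [Field K] [StarRing K] {n : ℕ} (π : Equiv.Perm (Fin n)) : GU K n :=
  ⟨Matrix.of fun l i => if l = π i then 1 else 0, by
    rw [Matrix.mem_unitaryGroup_iff', Matrix.star_eq_conjTranspose]
    ext i j
    rw [Matrix.mul_apply]
    simp only [conjTranspose_apply, Matrix.of_apply]
    rw [Finset.sum_eq_single (π i)]
    · rw [if_pos rfl, star_one, one_mul, Matrix.one_apply]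
      by_cases hij : i = j
      · rw [if_pos (by rw [hij]), if_pos hij]
      · rw [if_neg fun he => hij (π.injective he), if_neg hij]
    · intro b _ hb
      rw [if_neg hb, star_zero, zero_mul]
    · intro hb
      exact absurd (Finset.mem_univ _) hb⟩

omit [Fintype K] in
lemma pmt_apply (π : Equiv.Perm (Fin n)) (l i : Fin n) :
    (pmt K π).1 l i = if l = π i then 1 else 0 := rfl

omit [Fintype K] in
lemma pmt_Ef (π : Equiv.Perm (Fin n)) (i j : Fin n) :
    (pmt K π).1 * Ef K i j = Ef K (π i) (π j) := by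
  ext m l
  rw [mul_Ef, pmt_apply, Ef_apply]
  fin_cases l <;> rfl

omit [Fintype K] in
lemma cjP_bb (π : Equiv.Perm (Fin n)) {i j : Fin n} (hij : i ≠ j) (hπ : π i ≠ π j) (x : SU K 2) :
    cjP (pmt K π) (bb hij x) = bb hπ x := by
  apply Subtype.ext
  rw [cjP_val, bb_val, bb_val]
  change (QuotientGroup.mk (pmt K π * ib K hij x.1 * (pmt K π)⁻¹) : PGU K n) = _
  congr 1
  exact conj_bkU (Ef_iso hij) (Ef_iso hπ) (pmt K π) (pmt_Ef π i j) x.1

omit [Fintype K] in
lemma inv_apply' {β : MulAut ↥(PSU K n)} {x y : ↥(PSU K n)} (h : β x = y) : β⁻¹ y = x := by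
  rw [← h, ← MulAut.mul_apply, inv_mul_cancel, MulAut.one_apply]

/-- an automorphism that preserves `D_0` is semilinear -/
theorem sem_of_PD (h : Dt p q n ζ) (hV : StmtV) {α : MulAut ↥(PSU K n)} (hα : PD p α) :
    ∃ (σ : SA K) (D : GU K n), ∀ g : SU K n,
      (α (pS K n g)).1 = QuotientGroup.mk (D * mapGU σ g.1 * D⁻¹) := by
  obtain ⟨π, hπ⟩ := exists_pi h hV hα
  refine core_frame' h.q4 h.card h.st h.hn α (pmt K π) ⟨?_, ?_⟩
  · intro i j hij x
    have hne : π i ≠ π j := fun he => hij (π.injective he)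
    have h1 := lemA3 h hα hij hne (hπ i j hij)
    obtain ⟨z, hz⟩ := h1 (⟨bb hij x, ⟨x, rfl⟩, rfl⟩ :
      α (bb hij x) ∈ ((bb (K := K) hij).range).map α.toMonoidHom)
    refine ⟨z, ?_⟩
    change bb hij z = (cjP (pmt K π))⁻¹ (α (bb hij x))
    rw [← hz]
    exact (inv_apply' (cjP_bb π hij hne z)).symm
  · intro y hy
    obtain ⟨g, hg, hyg⟩ := PD.dia h hα hy
    obtain ⟨g', hg'⟩ : ∃ g' : GU K n, g' = (pmt K π)⁻¹ * g * pmt K π := ⟨_, rfl⟩
    have h1 : (((cjP (pmt K π))⁻¹ * α) y).1 = QuotientGroup.mk g' := by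
      have h2 : ∀ z : ↥(PSU K n), ((cjP (pmt K π))⁻¹ z).1 =
          (QuotientGroup.mk (pmt K π))⁻¹ * z.1 * QuotientGroup.mk (pmt K π) := by
        intro z
        obtain ⟨w, hw⟩ := (cjP (pmt K π)).surjective z
        rw [inv_apply' hw, ← hw, cjP_val]
        group
      change ((cjP (pmt K π))⁻¹ (α y)).1 = _
      rw [h2, hyg, hg']
      rfl
    refine ⟨g', fun k l hl => ?_, h1⟩
    rw [hg']
    change ((pmt K π).1ᴴ * g.1 * (pmt K π).1) l k = 0
    rw [Matrix.mul_apply]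
    refine Finset.sum_eq_zero fun m _ => ?_
    by_cases hm : m = π k
    · rw [Matrix.mul_apply, Finset.sum_mul]
      refine Finset.sum_eq_zero fun m' _ => ?_
      rw [conjTranspose_apply, pmt_apply, pmt_apply]
      by_cases hm' : m' = π l
      · have : g.1 m' m = 0 := by
          rw [hm, hm']
          exact hg _ _ fun he => hl (π.injective he)
        rw [this, mul_zero, zero_mul]
      · rw [if_neg hm', star_zero, zero_mul, zero_mul]
    · rw [pmt_apply, if_neg hm, mul_zero]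

end vertex

section general
variable {K : Type u} [Field K] [Fintype K] [StarRing K] {p q n : ℕ} {ζ : K}

omit [Fintype K] in
lemma dgc_mul (h : Dt p q n ζ) {c c' : Fin n → K} (hc : ∀ i, c i ^ p = 1)
    (hc' : ∀ i, c' i ^ p = 1) : (dgc c : PGU K n) * dgc c' = dgc (fun i => c i * c' i) := by
  have hcc : ∀ i, (c i * c' i) ^ p = 1 := fun i => by rw [mul_pow, hc, hc', one_mul]
  rw [dgc_eq (diag_mem fun i => h.nrm (hc i)), dgc_eq (diag_mem fun i => h.nrm (hc' i)),
    dgc_eq (diag_mem fun i => h.nrm (hcc i)), ← QuotientGroup.mk_mul]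
  congr 1
  apply Subtype.ext
  change Matrix.diagonal c * Matrix.diagonal c' = _
  rw [Matrix.diagonal_mul_diagonal]

/-- the group `D_0` -/
def D0S (h : Dt p q n ζ) : Subgroup ↥(PSU K n) where
  carrier := {y | InD0 p y}
  one_mem' := by
    refine ⟨fun _ => 1, fun _ => one_pow _, ?_⟩
    rw [dgc_eq (diag_mem fun i => by rw [star_one, one_mul])]
    change (1 : PGU K n) = _
    have : (⟨Matrix.diagonal fun _ : Fin n => (1 : K), diag_mem fun i => by
        rw [star_one, one_mul]⟩ : GU K n) = 1 := Subtype.ext Matrix.diagonal_one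
    rw [this]
    rfl
  mul_mem' := by
    rintro y y' ⟨c, hc, hy⟩ ⟨c', hc', hy'⟩
    refine ⟨fun i => c i * c' i, fun i => by rw [mul_pow, hc, hc', one_mul], ?_⟩
    rw [Subgroup.coe_mul, hy, hy', dgc_mul h hc hc']
  inv_mem' := by
    rintro y ⟨c, hc, hy⟩
    have hci : ∀ i, (c i)⁻¹ ^ p = 1 := fun i => by rw [inv_pow, hc, inv_one]
    refine ⟨fun i => (c i)⁻¹, hci, ?_⟩
    rw [Subgroup.coe_inv, hy, inv_eq_iff_mul_eq_one, dgc_mul h hc hci]
    have h0 : ∀ i, c i ≠ 0 := by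
      intro i h0
      have := hc i
      rw [h0, zero_pow h.hp.ne_zero] at this
      exact zero_ne_one this
    have : (fun i => c i * (c i)⁻¹) = fun _ => 1 := by
      funext i
      exact mul_inv_cancel₀ (h0 i)
    rw [this, dgc_eq (diag_mem fun i => by rw [star_one, one_mul])]
    have h3 : (⟨Matrix.diagonal fun _ : Fin n => (1 : K), diag_mem fun i => by
        rw [star_one, one_mul]⟩ : GU K n) = 1 := Subtype.ext Matrix.diagonal_one
    rw [h3]
    rfl

/-- the order of `D_0` -/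
lemma card_D0S (h : Dt p q n ζ) : p ^ (n - 2) ≤ Nat.card (D0S h) := by
  classical
  obtain ⟨m, rfl⟩ : ∃ m, n = m + 2 := ⟨n - 2, by have := h.hn; omega⟩
  have hz0 := h.z0
  have hzp : ∀ t : ℕ, (ζ ^ t) ^ p = 1 := fun t => by rw [← pow_mul, mul_comm, pow_mul, h.zp, one_pow]
  -- the vectors
  obtain ⟨v, hv⟩ : ∃ v : (Fin m → Fin p) → Fin (m + 2) → K, v = fun f =>
    (Fin.snoc (α := fun _ => K) (Fin.snoc (α := fun _ => K) (fun i => ζ ^ (f i).val)
      (∏ i, ζ ^ (f i).val)⁻¹) 1) := ⟨_, rfl⟩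
  have v1 : ∀ f (i : Fin m), v f i.castSucc.castSucc = ζ ^ (f i).val := by
    intro f i
    rw [hv]
    simp only [Fin.snoc_castSucc]
  have v2 : ∀ f, v f (Fin.last m).castSucc = (∏ i, ζ ^ (f i).val)⁻¹ := by
    intro f
    rw [hv]
    simp only [Fin.snoc_castSucc, Fin.snoc_last]
  have v3 : ∀ f, v f (Fin.last (m + 1)) = 1 := by
    intro f
    rw [hv]
    simp only [Fin.snoc_last]
  have hpr0 : ∀ f : Fin m → Fin p, ∏ i, ζ ^ (f i).val ≠ 0 := fun f =>
    Finset.prod_ne_zero_iff.2 fun i _ => pow_ne_zero _ hz0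
  have vp : ∀ f i, v f i ^ p = 1 := by
    intro f i
    refine Fin.lastCases ?_ (fun i => ?_) i
    · rw [v3, one_pow]
    · refine Fin.lastCases ?_ (fun i => ?_) i
      · rw [v2, inv_pow, ← Finset.prod_pow, Finset.prod_eq_one fun i _ => hzp _, inv_one]
      · rw [v1, hzp]
  have vprod : ∀ f, ∏ i, v f i = 1 := by
    intro f
    rw [Fin.prod_univ_castSucc, Fin.prod_univ_castSucc, v3, v2, mul_one]
    simp only [v1]
    exact mul_inv_cancel₀ (hpr0 f)
  obtain ⟨F, hF⟩ : ∃ F : (Fin m → Fin p) → D0S h, ∀ f, (F f).1.1 = dgc (v f) := by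
    refine ⟨fun f => ⟨⟨dgc (v f), dgc_mem (fun i => h.nrm (vp f i)) (vprod f)⟩,
      ⟨v f, vp f, rfl⟩⟩, fun f => rfl⟩
  have hFinj : Function.Injective F := by
    intro f f' he
    have h1 : (dgc (v f) : PGU K (m + 2)) = dgc (v f') := by rw [← hF, ← hF, he]
    obtain ⟨z, -, hz⟩ := dgc_unique h (vp f) (vp f') h1
    have hz1 : z = 1 := by
      have := hz (Fin.last (m + 1))
      rw [v3, v3, mul_one] at this
      exact this.symm
    funext i
    have h2 := hz i.castSucc.castSucc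
    rw [v1, v1, hz1, one_mul] at h2
    have key : ∀ a b : ℕ, a < b → b < p → ζ ^ a = ζ ^ b → False := by
      intro a b h4 h5 h6
      have h7 : ζ ^ (b - a) = 1 := by
        have h8 : ζ ^ b = ζ ^ a * ζ ^ (b - a) := by rw [← pow_add]; congr 1; omega
        rw [← h6] at h8
        exact (mul_left_cancel₀ (pow_ne_zero a hz0) (by rw [← h8, mul_one])).symm
      have h9 := Nat.le_of_dvd (by omega) (h.pw h7)
      omega
    apply Fin.ext
    rcases Nat.lt_trichotomy (f i).val (f' i).val with h4 | h4 | h4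
    · exact (key _ _ h4 (f' i).2 h2.symm).elim
    · exact h4
    · exact (key _ _ h4 (f i).2 h2).elim
  haveI : Finite (D0S h) := inferInstance
  have h1 := Nat.card_le_card_of_injective F hFinj
  rw [Nat.card_eq_fintype_card, Fintype.card_fun, Fintype.card_fin, Fintype.card_fin] at h1
  exact h1

omit [Fintype K] in
/-- diagonal classes of exponent `p` -/
lemma inD0_of_dia (h : Dt p q n ζ) {y : ↥(PSU K n)} {g : GU K n} (hg : Dia g)
    (hy : y.1 = QuotientGroup.mk g) (hp : y ^ p = 1) : InD0 p y := by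
  have hn : 0 < n := by have := h.hn; omega
  set i0 : Fin n := ⟨0, hn⟩
  -- `g = diagonal`
  have hgd : g.1 = Matrix.diagonal fun i => g.1 i i := by
    ext l k
    by_cases hlk : l = k
    · subst hlk; rw [Matrix.diagonal_apply_eq]
    · rw [Matrix.diagonal_apply_ne _ hlk, hg k l hlk]
  have hnorm : ∀ i, star (g.1 i i) * g.1 i i = 1 := by
    intro i
    have h1 := col_inner g i i
    rw [if_pos rfl, Finset.sum_eq_single i] at h1
    · exact h1
    · intro m _ hm
      rw [hg i m hm, mul_zero]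
    · intro h2
      exact absurd (Finset.mem_univ i) h2
  have h00 : g.1 i0 i0 ≠ 0 := by
    intro h0
    have := hnorm i0
    rw [h0, mul_zero] at this
    exact zero_ne_one this
  have hgp : ∃ z : K, (g ^ p).1 = z • (1 : Matrix (Fin n) (Fin n) K) := by
    have h1 : (QuotientGroup.mk (g ^ p) : PGU K n) = 1 := by
      have h2 := congrArg Subtype.val hp
      rw [Subgroup.coe_pow, hy] at h2
      exact h2
    rw [QuotientGroup.eq_one_iff, H296.mem_center_iff h.z1 h.zz] at h1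
    exact h1
  obtain ⟨z, hz⟩ := hgp
  have hpow : ∀ i, g.1 i i ^ p = z := by
    intro i
    have h1 := congrFun (congrFun hz i) i
    rw [Matrix.smul_apply, Matrix.one_apply_eq, smul_eq_mul, mul_one] at h1
    rw [← h1]
    have h2 : (g ^ p).1 = g.1 ^ p := rfl
    have h3 : g.1 ^ p = Matrix.diagonal ((fun i => g.1 i i) ^ p) := by
      rw [← Matrix.diagonal_pow, ← hgd]
    rw [h2, h3, Matrix.diagonal_apply_eq, Pi.pow_apply]
  refine ⟨fun i => (g.1 i0 i0)⁻¹ * g.1 i i, fun i => ?_, ?_⟩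
  · have hz0 : z ≠ 0 := by
      rw [← hpow i0]
      exact pow_ne_zero _ h00
    rw [mul_pow, inv_pow, hpow, hpow, inv_mul_cancel₀ hz0]
  · have hcn : ∀ i, ((g.1 i0 i0)⁻¹ * g.1 i i) * star ((g.1 i0 i0)⁻¹ * g.1 i i) = 1 := by
      intro i
      rw [star_mul, star_inv₀]
      have a1 := hnorm i
      have a2 : (g.1 i0 i0)⁻¹ * (star (g.1 i0 i0))⁻¹ = 1 := by
        rw [← _root_.mul_inv_rev, hnorm, inv_one]
      linear_combination ((g.1 i0 i0)⁻¹ * (star (g.1 i0 i0))⁻¹) * a1 + a2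
    rw [hy, dgc_eq (diag_mem hcn), eq_comm, QuotientGroup.eq, H296.mem_center_iff h.z1 h.zz]
    refine ⟨g.1 i0 i0, ?_⟩
    change (Matrix.diagonal fun i => (g.1 i0 i0)⁻¹ * g.1 i i)ᴴ * g.1 = _
    conv_lhs => rw [hgd]
    rw [Matrix.diagonal_conjTranspose, Matrix.diagonal_mul_diagonal]
    ext l k
    by_cases hlk : l = k
    · subst hlk
      rw [Matrix.diagonal_apply_eq, Matrix.smul_apply, Matrix.one_apply_eq, smul_eq_mul, mul_one]
      simp only [Matrix.diagonal_apply_eq, Pi.star_apply]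
      rw [star_mul, star_inv₀]
      have a1 := hnorm l
      have a2 := hnorm i0
      have a3 : star (g.1 i0 i0) ≠ 0 := fun h0 => h00 (star_eq_zero.1 h0)
      have a4 : (star (g.1 i0 i0))⁻¹ = g.1 i0 i0 := by
        rw [inv_eq_iff_eq_inv, eq_comm, inv_eq_of_mul_eq_one_left a2]
      rw [a4]
      linear_combination (g.1 i0 i0) * a1
    · rw [Matrix.diagonal_apply_ne _ hlk, Matrix.smul_apply, Matrix.one_apply_ne hlk, smul_zero]

/-- **TR for `q` even**, from the rows -/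
theorem trEven (hP0 : StmtP0.{u}) (hV : StmtV) (hT : StmtT.{u}) : StmtTReven.{u} := by
  intro K _ _ _ q hq hq8 hqe hFq n hn α
  obtain ⟨p, hp, hp5, hpq⟩ := hP0 K q hFq.card hqe hq hq8
  haveI : Fact p.Prime := ⟨hp⟩
  obtain ⟨ζ, hζp, hζ1, -⟩ := H257.exists_zeta hp hpq (by omega) hFq.card
  have h : Dt p q n ζ := ⟨hp, hp5, hn, hq, hFq.card, hFq.star, hpq, hζp, hζ1⟩
  -- the image of `D_0`
  obtain ⟨E, hE⟩ : ∃ E : Subgroup (PGU K n),
    E = ((D0S h).map α.toMonoidHom).map (PSU K n).subtype := ⟨_, rfl⟩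
  have hcomm0 : ∀ x ∈ D0S h, ∀ y ∈ D0S h, x * y = y * x := by
    rintro x ⟨c, hc, hx⟩ y ⟨c', hc', hy⟩
    apply Subtype.ext
    rw [Subgroup.coe_mul, Subgroup.coe_mul, hx, hy, dgc_mul h hc hc', dgc_mul h hc' hc]
    congr 1
    funext i
    exact mul_comm _ _
  have hpow0 : ∀ x ∈ D0S h, x ^ p = 1 := by
    rintro x ⟨c, hc, hx⟩
    apply Subtype.ext
    rw [Subgroup.coe_pow, hx, dgc_eq (diag_mem fun i => h.nrm (hc i)), ← QuotientGroup.mk_pow]
    have : (⟨Matrix.diagonal c, diag_mem fun i => h.nrm (hc i)⟩ : GU K n) ^ p = 1 := by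
      apply Subtype.ext
      change (Matrix.diagonal c) ^ p = 1
      rw [Matrix.diagonal_pow, ← Matrix.diagonal_one]
      congr 1
      funext i
      exact hc i
    rw [this]
    rfl
  have hEc : ∀ x ∈ E, ∀ y ∈ E, x * y = y * x := by
    rw [hE]
    rintro _ ⟨_, ⟨x, hx, rfl⟩, rfl⟩ _ ⟨_, ⟨y, hy, rfl⟩, rfl⟩
    change (α x * α y).1 = (α y * α x).1
    rw [← map_mul, ← map_mul, hcomm0 x hx y hy]
  have hEp : ∀ x ∈ E, x ^ p = 1 := by
    rw [hE]
    rintro _ ⟨_, ⟨x, hx, rfl⟩, rfl⟩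
    change ((α x) ^ p).1 = 1
    rw [← map_pow, hpow0 x hx, map_one]
    rfl
  have hEcard : p ^ (n - 2) ≤ Nat.card E := by
    rw [hE, Subgroup.card_map_of_injective (PSU K n).subtype_injective,
      Subgroup.card_map_of_injective α.injective]
    exact card_D0S h
  obtain ⟨g0, hg0⟩ := hT K q (by omega) hFq p hp5 hpq n hn E hEc hEp hEcard
  -- the automorphism after an inner one
  have hcj : ∀ z : ↥(PSU K n), ((cjP g0)⁻¹ z).1 =
      (QuotientGroup.mk g0)⁻¹ * z.1 * QuotientGroup.mk g0 := by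
    intro z
    obtain ⟨w, hw⟩ := (cjP g0).surjective z
    rw [inv_apply' hw, ← hw, cjP_val]
    group
  have hin : ∀ y : ↥(PSU K n), InD0 p y → InD0 p (((cjP g0)⁻¹ * α) y) := by
    intro y hy
    obtain ⟨g, hgd, hyg⟩ := hg0 (α y).1 (by rw [hE]; exact ⟨α y, ⟨y, hy, rfl⟩, rfl⟩)
    refine inD0_of_dia h hgd ?_ ?_
    · change ((cjP g0)⁻¹ (α y)).1 = _
      rw [hcj, hyg]
      change (QuotientGroup.mk (g0⁻¹ * (g0 * g * g0⁻¹) * g0) : PGU K n) = _
      congr 1
      group
    · rw [← map_pow, hpow0 y hy, map_one]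
  have hPD : PD p ((cjP g0)⁻¹ * α) := by
    intro y
    refine ⟨hin y, fun hy => ?_⟩
    haveI : Finite (D0S h) := inferInstance
    obtain ⟨f, hf⟩ : ∃ f : D0S h → D0S h, ∀ x, (f x).1 = ((cjP g0)⁻¹ * α) x.1 :=
      ⟨fun x => ⟨((cjP g0)⁻¹ * α) x.1, hin _ x.2⟩, fun x => rfl⟩
    have hfinj : Function.Injective f := by
      intro a b hab
      apply Subtype.ext
      apply ((cjP g0)⁻¹ * α).injective
      rw [← hf, ← hf, hab]
    obtain ⟨x, hx⟩ := (Finite.injective_iff_surjective.1 hfinj) ⟨_, hy⟩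
    have h1 : ((cjP g0)⁻¹ * α) x.1 = ((cjP g0)⁻¹ * α) y := by
      rw [← hf, hx]
    have h2 := ((cjP g0)⁻¹ * α).injective h1
    rw [← h2]
    exact x.2
  obtain ⟨σ, D, hD⟩ := sem_of_PD h hV hPD
  refine ⟨σ, g0 * D, fun y => ?_⟩
  obtain ⟨g, rfl⟩ := pS_surj y
  have h1 := hD g
  change ((cjP g0)⁻¹ (α (pS K n g))).1 = _ at h1
  rw [hcj] at h1
  have h2 : (α (pS K n g)).1 = QuotientGroup.mk g0 * QuotientGroup.mk (D * mapGU σ g.1 * D⁻¹) *
      (QuotientGroup.mk g0)⁻¹ := by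
    rw [← h1]; group
  rw [h2, pS_val]
  change (QuotientGroup.mk (g0 * (D * mapGU σ g.1 * D⁻¹) * g0⁻¹) : PGU K n) =
    QuotientGroup.mk ((g0 * D) * mapGU σ g.1 * (g0 * D)⁻¹)
  congr 1
  group

end general

end

end Vale.Agent.P240.R2.H923.TR
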