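import Vale.Agent.P240.R2.H923.Sl2
import Vale.Agent.P240.R2.H923.Blk
import Vale.Agent.P240.R2.H986.StarCount

/-!
P240 (helper923), NL3: `SU_2(K) = P SL_2(F) P⁻¹` and the automorphisms of `SU_2(K)` that preserve the
diagonal torus.
-/

set_option autoImplicit false
set_option linter.all false

namespace Vale.Agent.P240.R2.H923

open Matrix Subgroup
open Vale.Agent.P240.H195 (SLm GLm actf actf_val ff_aut)
open Vale.Agent.P240.R2.AS (GU SU PGU PSU SA mapGU SA_star)
open Vale.Agent.P240.R2.H986.St (F0 toK toK_star exists_toK card_F0)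

universe u

noncomputable section

section su2
variable {K : Type u} [Field K] [StarRing K]

lemma su2_form (x : SU K 2) : x.1.1 1 1 = star (x.1.1 0 0) ∧ x.1.1 0 1 = - star (x.1.1 1 0) ∧
    star (x.1.1 0 0) * x.1.1 0 0 + star (x.1.1 1 0) * x.1.1 1 0 = 1 := by
  have hd : x.1.1.det = 1 := x.2
  have h1 := conj_mul x.1
  rw [Matrix.det_fin_two] at hd
  have e00 := congrFun (congrFun h1 0) 0
  have e01 := congrFun (congrFun h1 0) 1
  have e10 := congrFun (congrFun h1 1) 0
  have e11 := congrFun (congrFun h1 1) 1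
  rw [Matrix.mul_apply, Fin.sum_univ_two] at e00 e01 e10 e11
  simp only [conjTranspose_apply, Matrix.one_apply_eq, Matrix.one_apply_ne (zero_ne_one),
    Matrix.one_apply_ne (one_ne_zero : (1 : Fin 2) ≠ 0)] at e00 e01 e10 e11
  refine ⟨?_, ?_, e00⟩
  · linear_combination (-x.1.1 1 1) * e00 + star (x.1.1 0 0) * hd + x.1.1 1 0 * e01
  · linear_combination (-x.1.1 0 1) * e00 + x.1.1 0 0 * e01 - star (x.1.1 1 0) * hd

/-- the element of `SU_2` with first column `a`, `b` -/
def su2 (a b : K) (h : star a * a + star b * b = 1) : SU K 2 :=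
  ⟨⟨!![a, - star b; b, star a], by
    rw [Matrix.mem_unitaryGroup_iff', Matrix.star_eq_conjTranspose]
    ext i j
    rw [Matrix.mul_apply, Fin.sum_univ_two]
    fin_cases i <;> fin_cases j <;> simp [conjTranspose_apply]
    · exact h
    · ring
    · ring
    · linear_combination h⟩, by
    change Matrix.det !![a, - star b; b, star a] = 1
    rw [Matrix.det_fin_two_of]
    linear_combination h⟩

lemma su2_val (a b : K) (h : star a * a + star b * b = 1) :
    (su2 a b h).1.1 = !![a, - star b; b, star a] := rfl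

lemma su2_ext {x y : SU K 2} (h0 : x.1.1 0 0 = y.1.1 0 0) (h1 : x.1.1 1 0 = y.1.1 1 0) : x = y := by
  obtain ⟨a1, a2, -⟩ := su2_form x
  obtain ⟨b1, b2, -⟩ := su2_form y
  apply Subtype.ext
  apply Subtype.ext
  ext i j
  fin_cases i <;> fin_cases j
  · exact h0
  · change x.1.1 0 1 = y.1.1 0 1
    rw [a2, b2, h1]
  · exact h1
  · change x.1.1 1 1 = y.1.1 1 1
    rw [a1, b1, h0]

end su2

section iso
variable {K : Type u} [Field K] [StarRing K]

/-- the matrix that conjugates `SL_2(F)` to `SU_2(K)` -/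
def Pm (l d : K) : Matrix (Fin 2) (Fin 2) K := !![1, d; l, l * star d]

lemma det_Pm (l d : K) : (Pm l d).det = l * (star d - d) := by
  rw [Pm, Matrix.det_fin_two_of]; ring

/-- the alternating form -/
def Jm (K : Type u) [Field K] : Matrix (Fin 2) (Fin 2) K := !![0, 1; -1, 0]

lemma Pm_form {l d : K} (hl : star l * l = -1) :
    (Pm l d)ᴴ * Pm l d = (d - star d) • Jm K := by
  ext i j
  rw [Matrix.mul_apply, Fin.sum_univ_two]
  fin_cases i <;> fin_cases j <;> simp [Pm, Jm, conjTranspose_apply]
  · linear_combination hl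
  · linear_combination star d * hl
  · linear_combination d * hl
  · linear_combination d * star d * hl

lemma J_form (X : Matrix (Fin 2) (Fin 2) K) (h : X.det = 1) : Xᵀ * Jm K * X = Jm K := by
  rw [Matrix.det_fin_two] at h
  ext i j
  rw [Matrix.mul_apply, Fin.sum_univ_two, Matrix.mul_apply, Fin.sum_univ_two, Matrix.mul_apply,
    Fin.sum_univ_two]
  fin_cases i <;> fin_cases j <;> simp [Jm, transpose_apply]
  · ring
  · linear_combination h
  · linear_combination -h
  · ring

lemma star_of_J (X : Matrix (Fin 2) (Fin 2) K) (h : X.det = 1) (hJ : Xᴴ * Jm K * X = Jm K) :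
    ∀ i j, star (X i j) = X i j := by
  rw [Matrix.det_fin_two] at h
  have e00 := congrFun (congrFun hJ 0) 0
  have e01 := congrFun (congrFun hJ 0) 1
  have e10 := congrFun (congrFun hJ 1) 0
  have e11 := congrFun (congrFun hJ 1) 1
  rw [Matrix.mul_apply, Fin.sum_univ_two, Matrix.mul_apply, Fin.sum_univ_two, Matrix.mul_apply,
    Fin.sum_univ_two] at e00 e01 e10 e11
  simp [Jm] at e00 e01 e10 e11
  intro i j
  fin_cases i <;> fin_cases j
  · change star (X 0 0) = X 0 0
    linear_combination (-star (X 0 0)) * h + X 0 0 * e01 - X 0 1 * e00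
  · change star (X 0 1) = X 0 1
    linear_combination (-star (X 0 1)) * h + X 0 0 * e11 - X 0 1 * e10
  · change star (X 1 0) = X 1 0
    linear_combination (-star (X 1 0)) * h + X 1 0 * e01 - X 1 1 * e00
  · change star (X 1 1) = X 1 1
    linear_combination (-star (X 1 1)) * h + X 1 0 * e11 - X 1 1 * e10

end iso

end

end Vale.Agent.P240.R2.H923
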