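import Vale.Agent.P240.R2.H923.U2

/-!
P240 (helper923), NL3: the isomorphism `SL_2(F) = SU_2(K)` and the automorphisms of `SU_2(K)`.
-/

set_option autoImplicit false
set_option linter.all false

namespace Vale.Agent.P240.R2.H923

open Matrix Subgroup
open Vale.Agent.P240.H195 (SLm GLm actf actf_val ff_aut)
open Vale.Agent.P240.R2.AS (GU SU PGU PSU SA mapGU SA_star)
open Vale.Agent.P240.R2.H986.St (F0 toK toK_star exists_toK card_F0 star_F0)

universe u

noncomputable section

section iso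
variable {K : Type u} [Field K] [StarRing K]

lemma toK_inj : Function.Injective (toK K) := (toK K).injective

/-- `X ↦ P X Q`, as a matrix over `K` -/
def psM (P Q : Matrix (Fin 2) (Fin 2) K) (X : SLm 1 (F0 K)) : Matrix (Fin 2) (Fin 2) K :=
  P * (X.1.map (toK K)) * Q

lemma map_conj (X : SLm 1 (F0 K)) : (X.1.map (toK K))ᴴ = (X.1.map (toK K))ᵀ := by
  ext i j
  rw [conjTranspose_apply, transpose_apply, Matrix.map_apply, ← toK_star, star_F0]

lemma det_mapK (X : SLm 1 (F0 K)) : (X.1.map (toK K)).det = 1 := by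
  have h1 : (X.1.map (toK K)).det = toK K X.1.det := (RingHom.map_det (toK K) X.1).symm
  rw [h1, X.2, map_one]

lemma mapK_mul (X Y : SLm 1 (F0 K)) :
    (X * Y).1.map (toK K) = X.1.map (toK K) * Y.1.map (toK K) := by
  have : (X * Y).1 = X.1 * Y.1 := rfl
  rw [this, Matrix.map_mul]

variable {P Q : Matrix (Fin 2) (Fin 2) K} {ε : K}

lemma psM_mem (hPQ : P * Q = 1) (hP : Pᴴ * P = ε • Jm K) (X : SLm 1 (F0 K)) :
    psM P Q X ∈ Matrix.unitaryGroup (Fin 2) K := by
  rw [Matrix.mem_unitaryGroup_iff', Matrix.star_eq_conjTranspose, psM]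
  have h2 : Qᴴ * Pᴴ = 1 := by rw [← conjTranspose_mul, hPQ, conjTranspose_one]
  have h3 : (X.1.map (toK K))ᴴ * (Pᴴ * P) * (X.1.map (toK K)) = Pᴴ * P := by
    rw [hP, map_conj, Matrix.mul_smul, Matrix.smul_mul, J_form _ (det_mapK X)]
  rw [conjTranspose_mul, conjTranspose_mul]
  calc Qᴴ * ((X.1.map (toK K))ᴴ * Pᴴ) * (P * (X.1.map (toK K)) * Q)
      = Qᴴ * ((X.1.map (toK K))ᴴ * (Pᴴ * P) * (X.1.map (toK K))) * Q := by
        simp only [Matrix.mul_assoc]
    _ = (Qᴴ * Pᴴ) * (P * Q) := by rw [h3]; simp only [Matrix.mul_assoc]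
    _ = 1 := by rw [h2, hPQ, Matrix.one_mul]

lemma det_psM (hPQ : P * Q = 1) (X : SLm 1 (F0 K)) : (psM P Q X).det = 1 := by
  have h := congrArg Matrix.det hPQ
  rw [det_mul, det_one] at h
  rw [psM, det_mul, det_mul, det_mapK, mul_one, h]

/-- the homomorphism `SL_2(F) → SU_2(K)` -/
def psi (hPQ : P * Q = 1) (hP : Pᴴ * P = ε • Jm K) : SLm 1 (F0 K) →* SU K 2 where
  toFun X := ⟨⟨psM P Q X, psM_mem hPQ hP X⟩, det_psM hPQ X⟩
  map_one' := by
    apply Subtype.ext
    apply Subtype.ext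
    change P * ((1 : SLm 1 (F0 K)).1.map (toK K)) * Q = 1
    have : (1 : SLm 1 (F0 K)).1.map (toK K) = 1 :=
      Matrix.map_one _ (map_zero _) (map_one _)
    rw [this, Matrix.mul_one, hPQ]
  map_mul' X Y := by
    apply Subtype.ext
    apply Subtype.ext
    change P * ((X * Y).1.map (toK K)) * Q = (P * (X.1.map (toK K)) * Q) * (P * (Y.1.map (toK K)) * Q)
    have hQP : Q * P = 1 := mul_eq_one_comm.1 hPQ
    rw [mapK_mul]
    calc _ = P * (X.1.map (toK K) * (Q * P) * Y.1.map (toK K)) * Q := by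
          rw [hQP, Matrix.mul_one]
      _ = _ := by simp only [Matrix.mul_assoc]

lemma psi_val (hPQ : P * Q = 1) (hP : Pᴴ * P = ε • Jm K) (X : SLm 1 (F0 K)) :
    (psi hPQ hP X).1.1 = P * (X.1.map (toK K)) * Q := rfl

lemma psi_bij (hPQ : P * Q = 1) (hP : Pᴴ * P = ε • Jm K) (hε : ε ≠ 0) :
    Function.Bijective (psi hPQ hP) := by
  have hQP : Q * P = 1 := mul_eq_one_comm.1 hPQ
  constructor
  · intro X Y h
    have h1 : P * (X.1.map (toK K)) * Q = P * (Y.1.map (toK K)) * Q :=
      congrArg (fun z : SU K 2 => z.1.1) h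
    have h2 : ∀ A : Matrix (Fin 2) (Fin 2) K, Q * (P * A * Q) * P = A := by
      intro A
      calc _ = (Q * P) * A * (Q * P) := by simp only [Matrix.mul_assoc]
        _ = A := by rw [hQP, Matrix.one_mul, Matrix.mul_one]
    have h3 : X.1.map (toK K) = Y.1.map (toK K) := by
      rw [← h2 (X.1.map (toK K)), h1, h2]
    apply Subtype.ext
    ext i j
    have h4 := congrFun (congrFun h3 i) j
    rw [Matrix.map_apply, Matrix.map_apply] at h4
    exact toK_inj h4
  · intro U
    obtain ⟨Z, hZ⟩ : ∃ Z, Z = Q * U.1.1 * P := ⟨_, rfl⟩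
    have hd : Z.det = 1 := by
      have h := congrArg Matrix.det hQP
      rw [det_mul, det_one] at h
      have hU : U.1.1.det = 1 := U.2
      rw [hZ, det_mul, det_mul, hU, mul_one, h]
    have hJ : Zᴴ * Jm K * Z = Jm K := by
      have h1 : Zᴴ * (Pᴴ * P) * Z = Pᴴ * P := by
        have h2 : Qᴴ * Pᴴ = 1 := by rw [← conjTranspose_mul, hPQ, conjTranspose_one]
        have h2' : Pᴴ * Qᴴ = 1 := by rw [← conjTranspose_mul, hQP, conjTranspose_one]
        rw [hZ, conjTranspose_mul, conjTranspose_mul]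
        calc Pᴴ * (U.1.1ᴴ * Qᴴ) * (Pᴴ * P) * (Q * U.1.1 * P)
            = Pᴴ * (U.1.1ᴴ * (Qᴴ * Pᴴ) * (P * Q) * U.1.1) * P := by
              simp only [Matrix.mul_assoc]
          _ = Pᴴ * P := by
              rw [h2, hPQ, Matrix.mul_one, Matrix.mul_one, conj_mul, Matrix.mul_one]
      rw [hP, Matrix.mul_smul, Matrix.smul_mul] at h1
      exact smul_right_injective _ hε h1
    have hst := star_of_J Z hd hJ
    have hex : ∀ i j, ∃ y : F0 K, toK K y = Z i j := fun i j => exists_toK (hst i j)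
    choose Y hY using hex
    have hYm : (Matrix.of Y).map (toK K) = Z := by
      ext i j
      exact hY i j
    have hdet : (Matrix.of Y).det = 1 := by
      apply toK_inj
      have h1 : ((Matrix.of Y).map (toK K)).det = toK K (Matrix.of Y).det :=
        (RingHom.map_det (toK K) (Matrix.of Y)).symm
      rw [← h1, hYm, hd, map_one]
    refine ⟨⟨Matrix.of Y, hdet⟩, ?_⟩
    apply Subtype.ext
    apply Subtype.ext
    change P * ((Matrix.of Y).map (toK K)) * Q = U.1.1
    rw [hYm, hZ]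
    calc P * (Q * U.1.1 * P) * Q = (P * Q) * U.1.1 * (P * Q) := by simp only [Matrix.mul_assoc]
      _ = U.1.1 := by rw [hPQ, Matrix.one_mul, Matrix.mul_one]

end iso

section ext
variable {K : Type u} [Field K] [Fintype K] [StarRing K] {q : ℕ}

/-- automorphisms of the fixed field extend -/
theorem exists_ext (hs : ∀ x : K, star x = x ^ q) (τ : RingAut (F0 K)) :
    ∃ σ : SA K, ∀ y : F0 K, toK K (τ y) = σ.1 (toK K y) := by
  obtain ⟨r, hr⟩ := CharP.exists K
  haveI : Fact r.Prime := ⟨CharP.char_is_prime K r⟩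
  haveI : CharP (F0 K) r := (toK K).charP toK_inj r
  obtain ⟨k, hk⟩ := ff_aut (r := r) τ
  obtain ⟨σ, hσ⟩ : ∃ σ : K ≃+* K, ∀ x, σ x = x ^ r ^ k :=
    ⟨iterateFrobeniusEquiv K r k, fun x => iterateFrobeniusEquiv_def K r k x⟩
  refine ⟨⟨σ, fun x => ?_⟩, fun y => ?_⟩
  · change σ (star x) = star (σ x)
    rw [hσ, hσ, hs, hs, ← pow_mul, ← pow_mul, mul_comm]
  · change _ = σ (toK K y)
    rw [hσ, hk, map_pow]

lemma exists_delta (hq : 2 ≤ q) (hK : Nat.card K = q ^ 2) (hs : ∀ x : K, star x = x ^ q) :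
    ∃ d : K, star d - d ≠ 0 := by
  by_contra hcon
  push Not at hcon
  have h1 : Function.Surjective (toK K) := fun x => exists_toK (sub_eq_zero.1 (hcon x))
  have h2 := Nat.card_le_card_of_surjective (toK K) h1
  rw [card_F0 hK hs, hK] at h2
  nlinarith

lemma exists_unit (hq : 2 ≤ q) (hK : Nat.card K = q ^ 2) (hs : ∀ x : K, star x = x ^ q) :
    ∃ u : K, star u * u = 1 ∧ u ≠ star u := by
  classical
  by_contra hcon
  push Not at hcon
  have hK' : Fintype.card K = q ^ 2 := by rwa [Nat.card_eq_fintype_card] at hK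
  have h1 := H472.card_norm_one hK' hs
  have h2 : (Finset.univ.filter (fun x : K => star x * x = 1)) ⊆ {1, -1} := by
    intro x hx
    rw [Finset.mem_filter] at hx
    have h3 := hcon x hx.2
    rw [← h3] at hx
    rcases mul_self_eq_one_iff.1 hx.2 with h | h
    · rw [h]; simp
    · rw [h]; simp
  have h3 := Finset.card_le_card h2
  rw [h1] at h3
  have h4 : ({1, -1} : Finset K).card ≤ 2 := Finset.card_le_two
  omega

end ext

end

end Vale.Agent.P240.R2.H923
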